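import Vale.Agent.P132.Stm
import Vale.Agent.P104.VN1

/-! Elementary algebra of the modular data. -/

namespace Vale.Agent.P132

open scoped InnerProductSpace BoundedContinuousFunction ComplexConjugate
open Filter Topology MeasureTheory

universe u

variable {H : Type u} [NormedAddCommGroup H] [InnerProductSpace ℂ H] [CompleteSpace H]

theorem ex_mul (s t : ℝ) : ex s * ex t = ex (s + t) := by
  ext r
  simp only [BoundedContinuousFunction.mul_apply, ex_apply, ← Complex.exp_add]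
  congr 1
  push_cast
  ring

theorem ex_zero : ex 0 = 1 := by
  ext r
  simp

theorem star_ex (t : ℝ) : star (ex t) = ex (-t) := by
  ext r
  simp only [BoundedContinuousFunction.star_apply, ex_apply, RCLike.star_def, ← Complex.exp_conj,
    map_mul, Complex.conj_ofReal, Complex.conj_I]
  congr 1
  push_cast
  ring

theorem norm_ex_apply (t s : ℝ) : ‖ex t s‖ = 1 := Complex.norm_exp_ofReal_mul_I _

omit [CompleteSpace H] in
theorem inner_antiiso (J : H ≃ₗᵢ⋆[ℂ] H) (a b : H) : ⟪J a, J b⟫_ℂ = ⟪b, a⟫_ℂ := by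
  have h1 : ∀ x y : H, (⟪J x, J y⟫_ℂ).re = (⟪y, x⟫_ℂ).re := fun x y => by
    have e1 := norm_add_sq (𝕜 := ℂ) (J x) (J y)
    have e2 := norm_add_sq (𝕜 := ℂ) y x
    rw [← map_add, J.norm_map, J.norm_map, J.norm_map] at e1
    rw [add_comm y x] at e2
    simp only [RCLike.re_to_complex] at e1 e2
    linarith
  apply Complex.ext (h1 a b)
  have h2 := h1 (Complex.I • a) b
  rw [map_smulₛₗ, inner_smul_left, inner_smul_right] at h2
  simp only [Complex.conj_I, map_neg, neg_neg, Complex.mul_re, Complex.I_re, Complex.I_im, zero_mul,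
    one_mul, zero_sub, neg_inj] at h2
  exact h2

namespace HMod

variable {Γ : Set (H × H)} (m : HMod Γ)

theorem inner_J (a b : H) : ⟪m.J a, m.J b⟫_ℂ = ⟪b, a⟫_ℂ := inner_antiiso m.J a b

theorem inner_J_left (a b : H) : ⟪m.J a, b⟫_ℂ = ⟪m.J b, a⟫_ℂ := by
  conv_lhs => rw [← m.JJ b]
  exact m.inner_J _ _

theorem inner_J_right (a b : H) : ⟪a, m.J b⟫_ℂ = ⟪b, m.J a⟫_ℂ := by
  conv_lhs => rw [← m.JJ a]
  exact m.inner_J _ _

theorem cj_cj (x : H →L[ℂ] H) : cj m.J (cj m.J x) = x := by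
  ext η
  simp [m.JJ]

theorem cj_mul (x y : H →L[ℂ] H) : cj m.J (x * y) = cj m.J x * cj m.J y := by
  ext η
  simp [m.JJ]

theorem cj_one : cj m.J 1 = 1 := by
  ext η
  simp [m.JJ]

theorem cj_star (x : H →L[ℂ] H) : cj m.J (star x) = star (cj m.J x) := by
  rw [ContinuousLinearMap.star_eq_adjoint (cj m.J x), ContinuousLinearMap.eq_adjoint_iff]
  intro a b
  simp only [cj_apply]
  rw [m.inner_J_left, m.inner_J_right, ContinuousLinearMap.star_eq_adjoint,
    ContinuousLinearMap.adjoint_inner_right, ← inner_conj_symm, ← m.inner_J, m.JJ,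
    inner_conj_symm]

theorem norm_cj (x : H →L[ℂ] H) : ‖cj m.J x‖ = ‖x‖ := by
  have h : ∀ y : H →L[ℂ] H, ‖cj m.J y‖ ≤ ‖y‖ := fun y =>
    LinearMap.mkContinuous_norm_le _ (norm_nonneg _) _
  refine le_antisymm (h x) ?_
  conv_lhs => rw [← m.cj_cj x]
  exact h _

theorem R_apply (x : H →L[ℂ] H) (η : H) : m.R x η = m.J (star x (m.J η)) := rfl

theorem R_mul (x y : H →L[ℂ] H) : m.R (x * y) = m.R y * m.R x := by
  rw [R, star_mul, cj_mul]
  rfl

theorem R_mul_apply (x y : H →L[ℂ] H) (η : H) : m.R (x * y) η = m.R y (m.R x η) := by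
  rw [R_mul]
  rfl

theorem R_one : m.R 1 = 1 := by rw [R, star_one, cj_one]

theorem R_star (x : H →L[ℂ] H) : m.R (star x) = star (m.R x) := by rw [R, R, cj_star]

theorem R_add (x y : H →L[ℂ] H) : m.R (x + y) = m.R x + m.R y := by
  ext η
  simp [R_apply]

theorem R_sub (x y : H →L[ℂ] H) : m.R (x - y) = m.R x - m.R y := by
  ext η
  simp [R_apply]

theorem R_zero : m.R 0 = 0 := by
  ext η
  simp [R_apply]

theorem R_smul (c : ℂ) (x : H →L[ℂ] H) : m.R (c • x) = c • m.R x := by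
  ext η
  simp [R_apply, map_smulₛₗ]

theorem R_sum {ι : Type*} (s : Finset ι) (x : ι → H →L[ℂ] H) :
    m.R (∑ i ∈ s, x i) = ∑ i ∈ s, m.R (x i) := by
  classical
  induction s using Finset.induction_on with
  | empty => simp [R_zero]
  | insert a s ha ih => rw [Finset.sum_insert ha, Finset.sum_insert ha, R_add, ih]

theorem norm_R (x : H →L[ℂ] H) : ‖m.R x‖ = ‖x‖ := by rw [R, norm_cj, norm_star]

theorem J_apply (x : H →L[ℂ] H) (η : H) : m.J (x η) = m.R (star x) (m.J η) := by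
  rw [R_apply, star_star, m.JJ]

theorem J_R (x : H →L[ℂ] H) (η : H) : m.J (m.R x η) = star x (m.J η) := by
  rw [R_apply, m.JJ]

theorem norm_Φ_le (f : ℝ →ᵇ ℂ) : ‖m.Φ f‖ ≤ ‖f‖ := NonUnitalStarAlgHom.norm_apply_le m.Φ f

theorem Φ_mul_apply (f g : ℝ →ᵇ ℂ) (η : H) : m.Φ (f * g) η = m.Φ f (m.Φ g η) := by
  rw [map_mul]
  rfl

theorem norm_Φ_apply_le (f : ℝ →ᵇ ℂ) (η : H) : ‖m.Φ f η‖ ≤ ‖f‖ * ‖η‖ :=
  ((m.Φ f).le_opNorm η).trans (mul_le_mul_of_nonneg_right (m.norm_Φ_le f) (norm_nonneg _))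

theorem inner_Φ (f : ℝ →ᵇ ℂ) (a b : H) : ⟪m.Φ f a, b⟫_ℂ = ⟪a, m.Φ (star f) b⟫_ℂ := by
  rw [map_star, ContinuousLinearMap.star_eq_adjoint, ContinuousLinearMap.adjoint_inner_right]

theorem U_add (s t : ℝ) : m.U (s + t) = m.U s * m.U t := by rw [U, U, U, ← map_mul, ex_mul]

theorem U_zero : m.U 0 = 1 := by rw [U, ex_zero, map_one]

theorem star_U (t : ℝ) : star (m.U t) = m.U (-t) := by rw [U, U, ← map_star, star_ex]

theorem U_mul_neg (t : ℝ) : m.U t * m.U (-t) = 1 := by rw [← U_add, add_neg_cancel, U_zero]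

theorem U_neg_mul (t : ℝ) : m.U (-t) * m.U t = 1 := by rw [← U_add, neg_add_cancel, U_zero]

theorem U_U_neg (t : ℝ) (η : H) : m.U t (m.U (-t) η) = η := by
  rw [← mul_apply_eq_comp, U_mul_neg, one_apply_eq_self]

theorem U_neg_U (t : ℝ) (η : H) : m.U (-t) (m.U t η) = η := by
  rw [← mul_apply_eq_comp, U_neg_mul, one_apply_eq_self]

theorem U_unitary (t : ℝ) : m.U t ∈ unitary (H →L[ℂ] H) :=
  ⟨by rw [star_U, U_neg_mul], by rw [star_U, U_mul_neg]⟩

theorem norm_U (t : ℝ) (η : H) : ‖m.U t η‖ = ‖η‖ :=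
  Unitary.norm_map ⟨m.U t, m.U_unitary t⟩ η

theorem U_Φ (t : ℝ) (f : ℝ →ᵇ ℂ) (η : H) : m.U t (m.Φ f η) = m.Φ f (m.U t η) := by
  rw [U, ← Φ_mul_apply, ← Φ_mul_apply, mul_comm]

theorem J_U (t : ℝ) (η : H) : m.J (m.U t η) = m.U t (m.J η) := by
  refine m.JΦ _ _ (fun s => ?_) η
  simp only [ex_apply, ← Complex.exp_conj, map_mul, Complex.conj_ofReal, Complex.conj_I]
  congr 1
  push_cast
  ring

theorem U_R (t : ℝ) (x : H →L[ℂ] H) (η : H) :
    m.U t (m.R x η) = m.R (m.U t * x * m.U (-t)) (m.U t η) := by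
  simp only [R_apply, star_mul, star_U, neg_neg, mul_apply_eq_comp, J_U, U_neg_U]

theorem eq_zero_of_cut {η : H} (h : ∀ n, m.Φ (chi n) η = 0) : η = 0 :=
  tendsto_nhds_unique (m.cut η) (by simp only [h]; exact tendsto_const_nhds)

end HMod

variable {M : VonNeumannAlgebra H} {ξ : H}

theorem mem_graphS {x : H →L[ℂ] H} (hx : x ∈ M) : (x ξ, star x ξ) ∈ graphS M ξ :=
  subset_closure ⟨x, hx, rfl⟩

/-- A separating vector is cyclic for the commutant. -/
theorem dense_comm (hs : ∀ x ∈ M, x ξ = 0 → x = 0) :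
    Dense {η | ∃ y ∈ M.commutant, y ξ = η} := by
  let K : Submodule ℂ H :=
    { carrier := {η | ∃ y ∈ M.commutant, y ξ = η}
      add_mem' := by
        rintro _ _ ⟨a, ha, rfl⟩ ⟨b, hb, rfl⟩
        exact ⟨a + b, add_mem ha hb, rfl⟩
      zero_mem' := ⟨0, zero_mem _, rfl⟩
      smul_mem' := by
        rintro c _ ⟨a, ha, rfl⟩
        exact ⟨c • a, M.commutant.toStarSubalgebra.smul_mem ha c, rfl⟩ }
  let P := Kᗮ.starProjection
  have hinv : ∀ y ∈ M.commutant, ∀ η ∈ Kᗮ, y η ∈ Kᗮ := fun y hy η hη => by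
    rw [Submodule.mem_orthogonal]
    rintro _ ⟨a, ha, rfl⟩
    rw [← ContinuousLinearMap.adjoint_inner_left, ← ContinuousLinearMap.star_eq_adjoint]
    exact (Submodule.mem_orthogonal _ _).1 hη _ ⟨star y * a, mul_mem (star_mem hy) ha, rfl⟩
  have hc : ∀ y ∈ M.commutant, P * y * P = y * P := fun y hy => by
    ext η
    exact Submodule.starProjection_eq_self_iff.2 (hinv y hy _ (Kᗮ.starProjection_apply_mem η))
  have hP : IsSelfAdjoint P := isSelfAdjoint_starProjection _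
  have hPM : P ∈ M := P104.mem_of_commute fun y hy => by
    have h1 := hc y hy
    have h2 := congrArg star (hc _ (star_mem hy))
    simp only [star_mul, star_star, hP.star_eq] at h2
    rw [← h1, mul_assoc, h2]
  have h0 : P = 0 := hs P hPM (by
    refine Submodule.starProjection_orthogonal_apply_eq_zero ?_
    exact ⟨1, one_mem _, rfl⟩)
  have hK : Kᗮ = ⊥ := by
    rw [eq_bot_iff]
    intro η hη
    have := Submodule.starProjection_eq_self_iff.2 hη
    change P η = η at this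
    rw [h0] at this
    exact (Submodule.mem_bot ℂ).2 this.symm
  exact Submodule.dense_iff_topologicalClosure_eq_top.2
    (Submodule.topologicalClosure_eq_top_iff.2 hK)

/-- Bounded families that are small on a separating vector are strongly small. -/
theorem strong_of_sep (hs : ∀ x ∈ M, x ξ = 0 → x = 0) (η : H) (C ε : ℝ) (hε : 0 < ε) :
    ∃ δ > 0, ∀ z ∈ M, ‖z‖ ≤ C → ‖z ξ‖ ≤ δ → ‖z η‖ ≤ ε := by
  have hC : 0 < |C| + 1 := by positivity
  obtain ⟨_, ⟨y, hy, rfl⟩, h⟩ := (dense_comm hs).exists_dist_lt η (half_pos (div_pos hε hC))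
  refine ⟨ε / 2 / (‖y‖ + 1), by positivity, fun z hz hzC hzξ => ?_⟩
  have e : z η = z (η - y ξ) + y (z ξ) := by
    rw [map_sub, ← mul_apply_eq_comp y z, ← P104.commute_of_mem hz hy,
      mul_apply_eq_comp, sub_add_cancel]
  rw [dist_eq_norm] at h
  have h1 : ‖z (η - y ξ)‖ ≤ ε / 2 := by
    refine (z.le_opNorm _).trans ?_
    calc ‖z‖ * ‖η - y ξ‖ ≤ (|C| + 1) * (ε / (|C| + 1) / 2) :=
          mul_le_mul (by linarith [le_abs_self C]) h.le (norm_nonneg _) hC.le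
      _ = ε / 2 := by field_simp
  have h2 : ‖y (z ξ)‖ ≤ ε / 2 := by
    refine (y.le_opNorm _).trans ?_
    calc ‖y‖ * ‖z ξ‖ ≤ (‖y‖ + 1) * (ε / 2 / (‖y‖ + 1)) :=
          mul_le_mul (by linarith) hzξ (norm_nonneg _) (by positivity)
      _ = ε / 2 := by field_simp
  rw [e]
  linarith [norm_add_le (z (η - y ξ)) (y (z ξ))]

namespace Mod

variable (m : Mod M ξ)

theorem R_mem {x : H →L[ℂ] H} (hx : x ∈ M) : m.R x ∈ M.commutant := m.rt _ (star_mem hx)

theorem comm_R {x y : H →L[ℂ] H} (hx : x ∈ M) (hy : y ∈ M) (η : H) :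
    x (m.R y η) = m.R y (x η) := by
  rw [← mul_apply_eq_comp, P104.commute_of_mem hx (m.R_mem hy),
    mul_apply_eq_comp]

theorem U_ξ (t : ℝ) : m.U t ξ = ξ := by
  rw [HMod.U, m.fix]
  simp

theorem σ_mem (t : ℝ) {x : H →L[ℂ] H} (hx : x ∈ M) : m.U t * x * m.U (-t) ∈ M := m.inv t x hx

theorem R_ξ (x : H →L[ℂ] H) : m.R x ξ = m.J (star x ξ) := by rw [HMod.R_apply, m.Jξ]

theorem norm_R_ξ (x : H →L[ℂ] H) : ‖m.R x ξ‖ = ‖star x ξ‖ := by rw [R_ξ, m.J.norm_map]

/-- `ξ x = Δ^(1/2) x ξ`. -/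
theorem Φ_R_ξ {x : H →L[ℂ] H} (hx : x ∈ M) (f g : ℝ →ᵇ ℂ)
    (h : ∀ s, g s = f s * (Real.exp (s / 2) : ℝ)) : m.Φ f (m.R x ξ) = m.Φ g (x ξ) := by
  rw [R_ξ]
  exact m.graph _ (mem_graphS hx) f g h

theorem norm_comm_star (x : H →L[ℂ] H) :
    ‖star x ξ - m.R (star x) ξ‖ = ‖x ξ - m.R x ξ‖ := by
  rw [← m.J.norm_map, map_sub, m.J_apply, m.J_R, star_star, m.Jξ, norm_sub_rev]

end Mod

/-- Invariant vectors are eigenvectors of the functional calculus. -/
theorem inv_fix (hF : FiltStmt.{u}) {Γ : Set (H × H)} (m : HMod Γ) {η : H}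
    (h : ∀ t, m.U t η = η) (f : ℝ →ᵇ ℂ) : m.Φ f η = f 0 • η := by
  obtain ⟨h1, ⟨k, g, hk, hg, g0, g1⟩, -⟩ := hF
  have key : ∀ κ : ℝ, 0 < κ → ∃ g' : ℝ →ᵇ ℂ, ‖g'‖ ≤ ‖g‖ ∧ (∀ s, κ ≤ |s| → g' s = 0) ∧
      m.Φ g' η = η := fun κ hκ => by
    let g' : ℝ →ᵇ ℂ := g.compContinuous ⟨fun s => s / κ, by fun_prop⟩
    have hk' : Integrable fun t => (κ : ℂ) * k (κ * t) :=
      (hk.comp_mul_left' hκ.ne').const_mul _
    have hi : ∀ F : ℝ → ℂ, ∫ t, (κ : ℂ) * F (κ * t) = ∫ t, F t := fun F => by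
      rw [integral_const_mul, Measure.integral_comp_mul_left, abs_of_pos (inv_pos.2 hκ),
        Complex.real_smul, ← mul_assoc]
      push_cast
      rw [mul_inv_cancel₀ (by exact_mod_cast hκ.ne'), one_mul]
    refine ⟨g', g.norm_compContinuous_le _, fun s hs => g1 _ ?_, ?_⟩
    · change 1 ≤ |s / κ|
      rw [abs_div, abs_of_pos hκ, le_div_iff₀ hκ, one_mul]
      exact hs
    · rw [← ((h1 H Γ m).2.1 _ g' hk' (fun s => ?_) η)]
      · simp only [h]
        rw [integral_smul_const, hi k]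
        have := hg 0
        simp only [ex_apply, mul_zero, Complex.ofReal_zero, zero_mul, Complex.exp_zero,
          mul_one] at this
        rw [← this, g0, one_smul]
      · change g (s / κ) = _
        rw [hg, ← hi]
        refine integral_congr_ae (Eventually.of_forall fun t => ?_)
        simp only [ex_apply, mul_assoc]
        congr 4
        field_simp
  rw [← sub_eq_zero, ← norm_le_zero_iff]
  refine le_of_forall_pos_le_add fun ε hε => ?_
  have hA : 0 < ‖g‖ * ‖η‖ + 1 := by positivity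
  obtain ⟨κ, hκ, hc⟩ := Metric.continuousAt_iff.1 (f.continuous.continuousAt (x := 0)) _
    (div_pos hε hA)
  obtain ⟨g', n1, n2, n3⟩ := key κ hκ
  have e : m.Φ f η - f 0 • η = m.Φ ((f - f 0 • 1) * g') η := by
    rw [m.Φ_mul_apply, n3, map_sub, map_smul, map_one]
    rfl
  have hb : ‖(f - f 0 • 1) * g'‖ ≤ ε / (‖g‖ * ‖η‖ + 1) * ‖g‖ := by
    refine (BoundedContinuousFunction.norm_le (by positivity)).2 fun s => ?_
    rw [BoundedContinuousFunction.mul_apply, norm_mul]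
    by_cases hs : κ ≤ |s|
    · rw [n2 s hs, norm_zero, mul_zero]
      positivity
    · refine mul_le_mul ?_ ((g'.norm_coe_le_norm s).trans n1) (norm_nonneg _) (by positivity)
      have := hc (x := s) (by rw [Real.dist_eq, sub_zero]; exact not_le.1 hs)
      rw [dist_eq_norm] at this
      simpa using this.le
  rw [e, zero_add]
  refine (m.norm_Φ_apply_le _ _).trans ((mul_le_mul_of_nonneg_right hb (norm_nonneg _)).trans ?_)
  rw [mul_assoc, div_mul_eq_mul_div, div_le_iff₀ hA]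
  nlinarith

end Vale.Agent.P132
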