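import Vale.Agent.P132.BI

/-! WP B, part 2: filters on vectors, on operators, and Fourier kernels. -/

namespace Vale.Agent.P132

open scoped InnerProductSpace BoundedContinuousFunction ComplexConjugate FourierTransform
open Filter Topology MeasureTheory

universe u

namespace BF

theorem chi_supp (n : ℕ) : HasCompactSupport (chi n) := by
  refine HasCompactSupport.intro (isCompact_Icc (a := -((n : ℝ) + 1)) (b := (n : ℝ) + 1))
    fun s hs => ?_
  have h : (n : ℝ) + 1 - |s| ≤ 0 := by
    rw [Set.mem_Icc, ← abs_le] at hs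
    linarith [not_le.1 hs]
  rw [chi_apply, max_eq_left ((min_le_right _ _).trans h), Complex.ofReal_zero]

section

variable {H : Type u} [NormedAddCommGroup H] [InnerProductSpace ℂ H] [CompleteSpace H]
  {Γ : Set (H × H)} (m : HMod Γ)

theorem norm_U_le (t : ℝ) (η : H) : ‖m.U t η‖ ≤ ‖η‖ :=
  (norm_Phi_apply m.Φ _ η).trans (mul_le_of_le_one_left (norm_nonneg _) (norm_ex_le t))

theorem U_Phi (t : ℝ) (f : ℝ →ᵇ ℂ) (η : H) : m.U t (m.Φ f η) = m.Φ (ex t * f) η := by
  rw [map_mul]
  rfl

theorem cont_U (η : H) : Continuous fun t => m.U t η := by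
  refine continuous_of_uniform_approx_of_continuous fun u hu => ?_
  obtain ⟨ε, hε, hu'⟩ := Metric.mem_uniformity_dist.1 hu
  obtain ⟨n, hn⟩ := Metric.tendsto_atTop.1 (m.cut η) ε hε
  refine ⟨fun t => m.Φ (ex t * chi n) η, ?_, fun t => hu' ?_⟩
  · exact ((cont_Phi m.Φ).comp (cont_ex_mul _ (chi_supp n))).clm_apply continuous_const
  · beta_reduce
    rw [← U_Phi, dist_eq_norm, ← map_sub]
    refine (norm_U_le m t _).trans_lt ?_
    rw [← dist_eq_norm, dist_comm]
    exact hn n le_rfl

theorem cont_U2 {v : ℝ → H} (hv : Continuous v) : Continuous fun t => m.U t (v t) := by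
  rw [continuous_iff_continuousAt]
  intro t
  have h1 : Tendsto (fun s => m.U s (v s - v t)) (𝓝 t) (𝓝 0) := by
    refine squeeze_zero_norm (fun s => norm_U_le m s _) ?_
    exact tendsto_iff_norm_sub_tendsto_zero.1 hv.continuousAt
  have h2 := h1.add (cont_U m (v t)).continuousAt.tendsto
  simp only [map_sub, sub_add_cancel, zero_add] at h2
  exact h2

theorem filt_vec (k : ℝ → ℂ) (f : ℝ →ᵇ ℂ) (hk : Integrable k)
    (hf : ∀ s, f s = ∫ t, k t * ex t s) (η : H) : ∫ t, k t • m.U t η = m.Φ f η := by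
  have ig : ∀ n, Integrable fun t => k t • (ex t * chi n) := fun n =>
    intg hk (cont_ex_mul _ (chi_supp n)) ‖chi n‖ fun t => norm_ex_mul_le _ _
  have e1 : ∀ n, ∫ t, k t • (ex t * chi n) = f * chi n := fun n => by
    refine int_eq (ig n) _ fun s => ?_
    rw [BoundedContinuousFunction.mul_apply, hf, ← integral_mul_const]
    refine integral_congr_ae (Eventually.of_forall fun t => ?_)
    simp only [BoundedContinuousFunction.smul_apply, BoundedContinuousFunction.mul_apply,
      smul_eq_mul, mul_assoc]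
  have e2 : ∀ n, ∫ t, k t • m.U t (m.Φ (chi n) η) = m.Φ f (m.Φ (chi n) η) := fun n => by
    have := ((ContinuousLinearMap.apply ℂ H η).comp (PL m.Φ)).integral_comp_comm (ig n)
    rw [e1] at this
    simp only [ContinuousLinearMap.comp_apply, PL_apply, ContinuousLinearMap.apply_apply, map_smul,
      map_mul] at this
    exact this
  have l1 : Tendsto (fun n => ∫ t, k t • m.U t (m.Φ (chi n) η)) atTop
      (𝓝 (∫ t, k t • m.U t η)) := by
    refine tendsto_integral_of_dominated_convergence (fun t => ‖k t‖ * ‖η‖) (fun n => ?_)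
      (hk.norm.mul_const _) (fun n => Eventually.of_forall fun t => ?_)
      (Eventually.of_forall fun t => ?_)
    · exact hk.aestronglyMeasurable.smul (cont_U m _).aestronglyMeasurable
    · rw [norm_smul]
      refine mul_le_mul_of_nonneg_left ((norm_U_le m _ _).trans ((norm_Phi_apply _ _ _).trans
        (mul_le_of_le_one_left (norm_nonneg _) ?_))) (norm_nonneg _)
      refine (BoundedContinuousFunction.norm_le zero_le_one).2 fun s => ?_
      rw [chi_apply, Complex.norm_real, Real.norm_eq_abs, abs_of_nonneg (le_max_left _ _)]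
      exact max_le zero_le_one (min_le_left _ _)
    · exact (((m.U t).continuous.tendsto η).comp (m.cut η)).const_smul _
  simp only [e2] at l1
  exact tendsto_nhds_unique l1 (((m.Φ f).continuous.tendsto η).comp (m.cut η))

theorem filt_op (k : ℝ → ℂ) (x : H →L[ℂ] H) (hk : Integrable k) : ∃ y : H →L[ℂ] H,
    (∀ η, y η = ∫ t, k t • m.U t (x (m.U (-t) η))) ∧
    ∀ N : VonNeumannAlgebra H, (∀ t, m.U t * x * m.U (-t) ∈ N) → y ∈ N := by
  have bd : ∀ η t, ‖m.U t (x (m.U (-t) η))‖ ≤ ‖x‖ * ‖η‖ := fun η t =>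
    (norm_U_le m _ _).trans ((x.le_opNorm _).trans
      (mul_le_mul_of_nonneg_left (norm_U_le m _ _) (norm_nonneg _)))
  have ig : ∀ η, Integrable fun t => k t • m.U t (x (m.U (-t) η)) := fun η =>
    intg hk (cont_U2 m (x.continuous.comp ((cont_U m η).comp continuous_neg))) _ (bd η)
  let y : H →L[ℂ] H := LinearMap.mkContinuous
    { toFun := fun η => ∫ t, k t • m.U t (x (m.U (-t) η))
      map_add' := fun a b => by
        rw [← integral_add (ig a) (ig b)]
        simp only [map_add, smul_add]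
      map_smul' := fun c a => by
        rw [RingHom.id_apply, ← integral_smul]
        simp only [map_smul, smul_comm c] } ((∫ t, ‖k t‖) * ‖x‖) fun η => by
    change ‖∫ t, k t • m.U t (x (m.U (-t) η))‖ ≤ _
    rw [mul_assoc, ← integral_mul_const]
    refine norm_integral_le_of_norm_le (hk.norm.mul_const _) (Eventually.of_forall fun t => ?_)
    rw [norm_smul]
    exact mul_le_mul_of_nonneg_left (bd η t) (norm_nonneg _)
  have hy : ∀ η, y η = ∫ t, k t • m.U t (x (m.U (-t) η)) := fun _ => rfl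
  refine ⟨y, hy, fun N hN => ?_⟩
  rw [← N.commutant_commutant, VonNeumannAlgebra.mem_commutant_iff]
  intro z hz
  ext η
  rw [mul_apply_eq_comp, mul_apply_eq_comp, hy, hy,
    ← z.integral_comp_comm (ig η)]
  refine integral_congr_ae (Eventually.of_forall fun t => ?_)
  have := congrArg (fun w : H →L[ℂ] H => w η) (VonNeumannAlgebra.mem_commutant_iff.1 hz _ (hN t))
  simp only [mul_apply_eq_comp] at this
  simp only [map_smul, this]

end

theorem cont_four {g : ℝ → ℂ} (hg : Integrable g) : Continuous (𝓕 g) :=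
  VectorFourier.fourierIntegral_continuous Real.continuous_fourierChar (innerSL ℝ).continuous₂ hg

theorem norm_four (g : ℝ → ℂ) (w : ℝ) : ‖𝓕 g w‖ ≤ ∫ s, ‖g s‖ :=
  VectorFourier.norm_fourierIntegral_le_integral_norm _ _ _ _ _

theorem int_four {g g1 g2 : ℝ → ℂ} (h1 : ∀ s, HasDerivAt g (g1 s) s)
    (h2 : ∀ s, HasDerivAt g1 (g2 s) s) (i0 : Integrable g) (i1 : Integrable g1)
    (i2 : Integrable g2) : Integrable (𝓕 g) := by
  have d1 : deriv g = g1 := funext fun s => (h1 s).deriv
  have d2 : deriv g1 = g2 := funext fun s => (h2 s).deriv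
  have f1 := Real.fourier_deriv i0 (fun s => (h1 s).differentiableAt) (d1 ▸ i1)
  have f2 := Real.fourier_deriv i1 (fun s => (h2 s).differentiableAt) (d2 ▸ i2)
  rw [d1] at f1
  rw [d2] at f2
  refine (integrable_inv_one_add_sq.const_mul ((∫ s, ‖g s‖) + ∫ s, ‖g2 s‖)).mono'
    (cont_four i0).aestronglyMeasurable (Eventually.of_forall fun w => ?_)
  have b0 := norm_four g w
  have b2 := norm_four g2 w
  rw [f2, f1] at b2
  simp only [norm_smul, norm_mul, Complex.norm_real, Complex.norm_I, Complex.norm_ofNat,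
    Real.norm_eq_abs, mul_one, abs_of_pos Real.pi_pos] at b2
  rw [← div_eq_mul_inv, le_div_iff₀ (by positivity)]
  have hπ : 1 ≤ 2 * Real.pi := by linarith [Real.pi_gt_three]
  have h3 : w ^ 2 ≤ 2 * Real.pi * |w| * (2 * Real.pi * |w|) := by
    rw [← sq_abs, sq]
    have : |w| ≤ 2 * Real.pi * |w| := le_mul_of_one_le_left (abs_nonneg _) hπ
    exact mul_le_mul this this (abs_nonneg _) (by positivity)
  have h4 := mul_le_mul_of_nonneg_left h3 (norm_nonneg (𝓕 g w))
  nlinarith

theorem ker {g : ℝ → ℂ} (hc : Continuous g) (i0 : Integrable g) (i1 : Integrable (𝓕 g)) :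
    ∃ k : ℝ → ℂ, Integrable k ∧ Continuous k ∧ k 0 * (2 * Real.pi : ℝ) = ∫ s, g s ∧
      ∀ s, ∫ t, k t * ex t s = g s := by
  have hπ : 0 < 2 * Real.pi := by positivity
  have hπ' : ((2 * Real.pi : ℝ) : ℂ) ≠ 0 := Complex.ofReal_ne_zero.2 hπ.ne'
  refine ⟨fun t => ((2 * Real.pi : ℝ) : ℂ)⁻¹ * 𝓕 g (t / (2 * Real.pi)),
    (i1.comp_div hπ.ne').const_mul _,
    continuous_const.mul ((cont_four i0).comp (continuous_id.div_const _)), ?_, fun s => ?_⟩
  · beta_reduce
    rw [zero_div, Real.fourier_real_eq_integral_exp_smul, mul_right_comm, inv_mul_cancel₀ hπ',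
      one_mul]
    simp
  · rw [← congrFun (hc.fourierInv_fourier_eq i0 i1) s, Real.fourierInv_eq']
    have := Measure.integral_comp_div (fun v : ℝ => ((2 * Real.pi : ℝ) : ℂ)⁻¹ *
      (Complex.exp (((2 * Real.pi * ⟪v, s⟫_ℝ : ℝ) : ℂ) * Complex.I) • 𝓕 g v)) (2 * Real.pi)
    rw [integral_const_mul, integral_const_mul, abs_of_pos hπ, Complex.real_smul, ← mul_assoc,
      mul_inv_cancel₀ hπ', one_mul, ← integral_const_mul] at this
    rw [← this]
    refine integral_congr_ae (Eventually.of_forall fun t => ?_)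
    have e : 2 * Real.pi * ⟪t / (2 * Real.pi), s⟫_ℝ = t * s := by
      rw [show ⟪t / (2 * Real.pi), s⟫_ℝ = s * (t / (2 * Real.pi)) by simp]
      field_simp
    simp only [e, ex_apply, smul_eq_mul]
    ring

theorem bump : ∃ (k : ℝ → ℂ) (f : ℝ →ᵇ ℂ), Integrable k ∧ (∀ s, f s = ∫ t, k t * ex t s) ∧
    f 0 = 1 ∧ ∀ s, 1 ≤ |s| → f s = 0 := by
  let b : ContDiffBump (0 : ℝ) := ⟨1 / 2, 1, by norm_num, by norm_num⟩
  let g : ℝ → ℂ := fun s => (b s : ℂ)
  have hg : ContDiff ℝ 2 g := Complex.ofRealCLM.contDiff.comp b.contDiff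
  have hs : HasCompactSupport g := b.hasCompactSupport.comp_left Complex.ofReal_zero
  have hg1 : ContDiff ℝ 1 (deriv g) := hg.deriv'
  have hg2 : ContDiff ℝ 0 (deriv (deriv g)) := hg1.deriv'
  have i0 := hg.continuous.integrable_of_hasCompactSupport (μ := volume) hs
  obtain ⟨k, hk, -, -, h⟩ := ker hg.continuous i0 (int_four
    (fun s => (hg.differentiable (by norm_num) s).hasDerivAt)
    (fun s => (hg1.differentiable (by norm_num) s).hasDerivAt) i0
    (hg1.continuous.integrable_of_hasCompactSupport hs.deriv)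
    (hg2.continuous.integrable_of_hasCompactSupport hs.deriv.deriv))
  refine ⟨k, BoundedContinuousFunction.ofNormedAddCommGroup g hg.continuous 1 fun s => ?_, hk,
    fun s => (h s).symm, ?_, fun s hs => ?_⟩
  · change ‖(b s : ℂ)‖ ≤ 1
    rw [Complex.norm_real, Real.norm_eq_abs, abs_of_nonneg b.nonneg]
    exact b.le_one
  · change ((b 0 : ℝ) : ℂ) = 1
    rw [b.one_of_mem_closedBall (Metric.mem_closedBall_self b.rIn_pos.le), Complex.ofReal_one]
  · change ((b s : ℝ) : ℂ) = 0
    rw [b.zero_of_le_dist (by rw [Real.dist_eq, sub_zero]; exact hs), Complex.ofReal_zero]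

theorem sech : ∃ k : ℝ → ℂ, Integrable k ∧ Continuous k ∧ k 0 ≠ 0 ∧
    ∀ s : ℝ, ∫ t, k t * ex t s = ((1 / (Real.exp (s / 2) + Real.exp (-s / 2)) : ℝ) : ℂ) := by
  let c : ℝ → ℝ := fun s => Real.exp (s / 2) + Real.exp (-s / 2)
  let d : ℝ → ℝ := fun s => (Real.exp (s / 2) - Real.exp (-s / 2)) / 2
  have cpos : ∀ s, 0 < c s := fun s => by positivity
  have e1 : ∀ s : ℝ, HasDerivAt (fun s : ℝ => Real.exp (s / 2)) (Real.exp (s / 2) * (1 / 2)) s :=
    fun s => ((hasDerivAt_id' s).div_const 2).exp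
  have e2 : ∀ s : ℝ, HasDerivAt (fun s : ℝ => Real.exp (-s / 2))
      (Real.exp (-s / 2) * (-1 / 2)) s := fun s => ((hasDerivAt_neg' s).div_const 2).exp
  have dc : ∀ s, HasDerivAt c (d s) s := fun s =>
    ((e1 s).fun_add (e2 s)).congr_deriv (by simp only [d]; ring)
  have dd : ∀ s, HasDerivAt d (c s / 4) s := fun s =>
    (((e1 s).fun_sub (e2 s)).div_const 2).congr_deriv (by simp only [c]; ring)
  have cc : Continuous c := continuous_iff_continuousAt.2 fun s => (dc s).continuousAt
  have cd : Continuous d := continuous_iff_continuousAt.2 fun s => (dd s).continuousAt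
  have hd : ∀ s, |d s| ≤ c s := fun s => by
    have := Real.exp_pos (s / 2)
    have := Real.exp_pos (-s / 2)
    rw [abs_le]
    constructor <;> simp only [c, d] <;> linarith
  have hc : ∀ s, 1 + s ^ 2 ≤ 8 * c s := fun s => by
    have h1 := Real.exp_pos (s / 2)
    have h2 := Real.exp_pos (-s / 2)
    rcases le_total 0 s with h | h
    · have := Real.quadratic_le_exp_of_nonneg (x := s / 2) (by linarith)
      simp only [c]
      nlinarith
    · have := Real.quadratic_le_exp_of_nonneg (x := -s / 2) (by linarith)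
      simp only [c]
      nlinarith
  have ii : ∀ (r : ℝ → ℝ) (C : ℝ), 0 ≤ C → Continuous r → (∀ s, |r s| * c s ≤ C) →
      Integrable fun s => (r s : ℂ) := fun r C hC hr h => by
    refine Integrable.ofReal ((integrable_inv_one_add_sq.const_mul (8 * C)).mono'
      hr.aestronglyMeasurable (Eventually.of_forall fun s => ?_))
    rw [← div_eq_mul_inv, le_div_iff₀ (by positivity), Real.norm_eq_abs]
    nlinarith [mul_le_mul_of_nonneg_left (hc s) (abs_nonneg (r s)), h s]
  let g0 : ℝ → ℝ := fun s => 1 / c s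
  let g1 : ℝ → ℝ := fun s => -d s / c s ^ 2
  let g2 : ℝ → ℝ := fun s => -1 / (4 * c s) + 2 * d s ^ 2 / c s ^ 3
  have d0 : ∀ s, HasDerivAt g0 (g1 s) s := fun s =>
    ((hasDerivAt_const s (1 : ℝ)).fun_div (dc s) (cpos s).ne').congr_deriv (by simp only [g1]; ring)
  have d1 : ∀ s, HasDerivAt g1 (g2 s) s := fun s =>
    ((dd s).fun_neg.fun_div ((dc s).fun_pow 2) (pow_pos (cpos s) 2).ne').congr_deriv (by
      have := (cpos s).ne'
      simp only [g2]
      field_simp
      ring)
  have c0 : Continuous g0 := continuous_iff_continuousAt.2 fun s => (d0 s).continuousAt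
  have c1 : Continuous g1 := continuous_iff_continuousAt.2 fun s => (d1 s).continuousAt
  have c2 : Continuous g2 :=
    (continuous_const.div (continuous_const.mul cc) fun s => (mul_pos four_pos (cpos s)).ne').add
      ((continuous_const.mul (cd.pow 2)).div (cc.pow 3) fun s => (pow_pos (cpos s) 3).ne')
  have i0 := ii g0 1 zero_le_one c0 fun s => by
    have := cpos s
    simp only [g0]
    rw [abs_of_pos (by positivity), one_div, inv_mul_cancel₀ this.ne']
  have i1 := ii g1 1 zero_le_one c1 fun s => by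
    have := cpos s
    simp only [g1]
    rw [abs_div, abs_neg, abs_of_pos (pow_pos this 2), div_mul_eq_mul_div,
      div_le_one (pow_pos this 2), sq]
    exact mul_le_mul_of_nonneg_right (hd s) this.le
  have i2 := ii g2 3 (by norm_num) c2 fun s => by
    have := cpos s
    have h1 : d s ^ 2 ≤ c s ^ 2 := by
      rw [← sq_abs]
      exact pow_le_pow_left₀ (abs_nonneg _) (hd s) 2
    have h2 : g2 s * c s = -1 / 4 + 2 * (d s ^ 2 / c s ^ 2) := by
      simp only [g2]
      field_simp
    have h3 : d s ^ 2 / c s ^ 2 ≤ 1 := (div_le_one (pow_pos this 2)).2 h1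
    have h4 : 0 ≤ d s ^ 2 / c s ^ 2 := by positivity
    rw [← abs_of_pos this, ← abs_mul, h2, abs_le]
    constructor <;> linarith
  obtain ⟨k, hk, hkc, h0, h⟩ := ker (Complex.continuous_ofReal.comp c0) i0 (int_four
    (fun s => (d0 s).ofReal_comp) (fun s => (d1 s).ofReal_comp) i0 i1 i2)
  refine ⟨k, hk, hkc, fun hk0 => ?_, h⟩
  rw [hk0, zero_mul] at h0
  have h1 : ∫ s, g0 s = 0 := by
    have : ((∫ s, g0 s : ℝ) : ℂ) = 0 := by
      rw [← integral_complex_ofReal]
      exact h0.symm
    exact Complex.ofReal_eq_zero.1 this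
  have h2 : 0 < ∫ s, g0 s :=
    integral_pos_of_integrable_nonneg_nonzero (x := 0) c0 (by simpa using i0.re)
      (fun s => (one_div_pos.2 (cpos s)).le) (one_div_pos.2 (cpos 0)).ne'
  exact h2.ne' h1

theorem uniq (g : ℝ → ℂ) (hg : Integrable g) (hc : Continuous g)
    (h : ∀ s, ∫ t, g t * ex t s = 0) (t : ℝ) : g t = 0 := by
  have e : 𝓕 g = 0 := by
    funext w
    rw [Real.fourier_real_eq_integral_exp_smul, Pi.zero_apply, ← h (-2 * Real.pi * w)]
    refine integral_congr_ae (Eventually.of_forall fun v => ?_)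
    simp only [ex_apply, smul_eq_mul]
    rw [mul_comm (g v)]
    congr 4
    ring
  have := congrFun (hc.fourierInv_fourier_eq hg (e ▸ integrable_zero _ _ _)) t
  rw [← this, e, Real.fourierInv_eq']
  simp

end BF

theorem filt : FiltStmt.{u} :=
  ⟨fun _ _ _ _ _ m => ⟨BF.cont_U m, BF.filt_vec m, BF.filt_op m⟩, BF.bump, BF.sech, BF.uniq⟩

end Vale.Agent.P132
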