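import Vale.Agent.P132.T1b

/-! Polar decomposition of a closed conjugate linear involution. -/

namespace Vale.Agent.P132

open scoped InnerProductSpace BoundedContinuousFunction ComplexConjugate
open Filter Topology

universe u

theorem star_xK : star xK = xK := by
  ext z
  change conj z.1 = z.1
  rw [← KI.coe z, Complex.conj_ofReal]

theorem flK_xK : flK xK = 1 - xK := by
  ext z
  change conj (1 - z.1) = 1 - z.1
  rw [map_sub, map_one, ← KI.coe z, Complex.conj_ofReal]

theorem flK_dK : flK dK = dK := by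
  ext z
  simp [dd_refl]

theorem flK_cont : Continuous flK :=
  continuous_star.comp (ContinuousMap.continuous_precomp KI.refl)

theorem cut_bound (n : ℕ) (z : KI) : ‖(lK (chi (n + 1)) - dK) z‖ ≤ √(1 / ((n : ℝ) + 1)) := by
  have e : (lK (chi (n + 1)) - dK) z = (dd z.1.re : ℂ) * (chi (n + 1) (lam z.1.re) - 1) := by
    simp [mul_sub]
  rw [e]
  by_cases h : 0 < z.1.re ∧ z.1.re < 1
  · have h1 := dd_lam h
    rw [chi_apply, ← Complex.ofReal_one, ← Complex.ofReal_sub, ← Complex.ofReal_mul,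
      Complex.norm_real, Real.norm_eq_abs]
    by_cases h2 : |lam z.1.re| ≤ (n : ℝ) + 1
    · rw [min_eq_left (by push_cast; linarith), max_eq_right zero_le_one]
      simp
    · apply Real.le_sqrt_of_sq_le
      have h3 : 0 ≤ max 0 (min 1 (((n + 1 : ℕ) : ℝ) + 1 - |lam z.1.re|)) := le_max_left _ _
      have h4 : max 0 (min 1 (((n + 1 : ℕ) : ℝ) + 1 - |lam z.1.re|)) ≤ 1 :=
        max_le zero_le_one (min_le_left _ _)
      generalize max 0 (min 1 (((n + 1 : ℕ) : ℝ) + 1 - |lam z.1.re|)) = c at h3 h4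
      have h5 : (0 : ℝ) < n + 1 := by positivity
      rw [sq_abs, le_div_iff₀ h5]
      have h6 : (c - 1) ^ 2 ≤ 1 := by nlinarith
      have h7 := mul_self_nonneg (dd z.1.re)
      have h8 : dd z.1.re * dd z.1.re * ((n : ℝ) + 1) ≤ 1 :=
        (mul_le_mul_of_nonneg_left (not_le.1 h2).le h7).trans h1
      calc (dd z.1.re * (c - 1)) ^ 2 * ((n : ℝ) + 1)
          = dd z.1.re * dd z.1.re * ((n : ℝ) + 1) * (c - 1) ^ 2 := by ring
        _ ≤ 1 * 1 := mul_le_mul h8 h6 (sq_nonneg _) zero_le_one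
        _ = 1 := one_mul _
  · rw [dd_zero h]
    simp

theorem t1 : T1Stmt.{u} := by
  intro H _ _ _ Γ hc h0 ha hs hw hdm hz
  obtain ⟨C, B, hP, c0, c1, ci, bc, bb, bi, gr⟩ := t1_data Γ hc h0 ha hs hw hdm hz
  obtain ⟨Ψ, hΨ, hx⟩ := t1_psi c0 c1
  have dsq : ∀ h, Ψ dK (Ψ dK h) = C h - C (C h) := fun h => by
    rw [← ContinuousLinearMap.mul_apply, ← map_mul, dK_sq, map_sub, map_mul, hx]
    rfl
  have hi : ∀ h, Ψ dK h = 0 → h = 0 := fun h hh => ci h (by rw [← dsq, hh, map_zero])
  have hsa : IsSelfAdjoint (Ψ dK) := by rw [IsSelfAdjoint, ← map_star, star_dK]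
  have hd : DenseRange (Ψ dK) := t1_dense hsa hi
  obtain ⟨Φ, hΦ⟩ := t1_phi Ψ hi
  have pΦ : ∀ f h, Φ f (Ψ dK h) = Ψ (lK f) h := fun f h => by rw [← hΦ]; rfl
  have mm : ∀ F G h, Ψ F (Ψ G h) = Ψ (F * G) h := fun F G h => by rw [map_mul]; rfl
  have dΦ : ∀ f h, Ψ dK (Φ f h) = Ψ (lK f) h := fun f h => by
    refine hd.induction_on (p := fun h => Ψ dK (Φ f h) = Ψ (lK f) h) h
      (isClosed_eq (by fun_prop) (by fun_prop)) fun k => ?_
    rw [pΦ, mm, mm, mul_comm]
  have nB : ∀ h, ‖B h‖ = ‖Ψ dK h‖ := fun h => by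
    have e1 := psi_sq Ψ dK h
    rw [star_dK, ← mm, dsq, ← bi, inner_self_eq_norm_sq_to_K] at e1
    have e2 : ‖B h‖ ^ 2 = ‖Ψ dK h‖ ^ 2 := by
      apply Complex.ofReal_injective
      rw [← e1]
      push_cast
      rfl
    exact (pow_left_inj₀ (norm_nonneg _) (norm_nonneg _) two_ne_zero).1 e2
  obtain ⟨J, hJ⟩ : ∃ J : H →SL[starRingEnd ℂ] H, ∀ h, J (Ψ dK h) = B h :=
    ⟨B.extendOfNorm (Ψ dK : H →ₗ[ℂ] H), fun h =>
      LinearMap.extendOfNorm_eq (f := B) (e := (Ψ dK : H →ₗ[ℂ] H)) hd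
        ⟨1, fun x => by rw [one_mul]; exact (nB x).le⟩ h⟩
  have nJ : ∀ h, ‖J h‖ = ‖h‖ := fun h =>
    hd.induction_on (p := fun h => ‖J h‖ = ‖h‖) h (isClosed_eq (by fun_prop) (by fun_prop))
      fun k => by rw [hJ, nB]
  have bΨ : ∀ F h, B (Ψ F h) = Ψ (flK F) (B h) := by
    intro F
    induction F using ContinuousMap.induction_on_of_compact with
    | const r =>
      intro h
      have e1 : ∀ c : ℂ, Ψ (ContinuousMap.const KI c) = c • 1 := fun c => by
        rw [← Algebra.algebraMap_eq_smul_one, ← AlgHomClass.commutes Ψ c]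
        rfl
      have e2 : flK (ContinuousMap.const KI r) = ContinuousMap.const KI (conj r) := rfl
      rw [e2, e1, e1]
      simp
    | id =>
      intro h
      change B (Ψ xK h) = Ψ (flK xK) (B h)
      rw [flK_xK, map_sub, map_one, hx, bc]
      rfl
    | star_id =>
      intro h
      change B (Ψ (star xK) h) = Ψ (flK (star xK)) (B h)
      rw [star_xK, flK_xK, map_sub, map_one, hx, bc]
      rfl
    | add F G hF hG =>
      intro h
      have e : flK (F + G) = flK F + flK G := by ext z; simp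
      rw [e, map_add, map_add, ContinuousLinearMap.add_apply, map_add, hF, hG]
      rfl
    | mul F G hF hG =>
      intro h
      have e : flK (F * G) = flK F * flK G := by ext z; simp
      rw [e, ← mm, ← mm, hF, hG]
    | frequently F hF =>
      intro h
      have hcl : IsClosed {G : C(KI, ℂ) | J (Ψ dK (Ψ G h)) = Ψ (flK G) (B h)} := by
        have := flK_cont
        exact isClosed_eq (by fun_prop) (by fun_prop)
      rw [← hJ]
      exact (hF.mono fun G hG => by rw [Set.mem_setOf_eq, hJ, hG]).mem_of_closed hcl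
  have jΨ : ∀ F h, J (Ψ F h) = Ψ (flK F) (J h) := fun F h => by
    refine hd.induction_on (p := fun h => J (Ψ F h) = Ψ (flK F) (J h)) h
      (isClosed_eq (by fun_prop) (by fun_prop)) fun k => ?_
    rw [mm, mul_comm, ← mm, hJ, hJ, bΨ]
  have jd : ∀ h, Ψ dK (J h) = B h := fun h => by rw [← hJ, jΨ, flK_dK]
  have jj : ∀ h, J (J h) = h := fun h => by
    refine (hd.comp hd (Ψ dK).continuous).induction_on (p := fun h => J (J h) = h) h
      (isClosed_eq (by fun_prop) (by fun_prop)) fun k => ?_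
    change J (J (Ψ dK (Ψ dK k))) = Ψ dK (Ψ dK k)
    rw [hJ, bΨ, flK_dK, hJ, bb, dsq]
  have hcd : DenseRange (Ψ dK * C) := by
    apply t1_dense
    · rw [← hx, ← map_mul, IsSelfAdjoint, ← map_star, star_mul, star_xK, star_dK, mul_comm]
    · intro h hh
      have : C h = 0 := hi _ hh
      exact ci h (by rw [this, map_zero, sub_zero])
  refine ⟨{ J := { toFun := J
                   map_add' := map_add J
                   map_smul' := map_smulₛₗ J
                   invFun := J
                   left_inv := jj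
                   right_inv := jj
                   norm_map' := nJ }
            Φ := Φ
            JJ := jj
            cut := fun η => ?_
            JΦ := fun f g hfg η => ?_
            graph := fun p hp f g hfg => ?_
            core := fun f g hfg η => ?_ }⟩
  · rw [← tendsto_add_atTop_iff_nat 1, Metric.tendsto_atTop]
    intro ε hε
    obtain ⟨k, hk⟩ := hd.exists_dist_lt η (by positivity : 0 < ε / 3)
    have l1 : Tendsto (fun n : ℕ => lK (chi (n + 1))) atTop (𝓝 dK) := by
      rw [tendsto_iff_norm_sub_tendsto_zero]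
      have l0 : Tendsto (fun n : ℕ => √(1 / ((n : ℝ) + 1))) atTop (𝓝 0) := by
        simpa using (tendsto_one_div_add_atTop_nhds_zero_nat (𝕜 := ℝ)).sqrt
      exact squeeze_zero (fun _ => norm_nonneg _)
        (fun n => (ContinuousMap.norm_le _ (Real.sqrt_nonneg _)).2 (cut_bound n)) l0
    have l2 : Tendsto (fun n : ℕ => Ψ (lK (chi (n + 1))) k) atTop (𝓝 (Ψ dK k)) :=
      (Continuous.tendsto (f := fun F => Ψ F k) (by fun_prop) dK).comp l1
    obtain ⟨N, hN⟩ := Metric.tendsto_atTop.1 l2 (ε / 3) (by positivity)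
    refine ⟨N, fun n hn => ?_⟩
    have a1 := hN n hn
    rw [← pΦ, dist_eq_norm] at a1
    rw [dist_eq_norm] at hk ⊢
    have a2 : ‖Φ (chi (n + 1))‖ ≤ 1 :=
      (NonUnitalStarAlgHom.norm_apply_le Φ _).trans
        (BoundedContinuousFunction.norm_ofNormedAddCommGroup_le _ zero_le_one _)
    have a3 : ‖Φ (chi (n + 1)) (η - Ψ dK k)‖ ≤ ‖η - Ψ dK k‖ :=
      ((Φ (chi (n + 1))).le_opNorm _).trans (mul_le_of_le_one_left (norm_nonneg _) a2)
    have a4 : Φ (chi (n + 1)) η - η = Φ (chi (n + 1)) (η - Ψ dK k) +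
        (Φ (chi (n + 1)) (Ψ dK k) - Ψ dK k) - (η - Ψ dK k) := by
      rw [map_sub]; abel
    rw [a4]
    have a5 := norm_sub_le (Φ (chi (n + 1)) (η - Ψ dK k) +
        (Φ (chi (n + 1)) (Ψ dK k) - Ψ dK k)) (η - Ψ dK k)
    have a6 := norm_add_le (Φ (chi (n + 1)) (η - Ψ dK k)) (Φ (chi (n + 1)) (Ψ dK k) - Ψ dK k)
    linarith
  · change J (Φ f η) = Φ g (J η)
    apply sub_eq_zero.1
    apply hi
    rw [map_sub, dΦ, jd, ← hJ, dΦ, jΨ, sub_eq_zero]
    congr 2
    ext z
    simp [hfg, dd_refl, lam_refl]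
  · change Φ f (J p.2) = Φ g p.1
    apply sub_eq_zero.1
    apply hi
    apply hi
    have e1 : B p.2 = Ψ (1 - xK) p.1 := by rw [gr p hp, map_sub, map_one, hx]; rfl
    rw [map_sub, map_sub, dΦ, dΦ, mm, mul_comm, ← mm, jd, e1, mm, mm, sub_eq_zero]
    congr 2
    ext z
    simp only [ContinuousMap.mul_apply, lK_apply, ContinuousMap.sub_apply,
      ContinuousMap.one_apply, xK_apply, dK_apply, hfg]
    by_cases h : 0 < z.1.re ∧ z.1.re < 1
    · have e2 := dd_exp h
      have e3 := dd_sq (KI.mem z)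
      have e4 : dd z.1.re * Real.exp (lam z.1.re / 2) = 1 - z.1.re := by
        apply mul_left_cancel₀ h.1.ne'
        rw [← e3, mul_left_comm, e2]
      have e5 := congrArg Complex.ofReal e4
      rw [Complex.ofReal_mul, Complex.ofReal_sub, KI.coe, Complex.ofReal_one] at e5
      rw [← e5]
      ring
    · simp [dd_zero h]
  · change (Φ f η, J (Φ g η)) ∈ Γ
    refine hcd.induction_on (p := fun η => (Φ f η, J (Φ g η)) ∈ Γ) η
      (hc.preimage (by fun_prop)) fun k => ?_
    have e1 : Φ f ((Ψ dK * C) k) = C (Ψ (lK f) k) := by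
      rw [ContinuousLinearMap.mul_apply, pΦ, ← hx, mm, mm, mul_comm]
    have e2 : Φ g ((Ψ dK * C) k) = Ψ dK (Ψ (lK f) k) := by
      rw [ContinuousLinearMap.mul_apply, pΦ, ← hx, mm, mm]
      congr 2
      ext z
      simp only [ContinuousMap.mul_apply, lK_apply, xK_apply, dK_apply, hfg]
      by_cases h : 0 < z.1.re ∧ z.1.re < 1
      · have e5 := congrArg Complex.ofReal (dd_exp h)
        rw [Complex.ofReal_mul, KI.coe] at e5
        linear_combination (dd z.1.re : ℂ) * f (lam z.1.re) * e5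
      · simp [dd_zero h]
    rw [e1, e2, hJ]
    exact hP _

end Vale.Agent.P132
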