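import Vale.Agent.P132.T2a

/-! The Tomita–Takesaki theorem. -/

namespace Vale.Agent.P132

open scoped InnerProductSpace BoundedContinuousFunction ComplexConjugate
open Filter Topology MeasureTheory

universe u

variable {H : Type u} [NormedAddCommGroup H] [InnerProductSpace ℂ H] [CompleteSpace H]
  {M : VonNeumannAlgebra H} {ξ : H}

theorem chi_support (n : ℕ) : HasCompactSupport (chi n) := by
  refine HasCompactSupport.intro (isCompact_Icc (a := -((n : ℝ) + 1)) (b := n + 1)) fun s hs => ?_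
  have h : (n : ℝ) + 1 < |s| := by
    by_contra h
    exact hs (abs_le.1 (not_lt.1 h))
  rw [chi_apply, max_eq_left ((min_le_right _ _).trans (by linarith)), Complex.ofReal_zero]

theorem chi_at_zero (n : ℕ) : chi n 0 = 1 := by
  rw [chi_apply, abs_zero, sub_zero, min_eq_left (by simp), max_eq_right zero_le_one,
    Complex.ofReal_one]

theorem star_real {f : ℝ →ᵇ ℂ} {φ : ℝ → ℝ} (h : ∀ s, f s = φ s) : star f = f := by
  ext s
  rw [BoundedContinuousFunction.star_apply, h, RCLike.star_def, Complex.conj_ofReal]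

theorem star_chi (n : ℕ) : star (chi n) = chi n := star_real (chi_apply n)

theorem norm_chi (n : ℕ) : ‖chi n‖ ≤ 1 :=
  (BoundedContinuousFunction.norm_le zero_le_one).2 fun s => by
    rw [chi_apply, Complex.norm_real, Real.norm_eq_abs, abs_of_nonneg (le_max_left _ _)]
    exact max_le zero_le_one (min_le_left _ _)

theorem exists_cm (n : ℕ) {φ : ℝ → ℝ} (hφ : Continuous φ) :
    ∃ f : ℝ →ᵇ ℂ, HasCompactSupport f ∧ star f = f ∧ ∀ s, f s = chi n s * φ s := by
  have hs : HasCompactSupport fun s => chi n s * (φ s : ℂ) := (chi_support n).mul_right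
  refine ⟨ofCompactSupport _ (by fun_prop) hs, hs,
    star_real (φ := fun s => max 0 (min 1 ((n : ℝ) + 1 - |s|)) * φ s) fun s => ?_, fun s => rfl⟩
  rw [Complex.ofReal_mul]
  rfl

theorem exists_fr {α β r : ℝ} (hα : 0 < α) (hβ : 0 < β) (h : α * β = 1) (h0 : 0 ≤ r) (h1 : r ≤ 1) :
    ∃ f : ℝ →ᵇ ℂ, ∀ s, f s = ((Real.exp (r * s) / (α + β * Real.exp s) : ℝ) : ℂ) := by
  have hd : ∀ s, 0 < α + β * Real.exp s := fun s => by positivity
  refine ⟨BoundedContinuousFunction.ofNormedAddCommGroup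
    (fun s => ((Real.exp (r * s) / (α + β * Real.exp s) : ℝ) : ℂ)) (Complex.continuous_ofReal.comp
    (Continuous.div (by fun_prop) (by fun_prop) fun s => (hd s).ne')) (α + β) fun s => ?_,
    fun s => rfl⟩
  rw [Complex.norm_real, Real.norm_of_nonneg (by positivity), div_le_iff₀ (hd s)]
  have h2 : Real.exp (r * s) ≤ 1 + Real.exp s := by
    rcases le_total s 0 with hs | hs
    · linarith [Real.exp_le_one_iff.2 (mul_nonpos_of_nonneg_of_nonpos h0 hs), Real.exp_pos s]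
    · linarith [Real.exp_le_exp.2 (mul_le_of_le_one_left hs h1)]
  have h3 : (α + β) * (α + β * Real.exp s) =
      α * β + α * β * Real.exp s + (α ^ 2 + β ^ 2 * Real.exp s) := by ring
  rw [h3, h, one_mul]
  exact h2.trans (le_add_of_nonneg_right (by positivity))

theorem ext_dense {s : Set H} (hs : Dense s) {f g : H → ℂ} (hf : Continuous f) (hg : Continuous g)
    (h : ∀ η ∈ s, f η = g η) (η : H) : f η = g η :=
  congrFun (hf.ext_on hs hg h) η

theorem adjF {p : H × H} (hp : p ∈ graphS M ξ) {y : H →L[ℂ] H} (hy : y ∈ M.commutant) :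
    ⟪p.2, y ξ⟫_ℂ = ⟪star y ξ, p.1⟫_ℂ := by
  refine (isClosed_eq (f := fun p : H × H => ⟪p.2, y ξ⟫_ℂ) (g := fun p => ⟪star y ξ, p.1⟫_ℂ)
    (by fun_prop) (by fun_prop)).closure_subset_iff.2 ?_ hp
  rintro _ ⟨x, hx, rfl⟩
  change ⟪star x ξ, y ξ⟫_ℂ = ⟪star y ξ, x ξ⟫_ℂ
  simp only [ContinuousLinearMap.star_eq_adjoint, ContinuousLinearMap.adjoint_inner_left,
    ← mul_apply_eq_comp, P104.commute_of_mem hx hy]

theorem exists_hmod (h1 : T1Stmt.{u}) (hc : CycSep M ξ) : Nonempty (HMod (graphS M ξ)) := by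
  refine h1 H _ isClosed_closure (subset_closure ⟨0, zero_mem _, by rw [star_zero]; rfl⟩)
    (fun p hp q hq => ?_) (fun p hp c => ?_) (fun p hp => ?_) (hc.1.mono ?_) fun θ hθ => ?_
  · refine map_mem_closure₂ continuous_add hp hq ?_
    rintro _ ⟨x, hx, rfl⟩ _ ⟨y, hy, rfl⟩
    exact ⟨x + y, add_mem hx hy, by rw [star_add]; rfl⟩
  · refine map_mem_closure (f := fun p : H × H => (c • p.1, conj c • p.2)) (by fun_prop) hp ?_
    rintro _ ⟨x, hx, rfl⟩
    exact ⟨c • x, P104.vn_smul_mem _ hx, by rw [star_smul]; rfl⟩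
  · refine map_mem_closure (f := fun p : H × H => (p.2, p.1)) (by fun_prop) hp ?_
    rintro _ ⟨x, hx, rfl⟩
    exact ⟨star x, star_mem hx, by rw [star_star]⟩
  · rintro _ ⟨x, hx, rfl⟩
    exact ⟨_, mem_graphS hx, rfl⟩
  · refine inner_self_eq_zero.1 (ext_dense (dense_comm hc.2) (f := fun η => ⟪θ, η⟫_ℂ)
      (g := fun _ => 0) (by fun_prop) continuous_const ?_ θ)
    rintro _ ⟨y, hy, rfl⟩
    exact (adjF hθ hy).trans (inner_zero_right _)

namespace HMod

section

variable {Γ : Set (H × H)} (m : HMod Γ)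

theorem inner_sa {f : ℝ →ᵇ ℂ} (hf : star f = f) (a b : H) : ⟪m.Φ f a, b⟫_ℂ = ⟪a, m.Φ f b⟫_ℂ := by
  rw [m.inner_Φ, hf]

/-- The adjoint relation on the core. -/
theorem flip {p : H × H} (hp : p ∈ Γ) {f g : ℝ →ᵇ ℂ} (hf : star f = f) (hg : star g = g)
    (h : ∀ s, g s = f s * (Real.exp (s / 2) : ℝ)) (v : H) :
    ⟪p.2, m.J (m.Φ f v)⟫_ℂ = ⟪m.Φ g v, p.1⟫_ℂ := by
  rw [m.inner_J_right, m.inner_sa hf, m.graph p hp f g h, m.inner_sa hg]

theorem sym {p q : H × H} (hp : p ∈ Γ) (hq : q ∈ Γ) : ⟪m.J p.2, q.1⟫_ℂ = ⟪p.1, m.J q.2⟫_ℂ := by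
  refine tendsto_nhds_unique ((m.cut _).inner tendsto_const_nhds)
    ((tendsto_const_nhds.inner (m.cut _)).congr fun n => ?_)
  obtain ⟨g, -, hg, e⟩ := exists_cm n (φ := fun s => Real.exp (s / 2)) (by fun_prop)
  rw [m.graph p hp _ g e, m.graph q hq _ g e, m.inner_sa hg]

theorem eq_of_cut {x y : H →L[ℂ] H}
    (h : ∀ n η, m.Φ (chi n) (x (m.Φ (chi n) η)) = m.Φ (chi n) (y (m.Φ (chi n) η))) : x = y := by
  ext η
  refine ext_inner_left ℂ fun ζ => tendsto_nhds_unique
    ((m.cut ζ).inner ((x.continuous.tendsto _).comp (m.cut η)))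
    (((m.cut ζ).inner ((y.continuous.tendsto _).comp (m.cut η))).congr fun n => ?_)
  simp only [Function.comp_apply, m.inner_sa (star_chi n), h]

end

variable (m : HMod (graphS M ξ))

theorem fixξ (f : ℝ →ᵇ ℂ) : m.Φ f ξ = f 0 • ξ := by
  have hξ : (ξ, ξ) ∈ graphS M ξ := by simpa using mem_graphS (ξ := ξ) (one_mem M)
  have key : ∀ ε : ℝ, 0 < ε → ∃ q : ℝ →ᵇ ℂ,
      (∀ s, q s = ((ε / ((Real.exp s - 1) ^ 2 + ε) : ℝ) : ℂ)) ∧ m.Φ q ξ = ξ := fun ε hε => by
    have hd : ∀ s, 0 < (Real.exp s - 1) ^ 2 + ε := fun s => by positivity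
    have hc : ∀ φ : ℝ → ℝ, Continuous φ → Continuous fun s => φ s / ((Real.exp s - 1) ^ 2 + ε) :=
      fun φ hφ => hφ.div (by fun_prop) fun s => (hd s).ne'
    let q : ℝ →ᵇ ℂ := BoundedContinuousFunction.ofNormedAddCommGroup _
      (Complex.continuous_ofReal.comp (hc _ (continuous_const (y := ε)))) 1 fun s => by
        rw [Function.comp_apply, Complex.norm_real, Real.norm_of_nonneg (by positivity),
          div_le_one (hd s)]
        exact le_add_of_nonneg_left (sq_nonneg _)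
    have hq : ∀ s, q s = ((ε / ((Real.exp s - 1) ^ 2 + ε) : ℝ) : ℂ) := fun s => rfl
    refine ⟨q, hq, (sub_eq_zero.1 (m.eq_zero_of_cut fun n => ?_)).symm⟩
    obtain ⟨f0, -, s0, e0⟩ := exists_cm n (hc (fun s => Real.exp s - 1) (by fun_prop))
    obtain ⟨f1, -, s1, e1⟩ := exists_cm n (hc (fun s => (Real.exp s - 1) * Real.exp (s / 2))
      (by fun_prop))
    obtain ⟨f2, -, s2, e2⟩ := exists_cm n (hc (fun s => (Real.exp s - 1) * Real.exp s)
      (by fun_prop))
    have r1 : ∀ s, f1 s = f0 s * (Real.exp (s / 2) : ℝ) := fun s => by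
      rw [e1, e0, mul_assoc, ← Complex.ofReal_mul, div_mul_eq_mul_div]
    have r2 : ∀ s, f2 s = f1 s * (Real.exp (s / 2) : ℝ) := fun s => by
      rw [e1, e2, mul_assoc, ← Complex.ofReal_mul, div_mul_eq_mul_div, mul_assoc, ← Real.exp_add,
        add_halves]
    have a1 := m.graph _ hξ f1 f2 r2
    have a2 : m.Φ f1 (m.J ξ) = m.Φ f0 ξ := by
      refine ext_inner_left ℂ fun v => ?_
      have := adjF (m.core f0 f1 r1 v) (one_mem M.commutant)
      simp only [star_one, one_apply_eq_self] at this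
      rw [← m.inner_sa s1, ← m.inner_sa s0, ← inner_conj_symm, ← m.inner_J_left, this,
        inner_conj_symm]
    have e3 : chi n - chi n * q = f2 - f0 := by
      ext s
      have := (hd s).ne'
      simp only [BoundedContinuousFunction.sub_apply, BoundedContinuousFunction.mul_apply, e0, e2,
        hq, ← mul_sub, ← Complex.ofReal_sub]
      rw [← mul_one_sub, ← Complex.ofReal_one, ← Complex.ofReal_sub]
      congr 2
      field_simp
      ring
    rw [map_sub, ← m.Φ_mul_apply, ← ContinuousLinearMap.sub_apply, ← map_sub, e3, map_sub,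
      ContinuousLinearMap.sub_apply, ← a1, a2, sub_self]
  rw [← sub_eq_zero, ← norm_le_zero_iff]
  refine le_of_forall_pos_le_add fun ε hε => ?_
  have hA : 0 < ‖ξ‖ + 1 := by positivity
  set δ := ε / (‖ξ‖ + 1) with hδ
  have hδ0 : 0 < δ := div_pos hε hA
  obtain ⟨κ, hκ, hc⟩ := Metric.continuousAt_iff.1 (f.continuous.continuousAt (x := 0)) _ hδ0
  have hm : 0 < 1 - Real.exp (-κ) := sub_pos.2 (Real.exp_lt_one_iff.2 (neg_lt_zero.2 hκ))
  have hB : 0 < 2 * ‖f‖ + 1 := by positivity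
  have hε' : 0 < δ * (1 - Real.exp (-κ)) ^ 2 / (2 * ‖f‖ + 1) := by positivity
  obtain ⟨q, hq, n3⟩ := key _ hε'
  have e : m.Φ f ξ - f 0 • ξ = m.Φ ((f - f 0 • 1) * q) ξ := by
    rw [m.Φ_mul_apply, n3, map_sub, map_smul, map_one]
    rfl
  have hb : ‖(f - f 0 • 1) * q‖ ≤ δ := by
    refine (BoundedContinuousFunction.norm_le hδ0.le).2 fun s => ?_
    have e1 : (f - f 0 • (1 : ℝ →ᵇ ℂ)) s = f s - f 0 := by simp
    rw [BoundedContinuousFunction.mul_apply, norm_mul, hq, Complex.norm_real,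
      Real.norm_of_nonneg (by positivity), e1]
    by_cases hs : κ ≤ |s|
    · have b1 : ‖f s - f 0‖ ≤ 2 * ‖f‖ + 1 := by
        linarith [norm_sub_le (f s) (f 0), f.norm_coe_le_norm s, f.norm_coe_le_norm 0]
      have b2 : (1 - Real.exp (-κ)) ^ 2 ≤ (Real.exp s - 1) ^ 2 := by
        rw [sq_le_sq, abs_of_pos hm]
        rcases le_abs'.1 hs with h | h
        · exact le_abs'.2 (Or.inl (by linarith [Real.exp_le_exp.2 h]))
        · exact le_abs.2 (Or.inl (by
            linarith [Real.add_one_le_exp s, Real.add_one_le_exp (-κ)]))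
      calc _ ≤ (2 * ‖f‖ + 1) * (δ * (1 - Real.exp (-κ)) ^ 2 / (2 * ‖f‖ + 1) /
            (1 - Real.exp (-κ)) ^ 2) := by
            gcongr
            linarith
        _ = δ := by field_simp
    · have := hc (x := s) (by rw [Real.dist_eq, sub_zero]; exact not_le.1 hs)
      rw [dist_eq_norm] at this
      refine (mul_le_of_le_one_right (norm_nonneg _) ?_).trans this.le
      rw [div_le_one (by positivity)]
      exact le_add_of_nonneg_left (sq_nonneg _)
  rw [e, zero_add]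
  refine (m.norm_Φ_apply_le _ _).trans ((mul_le_mul_of_nonneg_right hb (norm_nonneg _)).trans ?_)
  rw [hδ, div_mul_eq_mul_div, div_le_iff₀ hA]
  nlinarith

theorem Jfix : m.J ξ = ξ := by
  have hξ : (ξ, ξ) ∈ graphS M ξ := by simpa using mem_graphS (ξ := ξ) (one_mem M)
  refine tendsto_nhds_unique (m.cut _) (tendsto_const_nhds.congr fun n => ?_)
  obtain ⟨g, -, -, e⟩ := exists_cm n (φ := fun s => Real.exp (s / 2)) (by fun_prop)
  rw [m.graph _ hξ _ g e, m.fixξ, e, chi_at_zero]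
  simp

/-- The resolvent equation. -/
theorem resolv (hs : ∀ x ∈ M, x ξ = 0 → x = 0) {y : H →L[ℂ] H} (hy : y ∈ M.commutant) (σ : ℝ) :
    ∃ X ∈ M, ∀ (n : ℕ) (p q : ℝ →ᵇ ℂ), (∀ s, p s = chi n s * (Real.exp (s / 2) : ℝ)) →
      (∀ s, q s = chi n s * (Real.exp (-s / 2) : ℝ)) → ∀ w,
      m.Φ (chi n) (cj m.J y (m.Φ (chi n) w)) =
        ((Real.exp (σ / 2) : ℝ) : ℂ) • m.Φ p (X (m.Φ q w)) +
          ((Real.exp (-σ / 2) : ℝ) : ℂ) • m.Φ q (X (m.Φ p w)) := by
  set α := Real.exp (σ / 2) with hα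
  set β := Real.exp (-σ / 2) with hβ
  have α0 : 0 < α := Real.exp_pos _
  have β0 : 0 < β := Real.exp_pos _
  have hαβ : α * β = 1 := by rw [← Real.exp_add, ← add_div, add_neg_cancel, zero_div, Real.exp_zero]
  have hd : ∀ s, α + β * Real.exp s ≠ 0 := fun s => by positivity
  obtain ⟨c, hc⟩ := exists_fr α0 β0 hαβ le_rfl zero_le_one
  obtain ⟨d, hd'⟩ := exists_fr α0 β0 hαβ (r := 1 / 2) (by norm_num) (by norm_num)
  obtain ⟨e, he⟩ := exists_fr α0 β0 hαβ zero_le_one le_rfl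
  have sc := star_real hc
  have sd := star_real hd'
  have se := star_real he
  have r1 : ∀ s, d s = c s * (Real.exp (s / 2) : ℝ) := fun s => by
    rw [hc, hd', ← Complex.ofReal_mul, div_mul_eq_mul_div (Real.exp (0 * s)),
      ← Real.exp_add (0 * s),
      show 1 / 2 * s = 0 * s + s / 2 by ring]
  have r2 : ∀ s, e s = d s * (Real.exp (s / 2) : ℝ) := fun s => by
    rw [he, hd', ← Complex.ofReal_mul, div_mul_eq_mul_div (Real.exp _),
      ← Real.exp_add (1 / 2 * s),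
      show 1 * s = 1 / 2 * s + s / 2 by ring]
  have r3 : (α : ℂ) • c + (β : ℂ) • e = 1 := by
    ext s
    have := hd s
    simp only [BoundedContinuousFunction.add_apply, BoundedContinuousFunction.smul_apply, hc, he,
      smul_eq_mul, BoundedContinuousFunction.coe_one, Pi.one_apply, zero_mul, Real.exp_zero,
      one_mul]
    norm_cast
    field_simp
  have r4 : ∀ v, ∀ z ∈ M, ⟪v, z ξ⟫_ℂ = (α : ℂ) * ⟪m.Φ c v, z ξ⟫_ℂ +
      (β : ℂ) * ⟪star z ξ, m.J (m.Φ d v)⟫_ℂ := fun v z hz => by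
    have : (α : ℂ) • m.Φ c (z ξ) + (β : ℂ) • m.Φ e (z ξ) = z ξ := by
      change ((α : ℂ) • m.Φ c + (β : ℂ) • m.Φ e) (z ξ) = _
      rw [← map_smul, ← map_smul, ← map_add, r3, map_one, one_apply_eq_self]
    rw [m.flip (mem_graphS hz) sd se r2, m.inner_sa sc, m.inner_sa se, ← inner_smul_right,
      ← inner_smul_right, ← inner_add_right, this]
  have hrn : ∀ y ∈ M.commutant, ∃ x ∈ M, x ξ = m.Φ c (y ξ) ∧ star x ξ = m.J (m.Φ d (y ξ)) := by
    intro y hy
    refine rn hy (Real.sqrt_pos.2 α0) (m.core c d r1 _) fun z hz => ?_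
    rw [inv_pow, Real.sq_sqrt α0.le, ← eq_inv_of_mul_eq_one_right hαβ]
    exact r4 _ z hz
  obtain ⟨x, hx, x1, x2⟩ := hrn y hy
  have hE : ∀ v1 v2, ⟪m.Φ d v2, cj m.J y (m.Φ d v1)⟫_ℂ =
      (α : ℂ) * ⟪m.Φ e v2, star x (m.Φ c v1)⟫_ℂ + (β : ℂ) * ⟪m.Φ c v2, star x (m.Φ e v1)⟫_ℂ := by
    intro v1 v2
    refine ext_dense (dense_comm hs) (f := fun v1 => ⟪m.Φ d v2, cj m.J y (m.Φ d v1)⟫_ℂ)
      (g := fun v1 => (α : ℂ) * ⟪m.Φ e v2, star x (m.Φ c v1)⟫_ℂ +
        (β : ℂ) * ⟪m.Φ c v2, star x (m.Φ e v1)⟫_ℂ) (by fun_prop) (by fun_prop) ?_ v1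
    rintro _ ⟨y1, hy1, rfl⟩
    refine ext_dense (dense_comm hs) (f := fun v2 => ⟪m.Φ d v2, cj m.J y (m.Φ d (y1 ξ))⟫_ℂ)
      (g := fun v2 => (α : ℂ) * ⟪m.Φ e v2, star x (m.Φ c (y1 ξ))⟫_ℂ +
        (β : ℂ) * ⟪m.Φ c v2, star x (m.Φ e (y1 ξ))⟫_ℂ) (by fun_prop) (by fun_prop) ?_ v2
    rintro _ ⟨y2, hy2, rfl⟩
    obtain ⟨a, ha, a1, a2⟩ := hrn y1 hy1
    obtain ⟨b, hb, b1, b2⟩ := hrn y2 hy2
    have k := r4 (y ξ) (a * star b) (mul_mem ha (star_mem hb))
    have k1 := m.flip (mem_graphS (ξ := ξ) (mul_mem (star_mem hx) ha)) sd se r2 (y2 ξ)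
    have k2 := m.flip (mem_graphS (ξ := ξ) (mul_mem hx hb)) sd se r2 (y1 ξ)
    simp only [star_mul, star_star, mul_apply_eq_comp, ← x1, ← x2, ← a2, ← b2] at k k1 k2
    have k3 : y (star a ξ) = star a (y ξ) := by
      rw [← mul_apply_eq_comp, ← P104.commute_of_mem (star_mem ha) hy, mul_apply_eq_comp]
    rw [cj_apply, m.inner_J_right, ← a2, ← b2, ← a1, ← b1, ← k1, k3, P104.inner_star_left a,
      P104.inner_star_left a, k, P104.inner_star_right x (b ξ), ← inner_conj_symm (x (b ξ)), ← k2,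
      inner_conj_symm, P104.inner_star_right b]
  refine ⟨star x, star_mem hx, fun n p q hp hq w => ext_inner_left ℂ fun v => ?_⟩
  obtain ⟨g, -, -, hg⟩ := exists_cm n (φ := fun s => (α + β * Real.exp s) * Real.exp (-s / 2))
    (by fun_prop)
  have g0 : ∀ (f f' : ℝ →ᵇ ℂ) (r r' : ℝ → ℝ),
      (∀ s, f s = ((Real.exp (r s) / (α + β * Real.exp s) : ℝ) : ℂ)) →
      (∀ s, f' s = chi n s * (Real.exp (r' s) : ℝ)) → (∀ s, r' s = r s + -s / 2) →
      ∀ w, m.Φ f (m.Φ g w) = m.Φ f' w := fun f f' r r' h1 h2 h3 w => by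
    rw [← m.Φ_mul_apply]
    congr 2
    ext s
    have := hd s
    rw [BoundedContinuousFunction.mul_apply, h1, h2, hg, h3, Real.exp_add, mul_left_comm,
      ← Complex.ofReal_mul]
    congr 2
    field_simp
  have g1 := g0 d (chi n) _ (fun _ => 0) hd' (fun s => by simp) (fun s => by ring)
  have g2 := g0 c q _ _ hc hq (fun s => by ring)
  have g3 := g0 e p _ _ he hp (fun s => by ring)
  have sp : star p = p := star_real (φ := fun s => max 0 (min 1 ((n : ℝ) + 1 - |s|)) *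
    Real.exp (s / 2)) fun s => by rw [hp, Complex.ofReal_mul, chi_apply]
  have sq : star q = q := star_real (φ := fun s => max 0 (min 1 ((n : ℝ) + 1 - |s|)) *
    Real.exp (-s / 2)) fun s => by rw [hq, Complex.ofReal_mul, chi_apply]
  have := hE (m.Φ g w) (m.Φ g v)
  rw [g1, g1, g2, g2, g3, g3, m.inner_sa (star_chi n), m.inner_sa sp, m.inner_sa sq] at this
  rw [this, inner_add_right, inner_smul_right, inner_smul_right]

theorem int_conj {Γ : Set (H × H)} (m : HMod Γ) (hU : ∀ η, Continuous fun t => m.U t η)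
    {k : ℝ → ℂ} (hk : Integrable k) (Y : H →L[ℂ] H) (η : H) :
    Continuous (fun t => m.U t (Y (m.U (-t) η))) ∧
      Integrable fun t => k t • m.U t (Y (m.U (-t) η)) := by
  have hv : Continuous fun t => Y (m.U (-t) η) := Y.continuous.comp ((hU η).comp continuous_neg)
  have hc : Continuous fun t => m.U t (Y (m.U (-t) η)) := by
    refine continuous_iff_continuousAt.2 fun t0 => tendsto_iff_norm_sub_tendsto_zero.2 ?_
    have h1 := tendsto_iff_norm_sub_tendsto_zero.1 (hv.tendsto t0)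
    have h2 := tendsto_iff_norm_sub_tendsto_zero.1 ((hU (Y (m.U (-t0) η))).tendsto t0)
    refine squeeze_zero (fun _ => norm_nonneg _) (fun t => ?_) (by simpa using h1.add h2)
    rw [← m.norm_U t (Y (m.U (-t) η) - Y (m.U (-t0) η)), map_sub]
    exact norm_sub_le_norm_sub_add_norm_sub _ _ _
  refine ⟨hc, (hk.norm.mul_const (‖Y‖ * ‖η‖)).mono' (hk.1.smul hc.aestronglyMeasurable)
    (Eventually.of_forall fun t => ?_)⟩
  rw [norm_smul, m.norm_U, ← m.norm_U (-t) η]
  exact mul_le_mul_of_nonneg_left (Y.le_opNorm _) (norm_nonneg _)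

theorem local_mem (hB : BIStmt.{u}) (hF : FiltStmt.{u}) (hs : ∀ x ∈ M, x ξ = 0 → x = 0) :
    ∃ δ > 0, ∀ t : ℝ, |t| < δ → ∀ y ∈ M.commutant, m.U t * cj m.J y * m.U (-t) ∈ M := by
  obtain ⟨h1, -, ⟨k, hk, hkc, hk0, hkf⟩, h4⟩ := hF
  obtain ⟨hU, -, h3⟩ := h1 H _ m
  obtain ⟨δ, hδ, hne⟩ := Metric.eventually_nhds_iff.1 (hkc.continuousAt.eventually_ne hk0)
  refine ⟨δ, hδ, fun t0 ht0 y hy => P104.mem_of_commute fun y' hy' => ?_⟩
  set Y := cj m.J y with hY
  have key : ∀ σ : ℝ, ∃ X ∈ M, ∀ η, X η = ∫ t, (k t * ex t σ) • m.U t (Y (m.U (-t) η)) := by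
    intro σ
    have hk' : Integrable fun t => k t * ex t σ :=
      hk.mul_bdd (c := 1) (by simp only [ex_apply]; fun_prop)
        (Eventually.of_forall fun t => (norm_ex_apply t σ).le)
    obtain ⟨X', hX', -⟩ := h3 _ Y hk'
    obtain ⟨X, hX, hE⟩ := m.resolv hs hy σ
    suffices h : X' = X from ⟨X, hX, h ▸ hX'⟩
    refine m.eq_of_cut fun n w => ?_
    obtain ⟨p, cp, -, hp⟩ := exists_cm n (φ := fun s => Real.exp (s / 2)) (by fun_prop)
    obtain ⟨q, cq, -, hq⟩ := exists_cm n (φ := fun s => Real.exp (-s / 2)) (by fun_prop)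
    let ν : (ℝ →ᵇ ℂ) →L[ℂ] H := X ∘L LinearMap.mkContinuous
      { toFun := fun v => m.Φ v w
        map_add' := fun a b => by rw [map_add]; rfl
        map_smul' := fun c a => by rw [map_smul]; rfl } ‖w‖ fun v => by
        rw [mul_comm]
        exact m.norm_Φ_apply_le v w
    have hν : ∀ v, ν v = X (m.Φ v w) := fun v => rfl
    have hb := hB H m.Φ ν _ (Fin 2)
      ![((Real.exp (σ / 2) : ℝ) : ℂ) • p, ((Real.exp (-σ / 2) : ℝ) : ℂ) • q] ![q, p] (chi n) (chi n)
      hk' (Fin.forall_fin_two.2 ⟨cp.smul_left (f := fun _ => ((Real.exp (σ / 2) : ℝ) : ℂ)),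
        cq.smul_left (f := fun _ => ((Real.exp (-σ / 2) : ℝ) : ℂ))⟩)
      (Fin.forall_fin_two.2 ⟨cq, cp⟩) (chi_support n) fun s s' => by
        have e1 : ∀ t, k t * ex t σ * ∑ i : Fin 2, (![((Real.exp (σ / 2) : ℝ) : ℂ) • p,
            ((Real.exp (-σ / 2) : ℝ) : ℂ) • q] i) s * (![q, p] i) s' * ex t (s - s') =
            (chi n s * chi n s' * ((Real.exp ((σ + (s - s')) / 2) +
              Real.exp (-(σ + (s - s')) / 2) : ℝ) : ℂ)) * (k t * ex t (σ + (s - s'))) := by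
          intro t
          have e2 : ex t (σ + (s - s')) = ex t σ * ex t (s - s') := by
            simp only [ex_apply, ← Complex.exp_add]
            congr 1
            push_cast
            ring
          have e3 : Real.exp ((σ + (s - s')) / 2) =
              Real.exp (σ / 2) * Real.exp (s / 2) * Real.exp (-s' / 2) := by
            simp only [← Real.exp_add]
            congr 1
            ring
          have e4 : Real.exp (-(σ + (s - s')) / 2) =
              Real.exp (-σ / 2) * Real.exp (-s / 2) * Real.exp (s' / 2) := by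
            simp only [← Real.exp_add]
            congr 1
            ring
          simp only [Fin.sum_univ_two, Matrix.cons_val_zero, Matrix.cons_val_one,
            BoundedContinuousFunction.smul_apply, hp, hq, e2, e3, e4, smul_eq_mul,
            Complex.ofReal_add, Complex.ofReal_mul]
          ring
        simp only [e1]
        rw [integral_const_mul, hkf, mul_assoc, ← Complex.ofReal_mul,
          mul_one_div_cancel (by positivity), Complex.ofReal_one, mul_one]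
    rw [hX', ← ContinuousLinearMap.integral_comp_comm _ (m.int_conj hU hk' Y _).2, ← hν, ← hb]
    refine integral_congr_ae (Eventually.of_forall fun t => ?_)
    simp only [Fin.sum_univ_two, Matrix.cons_val_zero, Matrix.cons_val_one, hν, map_smul,
      mul_smul_comm, ContinuousLinearMap.smul_apply, m.Φ_mul_apply]
    congr 1
    change _ = _ • m.U t (m.Φ p (X (m.U (-t) _))) + _ • m.U t (m.Φ q (X (m.U (-t) _)))
    rw [← m.U_Φ, m.U_Φ (-t), m.U_Φ (-t), m.U_Φ (-t), hE n p q hp hq, map_add, map_smul, map_smul]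
  ext η
  refine ext_inner_left ℂ fun ζ => sub_eq_zero.1 ?_
  let F : ℝ → ℂ := fun t => ⟪star y' ζ, m.U t (Y (m.U (-t) η))⟫_ℂ -
    ⟪ζ, m.U t (Y (m.U (-t) (y' η)))⟫_ℂ
  have i1 : ∀ k' : ℝ → ℂ, Integrable k' → ∀ ζ η,
      Integrable fun t => k' t * ⟪ζ, m.U t (Y (m.U (-t) η))⟫_ℂ := fun k' hk' ζ η => by
    simpa only [innerSL_apply_apply, inner_smul_right] using
      (innerSL ℂ ζ).integrable_comp (m.int_conj hU hk' Y η).2
  have h0 := h4 (fun t => k t * F t) (by
      simp only [F, mul_sub]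
      exact (i1 k hk _ _).sub (i1 k hk _ _))
    (hkc.mul ((continuous_const.inner (m.int_conj hU hk Y _).1).sub
      (continuous_const.inner (m.int_conj hU hk Y _).1))) (fun σ => by
      obtain ⟨X, hX, e⟩ := key σ
      have hk' : Integrable fun t => k t * ex t σ :=
        hk.mul_bdd (c := 1) (by simp only [ex_apply]; fun_prop)
          (Eventually.of_forall fun t => (norm_ex_apply t σ).le)
      have e1 : ∀ ζ η, ∫ t, k t * ex t σ * ⟪ζ, m.U t (Y (m.U (-t) η))⟫_ℂ = ⟪ζ, X η⟫_ℂ :=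
        fun ζ η => by
          rw [e, ← integral_inner (m.int_conj hU hk' Y η).2]
          simp only [inner_smul_right]
      simp only [mul_right_comm (k _) (F _)]
      simp only [F, mul_sub]
      rw [integral_sub (i1 _ hk' _ _) (i1 _ hk' _ _), e1, e1, P104.inner_star_left,
        ← mul_apply_eq_comp, ← P104.commute_of_mem hX hy', mul_apply_eq_comp, sub_self]) t0
  have h5 := (mul_eq_zero.1 h0).resolve_left (hne (by rwa [Real.dist_eq, sub_zero]))
  simpa only [F, P104.inner_star_left, mul_apply_eq_comp] using h5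

theorem rt_of_lt (hd : Dense {η | ∃ x ∈ M, x ξ = η}) (hlt : ∀ y ∈ M.commutant, cj m.J y ∈ M)
    (hs : ∀ x ∈ M, x ξ = 0 → x = 0) {b : H →L[ℂ] H} (hb : b ∈ M) : cj m.J b ∈ M.commutant := by
  have key : ∀ a ∈ M, cj m.J b (a ξ) = a (m.J (b ξ)) := fun a ha => by
    refine ext_inner_left ℂ fun v => ext_dense (dense_comm hs)
      (f := fun v => ⟪v, cj m.J b (a ξ)⟫_ℂ) (g := fun v => ⟪v, a (m.J (b ξ))⟫_ℂ) (by fun_prop)
      (by fun_prop) ?_ v
    rintro _ ⟨y, hy, rfl⟩
    have k := m.sym (mem_graphS (ξ := ξ) (star_mem ha))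
      (mem_graphS (ξ := ξ) (mul_mem (star_mem hb) (hlt y hy)))
    simp only [star_mul, star_star, mul_apply_eq_comp, ← m.cj_star, cj_apply, m.Jfix, m.JJ] at k
    rw [cj_apply, m.inner_J_right, ← P104.inner_star_right b, k, P104.inner_star_right y,
      ← mul_apply_eq_comp, ← P104.commute_of_mem (star_mem ha) hy, mul_apply_eq_comp,
      P104.inner_star_left]
  refine VonNeumannAlgebra.mem_commutant_iff.2 fun c hc => ?_
  ext η
  refine congrFun (Continuous.ext_on hd (c * cj m.J b).continuous (cj m.J b * c).continuous ?_) η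
  rintro _ ⟨a, ha, rfl⟩
  rw [mul_apply_eq_comp, mul_apply_eq_comp, key a ha, ← mul_apply_eq_comp c a ξ,
    key _ (mul_mem hc ha), mul_apply_eq_comp]

end HMod

theorem tt (h1 : T1Stmt.{u}) (hB : BIStmt.{u}) (hF : FiltStmt.{u}) : TTStmt.{u} := by
  intro H _ _ _ M ξ hc
  obtain ⟨m⟩ := exists_hmod h1 hc
  obtain ⟨δ, hδ, h⟩ := m.local_mem hB hF hc.2
  have hlt : ∀ y ∈ M.commutant, cj m.J y ∈ M := fun y hy => by
    simpa only [neg_zero, m.U_zero, one_mul, mul_one] using h 0 (by rwa [abs_zero]) y hy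
  have hrt : ∀ x ∈ M, cj m.J x ∈ M.commutant := fun x hx => m.rt_of_lt hc.1 hlt hc.2 hx
  refine ⟨⟨m, m.Jfix, m.fixξ, hrt, hlt, fun t => ?_⟩⟩
  obtain ⟨N, hN⟩ := exists_nat_gt (|t| / δ)
  have hN0 : (0 : ℝ) < N := lt_of_le_of_lt (by positivity) hN
  have hτ : |t / N| < δ := by
    rw [abs_div, abs_of_pos hN0, div_lt_iff₀ hN0]
    rwa [div_lt_iff₀' hδ] at hN
  have key : ∀ n : ℕ, ∀ x ∈ M, m.U (n * (t / N)) * x * m.U (-(n * (t / N))) ∈ M := by
    intro n
    induction n with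
    | zero => simp only [Nat.cast_zero, zero_mul, neg_zero, m.U_zero, one_mul, mul_one, imp_self,
        implies_true]
    | succ n ih =>
      intro x hx
      have := ih _ (h _ hτ _ (hrt x hx))
      rw [m.cj_cj] at this
      rw [Nat.cast_succ, add_mul, one_mul, neg_add_rev, m.U_add, m.U_add]
      simpa only [mul_assoc] using this
  have := key N
  rwa [mul_div_cancel₀ _ hN0.ne'] at this

end Vale.Agent.P132
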