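import Vale.Agent.P132.Basic
import Vale.Agent.P104.Zorn

/-! Bumps, kernels and filters. -/

namespace Vale.Agent.P132

open scoped InnerProductSpace BoundedContinuousFunction ComplexConjugate
open Filter Topology MeasureTheory Vale.Agent.P104

universe u

/-- A bump equal to `1` on `|s - c| ≤ r` and to `0` on `2 r ≤ |s - c|`. -/
noncomputable def bump (c r : ℝ) : ℝ →ᵇ ℂ :=
  BoundedContinuousFunction.ofNormedAddCommGroup
    (fun s => ((max 0 (min 1 (2 - |s - c| / r)) : ℝ) : ℂ)) (by fun_prop) 1 (fun s => by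
      rw [Complex.norm_real, Real.norm_eq_abs, abs_of_nonneg (le_max_left _ _)]
      exact max_le zero_le_one (min_le_left _ _))

theorem bump_apply (c r s : ℝ) : bump c r s = ((max 0 (min 1 (2 - |s - c| / r)) : ℝ) : ℂ) := rfl

theorem bump_one {c r s : ℝ} (hr : 0 < r) (h : |s - c| ≤ r) : bump c r s = 1 := by
  have : |s - c| / r ≤ 1 := (div_le_one hr).2 h
  rw [bump_apply, min_eq_left (by linarith), max_eq_right zero_le_one, Complex.ofReal_one]

theorem bump_zero {c r s : ℝ} (hr : 0 < r) (h : 2 * r ≤ |s - c|) : bump c r s = 0 := by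
  have : 2 ≤ |s - c| / r := (le_div_iff₀ hr).2 h
  rw [bump_apply, max_eq_left ((min_le_right _ _).trans (by linarith)), Complex.ofReal_zero]

theorem norm_bump_le (c r s : ℝ) : ‖bump c r s‖ ≤ 1 := by
  rw [bump_apply, Complex.norm_real, Real.norm_eq_abs, abs_of_nonneg (le_max_left _ _)]
  exact max_le zero_le_one (min_le_left _ _)

theorem supp_of_zero {f : ℝ →ᵇ ℂ} {c r : ℝ} (h : ∀ s, r ≤ |s - c| → f s = 0) :
    HasCompactSupport f :=
  HasCompactSupport.intro (isCompact_closedBall c r) fun s hs => h s (by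
    rw [Metric.mem_closedBall, Real.dist_eq] at hs
    exact (not_le.1 hs).le)

theorem bump_supp (c : ℝ) {r : ℝ} (hr : 0 < r) : HasCompactSupport (bump c r) :=
  supp_of_zero fun _ => bump_zero hr

theorem chi_zero {n : ℕ} {s : ℝ} (h : (n : ℝ) + 1 ≤ |s|) : chi n s = 0 := by
  rw [chi_apply, max_eq_left ((min_le_right _ _).trans (by linarith)), Complex.ofReal_zero]

theorem chi_one {n : ℕ} {s : ℝ} (h : |s| ≤ n) : chi n s = 1 := by
  rw [chi_apply, min_eq_left (by linarith), max_eq_right zero_le_one, Complex.ofReal_one]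

theorem chi_supp0 (n : ℕ) : HasCompactSupport (chi n) :=
  supp_of_zero (c := 0) (r := n + 1) fun s h => chi_zero (by simpa using h)

theorem norm_chi_le (n : ℕ) : ‖chi n‖ ≤ 1 :=
  BoundedContinuousFunction.norm_ofNormedAddCommGroup_le _ zero_le_one _

theorem exists_bmul {f : ℝ →ᵇ ℂ} (hf : HasCompactSupport f) {g : ℝ → ℂ} (hg : Continuous g) :
    ∃ h : ℝ →ᵇ ℂ, HasCompactSupport h ∧ ∀ s, h s = f s * g s :=
  ⟨ofCompactSupport (fun s => f s * g s) (f.continuous.mul hg)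
    hf.mul_right, hf.mul_right, fun _ => rfl⟩

theorem exists_exp {f : ℝ →ᵇ ℂ} (hf : HasCompactSupport f) :
    ∃ h : ℝ →ᵇ ℂ, HasCompactSupport h ∧ ∀ s, h s = f s * (Real.exp (s / 2) : ℝ) :=
  exists_bmul hf (by fun_prop)

theorem exists_div (p h : ℝ →ᵇ ℂ) {c : ℝ} (hc : 0 < c) (hp : ∀ s, p s ≠ 0 → c ≤ ‖h s‖) :
    ∃ g : ℝ →ᵇ ℂ, g * h = p := by
  have h0 : ∀ s, 0 < max (‖h s‖ ^ 2) (c ^ 2) := fun s => lt_max_of_lt_right (by positivity)
  refine ⟨BoundedContinuousFunction.ofNormedAddCommGroup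
    (fun s => p s * conj (h s) / ((max (‖h s‖ ^ 2) (c ^ 2) : ℝ) : ℂ)) ?_ (‖p‖ * ‖h‖ / c ^ 2)
    fun s => ?_, ?_⟩
  · exact Continuous.div (by fun_prop) (by fun_prop) fun s => by exact_mod_cast (h0 s).ne'
  · rw [norm_div, norm_mul, Complex.norm_conj, Complex.norm_real, Real.norm_of_nonneg (h0 s).le]
    gcongr
    exacts [p.norm_coe_le_norm s, h.norm_coe_le_norm s, le_max_right _ _]
  · ext s
    change p s * conj (h s) / ((max (‖h s‖ ^ 2) (c ^ 2) : ℝ) : ℂ) * h s = p s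
    by_cases hs : p s = 0
    · simp [hs]
    · have h1 := hp s hs
      rw [max_eq_left (pow_le_pow_left₀ hc.le h1 2), div_mul_eq_mul_div, mul_assoc,
        Complex.conj_mul', Complex.ofReal_pow, mul_div_assoc, div_self, mul_one]
      exact pow_ne_zero _ (by exact_mod_cast (hc.trans_le h1).ne')

/-- Rescaled and modulated kernels. -/
theorem kern (hF : FiltStmt.{u}) : ∃ A B ρ : ℝ, 0 < ρ ∧ ∀ κ : ℝ, 0 < κ → ∀ c : ℝ,
    ∃ (k : ℝ → ℂ) (f : ℝ →ᵇ ℂ), Integrable k ∧ ∫ t, ‖k t‖ = A ∧ ‖f‖ ≤ B ∧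
      (∀ s, f s = ∫ t, k t * ex t s) ∧
      (∀ s, κ ≤ |s - c| → f s = 0) ∧ ∀ s, |s - c| ≤ ρ * κ → 1 / 2 ≤ ‖f s‖ := by
  obtain ⟨-, ⟨k, g, hk, hg, g0, g1⟩, -⟩ := hF
  obtain ⟨ρ, hρ, hc⟩ := Metric.continuousAt_iff.1 (g.continuous.continuousAt (x := 0)) _
    one_half_pos
  refine ⟨∫ t, ‖k t‖, ‖g‖, ρ / 2, half_pos hρ, fun κ hκ c => ?_⟩
  have hi : ∀ F : ℝ → ℂ, ∫ t, (κ : ℂ) * F (κ * t) = ∫ t, F t := fun F => by
    rw [integral_const_mul, Measure.integral_comp_mul_left, abs_of_pos (inv_pos.2 hκ),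
      Complex.real_smul, ← mul_assoc]
    push_cast
    rw [mul_inv_cancel₀ (by exact_mod_cast hκ.ne'), one_mul]
  refine ⟨fun t => (κ : ℂ) * k (κ * t) * ex t (-c),
    g.compContinuous ⟨fun s => (s - c) / κ, by fun_prop⟩, ?_, ?_, g.norm_compContinuous_le _,
    fun s => ?_, fun s hs => ?_, fun s hs => ?_⟩
  · refine ((hk.comp_mul_left' hκ.ne').const_mul _).mul_bdd (c := 1) ?_
      (Eventually.of_forall fun t => (norm_ex_apply _ _).le)
    exact Continuous.aestronglyMeasurable (by simp only [ex_apply]; fun_prop)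
  · simp only [norm_mul, norm_ex_apply, mul_one, Complex.norm_real, Real.norm_of_nonneg hκ.le]
    rw [integral_const_mul, Measure.integral_comp_mul_left (fun t => ‖k t‖),
      abs_of_pos (inv_pos.2 hκ), smul_eq_mul, ← mul_assoc, mul_inv_cancel₀ hκ.ne', one_mul]
  · change g ((s - c) / κ) = _
    rw [hg, ← hi]
    refine integral_congr_ae (Eventually.of_forall fun t => ?_)
    simp only [ex_apply, mul_assoc, ← Complex.exp_add]
    congr 3
    rw [← add_mul, ← Complex.ofReal_add]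
    congr 2
    field_simp
    ring
  · refine g1 ((s - c) / κ) ?_
    rwa [abs_div, abs_of_pos hκ, le_div_iff₀ hκ, one_mul]
  · change 1 / 2 ≤ ‖g ((s - c) / κ)‖
    have := hc (x := (s - c) / κ) (by
      rw [Real.dist_eq, sub_zero, abs_div, abs_of_pos hκ, div_lt_iff₀ hκ]
      nlinarith)
    rw [dist_eq_norm, g0] at this
    have h2 := norm_sub_norm_le 1 (g ((s - c) / κ))
    rw [norm_sub_rev, norm_one] at h2
    linarith

variable {H : Type u} [NormedAddCommGroup H] [InnerProductSpace ℂ H] [CompleteSpace H]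

namespace HMod

variable {Γ : Set (H × H)} (m : HMod Γ)

theorem ext_cut {a b : H} (h : ∀ n, m.Φ (chi n) a = m.Φ (chi n) b) : a = b :=
  sub_eq_zero.1 (m.eq_zero_of_cut fun n => by rw [map_sub, h, sub_self])

/-- A vector killed by functions that are bounded below near every point vanishes. -/
theorem eq_zero_of_cover {η : H}
    (h : ∀ c : ℝ, ∃ f : ℝ →ᵇ ℂ, m.Φ f η = 0 ∧ f c ≠ 0) : η = 0 := by
  refine m.eq_zero_of_cut fun n => ?_
  have key : ∃ (g : ℝ →ᵇ ℂ) (c : ℝ), 0 < c ∧ m.Φ g η = 0 ∧ (∀ s, 0 ≤ (g s).re) ∧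
      ∀ s ∈ Metric.closedBall (0 : ℝ) (n + 1), c ≤ (g s).re := by
    refine (isCompact_closedBall (0 : ℝ) (n + 1)).induction_on
      (p := fun S => ∃ (g : ℝ →ᵇ ℂ) (c : ℝ), 0 < c ∧ m.Φ g η = 0 ∧ (∀ s, 0 ≤ (g s).re) ∧
        ∀ s ∈ S, c ≤ (g s).re) ⟨0, 1, one_pos, by simp, by simp, by simp⟩ ?_ ?_ ?_
    · rintro S T hST ⟨g, c, h1, h2, h3, h4⟩
      exact ⟨g, c, h1, h2, h3, fun s hs => h4 s (hST hs)⟩
    · rintro S T ⟨g, c, h1, h2, h3, h4⟩ ⟨g', c', h1', h2', h3', h4'⟩
      refine ⟨g + g', min c c', lt_min h1 h1', by simp [h2, h2'], fun s => ?_, fun s hs => ?_⟩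
      · exact add_nonneg (h3 s) (h3' s)
      · change _ ≤ (g s).re + (g' s).re
        rcases hs with hs | hs
        · linarith [min_le_left c c', h4 s hs, h3' s]
        · linarith [min_le_right c c', h4' s hs, h3 s]
    · intro c _
      obtain ⟨f, h1, h2⟩ := h c
      have e : ∀ s, ((star f * f) s).re = ‖f s‖ ^ 2 := fun s => by
        change (conj (f s) * f s).re = _
        rw [Complex.conj_mul', ← Complex.ofReal_pow, Complex.ofReal_re]
      have h3 : 0 < ‖f c‖ ^ 2 := by positivity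
      refine ⟨{s | ‖f c‖ ^ 2 / 2 < ‖f s‖ ^ 2}, mem_nhdsWithin_of_mem_nhds
        ((isOpen_lt (f := fun _ => ‖f c‖ ^ 2 / 2) (g := fun s => ‖f s‖ ^ 2) continuous_const
          (by fun_prop)).mem_nhds (half_lt_self h3)), star f * f,
        ‖f c‖ ^ 2 / 2, half_pos h3, by rw [m.Φ_mul_apply, h1, map_zero], fun s => ?_,
        fun s hs => ?_⟩
      · rw [e]
        positivity
      · rw [e]
        exact le_of_lt hs
  obtain ⟨g, c, h1, h2, -, h4⟩ := key
  obtain ⟨q, hq⟩ := exists_div (chi n) g h1 fun s hs => (h4 s (by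
    rw [Metric.mem_closedBall, Real.dist_eq, sub_zero]
    exact le_of_not_ge fun h => hs (chi_zero h))).trans (Complex.re_le_norm _)
  rw [← hq, m.Φ_mul_apply, h2, map_zero]

theorem integrable_filt (hF : FiltStmt.{u}) {k : ℝ → ℂ} (hk : Integrable k) (x : H →L[ℂ] H)
    (η : H) : Integrable fun t => k t • m.U t (x (m.U (-t) η)) := by
  have hc := (hF.1 H Γ m).1
  have h1 : Continuous fun t => x (m.U (-t) η) := x.continuous.comp ((hc η).comp continuous_neg)
  have h2 : Continuous fun t => m.U t (x (m.U (-t) η)) := by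
    refine continuous_iff_continuousAt.2 fun t₀ => ?_
    have e : ∀ t, m.U t (x (m.U (-t) η)) =
        m.U t (x (m.U (-t) η) - x (m.U (-t₀) η)) + m.U t (x (m.U (-t₀) η)) := fun t => by
      rw [map_sub, sub_add_cancel]
    rw [ContinuousAt, tendsto_congr e]
    have h3 : Tendsto (fun t => m.U t (x (m.U (-t) η) - x (m.U (-t₀) η))) (𝓝 t₀) (𝓝 0) := by
      rw [tendsto_zero_iff_norm_tendsto_zero]
      simp only [m.norm_U]
      exact tendsto_iff_norm_sub_tendsto_zero.1 h1.continuousAt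
    simpa only [zero_add] using h3.add (hc (x (m.U (-t₀) η))).continuousAt
  refine hk.smul_bdd (‖x‖ * ‖η‖) h2.aestronglyMeasurable (Eventually.of_forall fun t => ?_)
  rw [m.norm_U]
  simpa only [m.norm_U] using x.le_opNorm (m.U (-t) η)

/-- Band property of a filtered operator. -/
theorem band (hB : BIStmt.{u}) (hF : FiltStmt.{u}) {k : ℝ → ℂ} (hk : Integrable k) {f : ℝ →ᵇ ℂ}
    (hf : ∀ s, f s = ∫ t, k t * ex t s) {x y : H →L[ℂ] H}
    (hy : ∀ η, y η = ∫ t, k t • m.U t (x (m.U (-t) η))) {p q : ℝ →ᵇ ℂ}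
    (hp : HasCompactSupport p) (hq : HasCompactSupport q)
    (h : ∀ s s', p s * q s' * f (s - s') = 0) (η : H) : m.Φ p (y (m.Φ q η)) = 0 := by
  let ν : (ℝ →ᵇ ℂ) →L[ℂ] H := LinearMap.mkContinuous
    { toFun := fun v => x (m.Φ v η)
      map_add' := fun a b => by simp
      map_smul' := fun c a => by simp } (‖x‖ * ‖η‖) fun v => by
    change ‖x (m.Φ v η)‖ ≤ _
    refine (x.le_opNorm _).trans ?_
    rw [mul_assoc, mul_comm ‖η‖]
    exact mul_le_mul_of_nonneg_left (m.norm_Φ_apply_le v η) (norm_nonneg _)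
  have := hB H m.Φ ν k Unit (fun _ => p) (fun _ => q) 0 0 hk (fun _ => hp) (fun _ => hq)
    HasCompactSupport.zero fun s s' => by
      simp only [Finset.univ_unique, Finset.sum_singleton, BoundedContinuousFunction.coe_zero,
        Pi.zero_apply, zero_mul]
      rw [← h s s', hf, ← integral_const_mul]
      exact integral_congr_ae (Eventually.of_forall fun t => by ring)
  rw [map_zero, map_zero, map_zero] at this
  rw [hy, ← ContinuousLinearMap.integral_comp_comm _ (m.integrable_filt hF hk x _), ← this]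
  refine integral_congr_ae (Eventually.of_forall fun t => ?_)
  simp only [Finset.univ_unique, Finset.sum_singleton, map_smul]
  rw [mul_comm (ex t), m.Φ_mul_apply]
  change _ = k t • m.Φ p (m.U t (x (m.Φ (ex (-t) * q) η)))
  rw [m.Φ_mul_apply]
  rfl

end HMod

variable {M : VonNeumannAlgebra H} {ξ : H}

/-- Elements of the centralizer commute with the vector. -/
theorem Mod.R_eq (m : Mod M ξ) (hF : FiltStmt.{u}) {x : H →L[ℂ] H} (hx : x ∈ M)
    (h : ∀ t, m.U t (x ξ) = x ξ) : m.R x ξ = x ξ := by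
  refine m.ext_cut fun n => ?_
  obtain ⟨g, -, hg⟩ := exists_exp (chi_supp0 n)
  rw [m.Φ_R_ξ hx _ g hg, inv_fix hF _ h, inv_fix hF _ h, hg]
  simp

end Vale.Agent.P132
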