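import Vale.Agent.P132.Stm

/-! WP B, part 1: two variable functional calculus under an integral. -/

namespace Vale.Agent.P132

open scoped InnerProductSpace BoundedContinuousFunction ComplexConjugate
open Filter Topology MeasureTheory

universe u

namespace BF

theorem norm_ex (t s : ℝ) : ‖ex t s‖ = 1 := Complex.norm_exp_ofReal_mul_I _

theorem norm_ex_le (t : ℝ) : ‖ex t‖ ≤ 1 :=
  (BoundedContinuousFunction.norm_le zero_le_one).2 fun s => (norm_ex t s).le

theorem norm_ex_mul_le (t : ℝ) (b : ℝ →ᵇ ℂ) : ‖ex t * b‖ ≤ ‖b‖ :=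
  (norm_mul_le _ _).trans (by nlinarith [norm_ex_le t, norm_nonneg b, norm_nonneg (ex t)])

theorem ex_sub (t s s' : ℝ) : ex t (s - s') = ex t s * ex (-t) s' := by
  simp only [ex_apply, ← Complex.exp_add]
  congr 1
  push_cast
  ring

theorem ex_lip (t t' s : ℝ) : ‖ex t s - ex t' s‖ ≤ |t - t'| * |s| := by
  have h : ex t s - ex t' s = ex t' s * (Complex.exp ((((t - t') * s : ℝ) : ℂ) * Complex.I) - 1) := by
    simp only [ex_apply, mul_sub, ← Complex.exp_add, mul_one]
    congr 2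
    push_cast
    ring
  rw [h, norm_mul, norm_ex, one_mul, mul_comm _ Complex.I, ← abs_mul, ← Real.norm_eq_abs]
  exact Real.norm_exp_I_mul_ofReal_sub_one_le

theorem cont_ex_mul (b : ℝ →ᵇ ℂ) (hb : HasCompactSupport b) : Continuous fun t => ex t * b := by
  obtain ⟨R, hR⟩ := hb.isCompact.isBounded.subset_closedBall 0
  have hR0 : 0 ≤ |R| * ‖b‖ := by positivity
  refine LipschitzWith.continuous (K := ⟨|R| * ‖b‖, hR0⟩) (LipschitzWith.of_dist_le_mul fun t t' => ?_)
  rw [dist_eq_norm, Real.dist_eq]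
  refine (BoundedContinuousFunction.norm_le (by positivity)).2 fun s => ?_
  have e : (ex t * b - ex t' * b) s = (ex t s - ex t' s) * b s := by
    simp only [BoundedContinuousFunction.coe_sub, BoundedContinuousFunction.coe_mul, Pi.sub_apply,
      Pi.mul_apply]
    ring
  rw [e]
  by_cases hs : b s = 0
  · rw [hs, mul_zero, norm_zero]
    positivity
  · have h1 : s ∈ Metric.closedBall (0 : ℝ) R := hR (subset_tsupport _ hs)
    rw [mem_closedBall_zero_iff, Real.norm_eq_abs] at h1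
    have h2 : |s| ≤ |R| := h1.trans (le_abs_self R)
    rw [norm_mul]
    change _ ≤ |R| * ‖b‖ * |t - t'|
    calc ‖ex t s - ex t' s‖ * ‖b s‖ ≤ (|t - t'| * |R|) * ‖b‖ :=
          mul_le_mul ((ex_lip t t' s).trans (by gcongr)) (b.norm_coe_le_norm s) (norm_nonneg _)
            (by positivity)
      _ = _ := by ring

theorem intg {E : Type*} [NormedAddCommGroup E] [NormedSpace ℂ E] {k : ℝ → ℂ} (hk : Integrable k)
    {v : ℝ → E} (hv : Continuous v) (C : ℝ) (hC : ∀ t, ‖v t‖ ≤ C) :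
    Integrable fun t => k t • v t := by
  refine (hk.norm.mul_const C).mono' (hk.aestronglyMeasurable.smul hv.aestronglyMeasurable)
    (Eventually.of_forall fun t => ?_)
  rw [norm_smul]
  exact mul_le_mul_of_nonneg_left (hC t) (norm_nonneg _)

theorem part (K : Set ℝ) (hK : IsCompact K) (δ : ℝ) (hδ : 0 < δ) :
    ∃ (T : Finset ℝ) (f : ℝ → ℝ →ᵇ ℂ) (r : ℝ → ℝ → ℝ), (∀ c s, f c s = r c s) ∧
      (∀ c s, 0 ≤ r c s) ∧ (∀ s, ∑ c ∈ T, r c s ≤ 1) ∧ (∀ s ∈ K, ∑ c ∈ T, r c s = 1) ∧
      ∀ c s, r c s ≠ 0 → dist c s < δ := by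
  classical
  obtain ⟨t, -, htf, hcov⟩ := finite_cover_balls_of_compact hK hδ
  set T := htf.toFinset
  obtain ⟨ρ, hρ⟩ := PartitionOfUnity.exists_isSubordinate (ι := T) hK.isClosed
    (fun c => Metric.ball (c : ℝ) δ) (fun _ => Metric.isOpen_ball) (fun s hs => by
      obtain ⟨c, hc, hsc⟩ := Set.mem_iUnion₂.1 (hcov hs)
      exact Set.mem_iUnion.2 ⟨⟨c, htf.mem_toFinset.2 hc⟩, hsc⟩)
  let r : ℝ → ℝ → ℝ := fun c s => if h : c ∈ T then ρ ⟨c, h⟩ s else 0
  have hr : ∀ c, Continuous (r c) := fun c => by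
    by_cases h : c ∈ T
    · simpa only [r, dif_pos h] using (ρ ⟨c, h⟩).continuous
    · simpa only [r, dif_neg h] using continuous_const
  have h0 : ∀ c s, 0 ≤ r c s := fun c s => by
    by_cases h : c ∈ T
    · simpa only [r, dif_pos h] using ρ.nonneg ⟨c, h⟩ s
    · simp only [r, dif_neg h, le_refl]
  have h1 : ∀ c s, r c s ≤ 1 := fun c s => by
    by_cases h : c ∈ T
    · simpa only [r, dif_pos h] using ρ.le_one ⟨c, h⟩ s
    · simp only [r, dif_neg h, zero_le_one]
  have hs : ∀ s, ∑ c ∈ T, r c s = ∑ᶠ c : T, ρ c s := fun s => by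
    rw [finsum_eq_sum_of_fintype, ← Finset.sum_coe_sort T]
    exact Finset.sum_congr rfl fun c _ => by simp only [r, dif_pos c.2]
  refine ⟨T, fun c => BoundedContinuousFunction.ofNormedAddCommGroup (fun s => (r c s : ℂ))
    (Complex.continuous_ofReal.comp (hr c)) 1 (fun s => ?_), r, fun _ _ => rfl, h0,
    fun s => ?_, fun s hsK => ?_, fun c s h => ?_⟩
  · rw [Complex.norm_real, Real.norm_eq_abs, abs_of_nonneg (h0 c s)]
    exact h1 c s
  · rw [hs]
    exact ρ.sum_le_one s
  · rw [hs]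
    exact ρ.sum_eq_one hsK
  · by_cases hc : c ∈ T
    · simp only [r, dif_pos hc] at h
      have := hρ ⟨c, hc⟩ (subset_tsupport _ h)
      rw [Metric.mem_ball, dist_comm] at this
      exact this
    · simp only [r, dif_neg hc, ne_eq, not_true_eq_false] at h

theorem approx (K : Set ℝ) (hK : IsCompact K) :
    ∃ (T : ℕ → Finset ℝ) (f : ℕ → ℝ → ℝ →ᵇ ℂ),
      (∀ n (g : ℝ →ᵇ ℂ), ‖∑ c ∈ T n, g c • f n c‖ ≤ ‖g‖) ∧
      ∀ g : ℝ →ᵇ ℂ, (∀ s, s ∉ K → g s = 0) →
        Tendsto (fun n => ∑ c ∈ T n, g c • f n c) atTop (𝓝 g) := by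
  choose T f r hf h0 h1 h2 h3 using fun n : ℕ => part K hK (1 / ((n : ℝ) + 1)) (by positivity)
  have ev : ∀ n (g : ℝ →ᵇ ℂ) s, (∑ c ∈ T n, g c • f n c) s = ∑ c ∈ T n, g c * r n c s := by
    intro n g s
    rw [BoundedContinuousFunction.coe_sum, Finset.sum_apply]
    exact Finset.sum_congr rfl fun c _ => by
      rw [BoundedContinuousFunction.smul_apply, hf, smul_eq_mul]
  refine ⟨T, f, fun n g => (BoundedContinuousFunction.norm_le (norm_nonneg _)).2 fun s => ?_,
    fun g hg => ?_⟩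
  · rw [ev]
    calc ‖∑ c ∈ T n, g c * (r n c s : ℂ)‖ ≤ ∑ c ∈ T n, ‖g‖ * r n c s := by
          refine norm_sum_le_of_le _ fun c _ => ?_
          rw [norm_mul, Complex.norm_real, Real.norm_eq_abs, abs_of_nonneg (h0 n c s)]
          exact mul_le_mul_of_nonneg_right (g.norm_coe_le_norm c) (h0 n c s)
      _ ≤ ‖g‖ := by
          rw [← Finset.mul_sum]
          exact mul_le_of_le_one_right (norm_nonneg _) (h1 n s)
  · have hu : UniformContinuous g :=
      (HasCompactSupport.intro hK hg).uniformContinuous_of_continuous g.continuous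
    rw [Metric.tendsto_atTop]
    intro ε hε
    obtain ⟨δ, hδ, hδ'⟩ := Metric.uniformContinuous_iff.1 hu (ε / 2) (by positivity)
    obtain ⟨N, hN⟩ := exists_nat_one_div_lt hδ
    refine ⟨N, fun n hn => lt_of_le_of_lt ?_ (half_lt_self hε)⟩
    rw [dist_eq_norm]
    refine (BoundedContinuousFunction.norm_le (by positivity)).2 fun s => ?_
    have e : (∑ c ∈ T n, g c • f n c - g) s = ∑ c ∈ T n, (g c - g s) * r n c s := by
      rw [BoundedContinuousFunction.coe_sub, Pi.sub_apply, ev]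
      simp only [sub_mul, Finset.sum_sub_distrib, ← Finset.mul_sum]
      congr 1
      by_cases hs : s ∈ K
      · rw [← Complex.ofReal_sum, h2 n s hs, Complex.ofReal_one, mul_one]
      · rw [hg s hs, zero_mul]
    rw [e]
    calc ‖∑ c ∈ T n, (g c - g s) * (r n c s : ℂ)‖ ≤ ∑ c ∈ T n, ε / 2 * r n c s := by
          refine norm_sum_le_of_le _ fun c _ => ?_
          rw [norm_mul, Complex.norm_real, Real.norm_eq_abs, abs_of_nonneg (h0 n c s)]
          by_cases hc : r n c s = 0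
          · rw [hc, mul_zero, mul_zero]
          · refine mul_le_mul_of_nonneg_right ?_ (h0 n c s)
            rw [← dist_eq_norm]
            refine (hδ' ((h3 n c s hc).trans (lt_of_le_of_lt ?_ hN))).le
            have : (N : ℝ) ≤ n := Nat.cast_le.2 hn
            gcongr
      _ ≤ ε / 2 := by
          rw [← Finset.mul_sum]
          exact mul_le_of_le_one_right (by positivity) (h1 n s)

variable {H : Type u} [NormedAddCommGroup H] [InnerProductSpace ℂ H] [CompleteSpace H]

theorem norm_Phi (Φ : (ℝ →ᵇ ℂ) →⋆ₐ[ℂ] (H →L[ℂ] H)) (f : ℝ →ᵇ ℂ) : ‖Φ f‖ ≤ ‖f‖ :=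
  NonUnitalStarAlgHom.norm_apply_le Φ f

theorem norm_Phi_apply (Φ : (ℝ →ᵇ ℂ) →⋆ₐ[ℂ] (H →L[ℂ] H)) (f : ℝ →ᵇ ℂ) (η : H) :
    ‖Φ f η‖ ≤ ‖f‖ * ‖η‖ :=
  ((Φ f).le_opNorm η).trans (mul_le_mul_of_nonneg_right (norm_Phi Φ f) (norm_nonneg _))

/-- `Φ` as a continuous linear map. -/
noncomputable def PL (Φ : (ℝ →ᵇ ℂ) →⋆ₐ[ℂ] (H →L[ℂ] H)) : (ℝ →ᵇ ℂ) →L[ℂ] (H →L[ℂ] H) :=
  LinearMap.mkContinuous
    { toFun := Φ
      map_add' := map_add Φ
      map_smul' := map_smul Φ } 1 fun f => by simpa using norm_Phi Φ f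

@[simp] theorem PL_apply (Φ : (ℝ →ᵇ ℂ) →⋆ₐ[ℂ] (H →L[ℂ] H)) (f : ℝ →ᵇ ℂ) : PL Φ f = Φ f := rfl

theorem cont_Phi (Φ : (ℝ →ᵇ ℂ) →⋆ₐ[ℂ] (H →L[ℂ] H)) : Continuous Φ := (PL Φ).continuous

/-- A Bochner integral in the space of bounded functions is computed pointwise. -/
theorem int_eq {F : ℝ → ℝ →ᵇ ℂ} (hF : Integrable F) (g : ℝ →ᵇ ℂ)
    (h : ∀ s, ∫ t, F t s = g s) : ∫ t, F t = g := by
  ext s
  rw [← h s]
  exact ((BoundedContinuousFunction.evalCLM ℂ s).integral_comp_comm hF).symm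

end BF

open BF in
theorem bi : BIStmt.{u} := by
  intro H _ _ _ Φ ν k ι _ a b p q hk ha hb hp h
  have hK : IsCompact (tsupport p ∪ ⋃ i, tsupport (a i)) :=
    hp.isCompact.union (isCompact_iUnion fun i => (ha i).isCompact)
  obtain ⟨T, f, hA, hlim⟩ := approx _ hK
  have cb : ∀ i, Continuous fun t => ex (-t) * b i := fun i =>
    (cont_ex_mul (b i) (hb i)).comp continuous_neg
  have cex : ∀ c : ℝ, Continuous fun t => ex t c := fun c => by
    simp only [ex_apply]
    fun_prop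
  have ig : ∀ c : ℝ, Integrable fun t => k t • ∑ i, (ex t * a i) c • (ex (-t) * b i) := fun c => by
    refine intg hk (continuous_finsetSum _ fun i _ => Continuous.fun_smul ?_ (cb i))
      (∑ i, ‖a i‖ * ‖b i‖) fun t => norm_sum_le_of_le _ fun i _ => ?_
    · exact (cex c).mul continuous_const
    · rw [norm_smul]
      exact mul_le_mul (((ex t * a i).norm_coe_le_norm c).trans (norm_ex_mul_le _ _))
        (norm_ex_mul_le _ _) (norm_nonneg _) (norm_nonneg _)
  have node : ∀ c : ℝ, ∫ t, k t • ∑ i, (ex t * a i) c • (ex (-t) * b i) = p c • q := fun c => by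
    refine int_eq (ig c) _ fun s => ?_
    rw [BoundedContinuousFunction.smul_apply, smul_eq_mul, ← h c s]
    refine integral_congr_ae (Eventually.of_forall fun t => ?_)
    simp only [BoundedContinuousFunction.smul_apply, smul_eq_mul,
      BoundedContinuousFunction.coe_sum, Finset.sum_apply, BoundedContinuousFunction.coe_mul,
      Pi.mul_apply, ex_sub]
    congr 1
    exact Finset.sum_congr rfl fun i _ => by ring
  have step : ∀ n, ∫ t, k t • ∑ i, Φ (∑ c ∈ T n, (ex t * a i) c • f n c) (ν (ex (-t) * b i)) =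
      Φ (∑ c ∈ T n, p c • f n c) (ν q) := fun n => by
    have e1 : ∀ t, k t • ∑ i, Φ (∑ c ∈ T n, (ex t * a i) c • f n c) (ν (ex (-t) * b i)) =
        ∑ c ∈ T n, ((Φ (f n c)).comp ν) (k t • ∑ i, (ex t * a i) c • (ex (-t) * b i)) := fun t => by
      simp only [map_sum, map_smul, _root_.sum_apply, _root_.smul_apply,
        ContinuousLinearMap.comp_apply, ← Finset.smul_sum]
      rw [Finset.sum_comm]
    simp only [e1]
    rw [integral_finsetSum _ fun c _ => ((Φ (f n c)).comp ν).integrable_comp (ig c)]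
    simp only [ContinuousLinearMap.integral_comp_comm _ (ig _), node]
    simp only [map_sum, map_smul, _root_.sum_apply, _root_.smul_apply,
      ContinuousLinearMap.comp_apply]
  have l1 : Tendsto (fun n => Φ (∑ c ∈ T n, p c • f n c) (ν q)) atTop (𝓝 (Φ p (ν q))) := by
    have := hlim p fun s hs => image_eq_zero_of_notMem_tsupport fun h' => hs (Or.inl h')
    exact ((ContinuousLinearMap.apply ℂ H (ν q)).continuous.comp (cont_Phi Φ)).continuousAt.tendsto.comp
      this
  have l2 : Tendsto (fun n => ∫ t, k t • ∑ i, Φ (∑ c ∈ T n, (ex t * a i) c • f n c)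
      (ν (ex (-t) * b i))) atTop (𝓝 (∫ t, k t • ∑ i, Φ (ex t * a i) (ν (ex (-t) * b i)))) := by
    refine tendsto_integral_of_dominated_convergence
      (fun t => ‖k t‖ * ∑ i, ‖a i‖ * (‖ν‖ * ‖b i‖)) (fun n => ?_) (hk.norm.mul_const _)
      (fun n => Eventually.of_forall fun t => ?_) (Eventually.of_forall fun t => ?_)
    · refine hk.aestronglyMeasurable.smul (Continuous.aestronglyMeasurable ?_)
      refine continuous_finsetSum _ fun i _ => Continuous.clm_apply ((cont_Phi Φ).comp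
        (continuous_finsetSum _ fun c _ => Continuous.fun_smul ?_ continuous_const))
        (ν.continuous.comp (cb i))
      exact (cex c).mul continuous_const
    · rw [norm_smul]
      refine mul_le_mul_of_nonneg_left (norm_sum_le_of_le _ fun i _ => ?_) (norm_nonneg _)
      refine (norm_Phi_apply _ _ _).trans (mul_le_mul ((hA _ _).trans (norm_ex_mul_le _ _))
        ((ν.le_opNorm _).trans ?_) (norm_nonneg _) (norm_nonneg _))
      exact mul_le_mul_of_nonneg_left (norm_ex_mul_le _ _) (norm_nonneg _)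
    · refine Tendsto.const_smul (tendsto_finsetSum _ fun i _ => ?_) _
      have := hlim (ex t * a i) fun s hs => by
        rw [BoundedContinuousFunction.coe_mul, Pi.mul_apply, image_eq_zero_of_notMem_tsupport
          (f := a i) fun h' => hs (Or.inr (Set.mem_iUnion.2 ⟨i, h'⟩)), mul_zero]
      exact ((ContinuousLinearMap.apply ℂ H (ν (ex (-t) * b i))).continuous.comp
        (cont_Phi Φ)).continuousAt.tendsto.comp this
  simp only [step] at l2
  exact tendsto_nhds_unique l2 l1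

end Vale.Agent.P132
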