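import Vale.Agent.P132.Eig1

/-! Macroscopic families of almost eigenoperators. -/

namespace Vale.Agent.P132

open scoped InnerProductSpace BoundedContinuousFunction ComplexConjugate
open Filter Topology MeasureTheory

universe u

variable {H : Type u} [NormedAddCommGroup H] [InnerProductSpace ℂ H] [CompleteSpace H]
variable {M : VonNeumannAlgebra H} {ξ : H}

theorem inner_star_mul (T : H →L[ℂ] H) (a b : H) : ⟪a, (star T * T) b⟫_ℂ = ⟪T a, T b⟫_ℂ := by
  rw [mul_apply_eq_comp, ContinuousLinearMap.star_eq_adjoint,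
    ContinuousLinearMap.adjoint_inner_right]

theorem inner_dec {T1 T2 : H →L[ℂ] H} (h : star T1 * T1 + star T2 * T2 = 1) (a b : H) :
    ⟪a, b⟫_ℂ = ⟪T1 a, T1 b⟫_ℂ + ⟪T2 a, T2 b⟫_ℂ := by
  rw [← inner_star_mul, ← inner_star_mul, ← inner_add_right, ← ContinuousLinearMap.add_apply, h,
    one_apply_eq_self]

theorem norm_isom_le {s : H →L[ℂ] H} (h : star s * s = 1) : ‖s‖ ≤ 1 := by
  refine s.opNorm_le_bound zero_le_one fun η => ?_
  have := inner_star_mul s η η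
  rw [h, one_apply_eq_self, inner_self_eq_norm_sq_to_K, inner_self_eq_norm_sq_to_K] at this
  have h2 : ‖η‖ ^ 2 = ‖s η‖ ^ 2 := by exact_mod_cast this
  rw [one_mul]
  exact ((sq_eq_sq₀ (norm_nonneg _) (norm_nonneg _)).1 h2).ge

omit [CompleteSpace H] in
theorem norm_app_le {s : H →L[ℂ] H} (h : ‖s‖ ≤ 1) (η : H) : ‖s η‖ ≤ ‖η‖ :=
  (s.le_opNorm η).trans (mul_le_of_le_one_left (norm_nonneg _) h)

/-- Two isometries of `M` with complementary ranges. -/
structure Cuntz (M : VonNeumannAlgebra H) (s1 s2 : H →L[ℂ] H) : Prop where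
  m1 : s1 ∈ M
  m2 : s2 ∈ M
  h11 : star s1 * s1 = 1
  h22 : star s2 * s2 = 1
  h12 : star s1 * s2 = 0
  h21 : star s2 * s1 = 0
  sum : s1 * star s1 + s2 * star s2 = 1

theorem exists_cuntz (hA : AllEq M) (h : ∃ p ∈ M, IsStarProjection p ∧ p ≠ 0 ∧ p ≠ 1) :
    ∃ s1 s2, Cuntz M s1 s2 := by
  obtain ⟨p, hpM, hp, h0, h1⟩ := h
  obtain ⟨s1, m1, h11, e1⟩ := hA p hpM hp h0
  obtain ⟨s2, m2, h22, e2⟩ := hA (1 - p) (sub_mem (one_mem _) hpM) hp.one_sub
    (sub_ne_zero.2 h1.symm)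
  have h12 : star s1 * s2 = 0 := by
    have e : star s1 * s2 = star s1 * (s1 * star s1 * (s2 * star s2)) * s2 := by
      calc star s1 * s2 = (star s1 * s1) * star s1 * s2 * (star s2 * s2) := by
            rw [h11, h22, one_mul, mul_one]
        _ = _ := by simp only [mul_assoc]
    rw [e, e1, e2, hp.mul_one_sub_self, mul_zero, zero_mul]
  have h21 : star s2 * s1 = 0 := by
    have := congrArg star h12
    rwa [star_mul, star_star, star_zero] at this
  exact ⟨s1, s2, m1, m2, h11, h22, h12, h21, by rw [e1, e2, add_sub_cancel]⟩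

/-- The vector `s1 ξ s1* + l s2 ξ s2*`. -/
noncomputable def xh (m : Mod M ξ) (s1 s2 : H →L[ℂ] H) (l : ℝ) : H :=
  s1 (m.R (star s1) ξ) + (l : ℂ) • s2 (m.R (star s2) ξ)

namespace Cuntz

variable (m : Mod M ξ) {s1 s2 : H →L[ℂ] H} (c : Cuntz M s1 s2) (l : ℝ)
include c

theorem R1 : m.R s1 (xh m s1 s2 l) = s1 ξ := by
  rw [xh, map_add, map_smul, ← m.comm_R c.m1 c.m1, ← m.comm_R c.m2 c.m1, ← m.R_mul_apply,
    ← m.R_mul_apply, c.h11, c.h21, m.R_one, m.R_zero]
  simp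

theorem R2 : m.R s2 (xh m s1 s2 l) = (l : ℂ) • s2 ξ := by
  rw [xh, map_add, map_smul, ← m.comm_R c.m1 c.m2, ← m.comm_R c.m2 c.m2, ← m.R_mul_apply,
    ← m.R_mul_apply, c.h12, c.h22, m.R_one, m.R_zero]
  simp

theorem L1 : star s1 (xh m s1 s2 l) = m.R (star s1) ξ := by
  rw [xh, map_add, map_smul, ← mul_apply_eq_comp, ← mul_apply_eq_comp (star s1) s2, c.h11, c.h12]
  simp

theorem L2 : star s2 (xh m s1 s2 l) = (l : ℂ) • m.R (star s2) ξ := by
  rw [xh, map_add, map_smul, ← mul_apply_eq_comp, ← mul_apply_eq_comp (star s2) s2, c.h21, c.h22]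
  simp

theorem sumR : star (m.R s1) * m.R s1 + star (m.R s2) * m.R s2 = 1 := by
  rw [← m.R_star, ← m.R_star, ← m.R_mul, ← m.R_mul, ← m.R_add, c.sum, m.R_one]

theorem sumL : star (star s1) * star s1 + star (star s2) * star s2 = 1 := by
  rw [star_star, star_star, c.sum]

theorem J_xh : m.J (xh m s1 s2 l) = xh m s1 s2 l := by
  rw [xh, map_add, map_smulₛₗ, m.J_apply, m.J_apply s2, m.J_R, m.J_R, star_star, star_star, m.Jξ,
    Complex.conj_ofReal, m.comm_R c.m1 (star_mem c.m1), m.comm_R c.m2 (star_mem c.m2)]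

theorem cycSep (hξ : CycSep M ξ) (hl : 0 < l) : CycSep M (xh m s1 s2 l) := by
  have hl' : (l : ℂ) ≠ 0 := by exact_mod_cast hl.ne'
  constructor
  · refine Metric.dense_iff.2 fun η ε hε => ?_
    obtain ⟨_, ⟨y1, hy1, rfl⟩, d1⟩ := hξ.1.exists_dist_lt (m.R s1 η) (half_pos hε)
    obtain ⟨_, ⟨y2, hy2, rfl⟩, d2⟩ := hξ.1.exists_dist_lt (m.R s2 η) (half_pos hε)
    refine ⟨_, ?_, y1 * star s1 + (l : ℂ)⁻¹ • (y2 * star s2), add_mem (mul_mem hy1 (star_mem c.m1))
      (M.toStarSubalgebra.smul_mem (mul_mem hy2 (star_mem c.m2)) _), rfl⟩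
    have e : (y1 * star s1 + (l : ℂ)⁻¹ • (y2 * star s2)) (xh m s1 s2 l) - η =
        m.R (star s1) (y1 ξ - m.R s1 η) + m.R (star s2) (y2 ξ - m.R s2 η) := by
      have e1 : m.R (star s1) (m.R s1 η) + m.R (star s2) (m.R s2 η) = η := by
        rw [← m.R_mul_apply, ← m.R_mul_apply, ← ContinuousLinearMap.add_apply, ← m.R_add, c.sum,
          m.R_one, one_apply_eq_self]
      rw [ContinuousLinearMap.add_apply, ContinuousLinearMap.smul_apply, mul_apply_eq_comp,
        mul_apply_eq_comp, c.L1, c.L2, map_smul, smul_smul, inv_mul_cancel₀ hl', one_smul,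
        m.comm_R hy1 (star_mem c.m1), m.comm_R hy2 (star_mem c.m2), map_sub, map_sub]
      nth_rw 1 [← e1]
      abel
    rw [Metric.mem_ball, dist_eq_norm, e]
    rw [dist_comm, dist_eq_norm] at d1 d2
    have n1 := norm_app_le (s := m.R (star s1))
      (by rw [m.norm_R, norm_star]; exact norm_isom_le c.h11) (y1 ξ - m.R s1 η)
    have n2 := norm_app_le (s := m.R (star s2))
      (by rw [m.norm_R, norm_star]; exact norm_isom_le c.h22) (y2 ξ - m.R s2 η)
    linarith [norm_add_le (m.R (star s1) (y1 ξ - m.R s1 η)) (m.R (star s2) (y2 ξ - m.R s2 η))]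
  · intro x hx h
    have h1 : x * s1 = 0 := hξ.2 _ (mul_mem hx c.m1) (by
      rw [mul_apply_eq_comp, ← c.R1 m l, m.comm_R hx c.m1, h, map_zero])
    have h2 : x * s2 = 0 := hξ.2 _ (mul_mem hx c.m2) (by
      have := m.comm_R hx c.m2 (xh m s1 s2 l)
      rw [c.R2, h, map_zero, map_smul] at this
      exact (smul_eq_zero.1 this).resolve_left hl')
    rw [← mul_one x, ← c.sum, mul_add, ← mul_assoc, ← mul_assoc, h1, h2, zero_mul, zero_mul,
      add_zero]

theorem pos (hl : 0 < l) {x : H →L[ℂ] H} (hx : x ∈ M) :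
    0 ≤ (⟪x (xh m s1 s2 l), m.R x (xh m s1 s2 l)⟫_ℂ).re ∧
      (⟪x (xh m s1 s2 l), m.R x (xh m s1 s2 l)⟫_ℂ).im = 0 := by
  have key : ∀ (a b : H →L[ℂ] H) (la lb : ℝ), a ∈ M → b ∈ M →
      m.R a (xh m s1 s2 l) = (la : ℂ) • a ξ → star b (xh m s1 s2 l) = (lb : ℂ) • m.R (star b) ξ →
      ⟪star b (m.R a (x (xh m s1 s2 l))), star b (m.R a (m.R x (xh m s1 s2 l)))⟫_ℂ =
        ((la * lb : ℝ) : ℂ) * ⟪(star b * x * a) ξ, m.R (star b * x * a) ξ⟫_ℂ :=
    fun a b la lb ha hb e1 e2 => by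
    rw [← m.comm_R hx ha, e1, m.comm_R (star_mem hb) ha, m.comm_R (star_mem hb) hx, e2]
    simp only [map_smul, inner_smul_left, inner_smul_right, Complex.conj_ofReal, m.R_mul_apply,
      mul_apply_eq_comp, Complex.ofReal_mul]
    ring
  have r1 : m.R s1 (xh m s1 s2 l) = ((1 : ℝ) : ℂ) • s1 ξ := by rw [c.R1]; simp
  have l1 : star s1 (xh m s1 s2 l) = ((1 : ℝ) : ℂ) • m.R (star s1) ξ := by rw [c.L1]; simp
  rw [inner_dec (c.sumR m), inner_dec c.sumL, inner_dec c.sumL (m.R s2 _),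
    key _ _ _ _ c.m1 c.m1 r1 l1, key _ _ _ _ c.m1 c.m2 r1 (c.L2 m l),
    key _ _ _ _ c.m2 c.m1 (c.R2 m l) l1, key _ _ _ _ c.m2 c.m2 (c.R2 m l) (c.L2 m l)]
  obtain ⟨a1, b1⟩ := m.inner_R_nonneg (mul_mem (mul_mem (star_mem c.m1) hx) c.m1)
  obtain ⟨a2, b2⟩ := m.inner_R_nonneg (mul_mem (mul_mem (star_mem c.m2) hx) c.m1)
  obtain ⟨a3, b3⟩ := m.inner_R_nonneg (mul_mem (mul_mem (star_mem c.m1) hx) c.m2)
  obtain ⟨a4, b4⟩ := m.inner_R_nonneg (mul_mem (mul_mem (star_mem c.m2) hx) c.m2)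
  simp only [Complex.add_re, Complex.add_im, Complex.re_ofReal_mul, Complex.im_ofReal_mul, b1, b2,
    b3, b4, mul_zero, add_zero, and_true]
  positivity

theorem inner_q : ⟪xh m s1 s2 l, (s2 * star s2) (xh m s1 s2 l)⟫_ℂ =
    ⟪xh m s1 s2 l, ((l ^ 2 / (1 + l ^ 2) : ℝ) : ℂ) • xh m s1 s2 l⟫_ℂ := by
  have e1 : ⟪xh m s1 s2 l, (s2 * star s2) (xh m s1 s2 l)⟫_ℂ = (l : ℂ) ^ 2 * ⟪ξ, ξ⟫_ℂ := by
    nth_rw 2 [← star_star s2]
    rw [inner_star_mul, c.L2, inner_smul_left, inner_smul_right,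
      ← inner_star_mul, ← m.R_star, star_star, ← m.R_mul, c.h22, m.R_one, one_apply_eq_self,
      Complex.conj_ofReal]
    ring
  have e2 : ⟪xh m s1 s2 l, xh m s1 s2 l⟫_ℂ = (1 + (l : ℂ) ^ 2) * ⟪ξ, ξ⟫_ℂ := by
    rw [inner_dec (c.sumR m), c.R1, c.R2, inner_smul_left, inner_smul_right, ← inner_star_mul,
      ← inner_star_mul, c.h11, c.h22, one_apply_eq_self, Complex.conj_ofReal]
    ring
  have h : (1 + (l : ℂ) ^ 2) ≠ 0 := by
    have : (0 : ℝ) < 1 + l ^ 2 := by positivity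
    exact_mod_cast this.ne'
  rw [e1, inner_smul_right, e2]
  push_cast
  field_simp

theorem R_q : m.R (s2 * star s2) (xh m s1 s2 l) = (s2 * star s2) (xh m s1 s2 l) := by
  rw [m.R_mul_apply, c.R2, mul_apply_eq_comp, c.L2, map_smul, map_smul,
    m.comm_R c.m2 (star_mem c.m2)]

end Cuntz

theorem eig (hT : TTStmt.{u}) (hN : NStmt.{u}) (hG : GamStmt.{u}) (hL : L0Stmt.{u}) :
    EigStmt.{u} := by
  intro H _ _ _ M ξ m hξ hA hFull hp l hl ε hε
  obtain ⟨s1, s2, c⟩ := exists_cuntz hA hp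
  set ζ := xh m s1 s2 l with hζ
  have hz : CycSep M ζ := c.cycSep m l hξ hl
  obtain ⟨m'⟩ := hT H M ζ hz
  have hJ : m'.J = m.J := jc H M ξ _ m m' (c.J_xh m l) fun x hx => c.pos m l hl hx
  have hR : ∀ x, m'.R x = m.R x := fun x => by rw [HMod.R, HMod.R, hJ]
  set q := s2 * star s2 with hq
  have hqM : q ∈ M := mul_mem c.m2 (star_mem c.m2)
  have n1 := norm_isom_le c.h11
  have n2 := norm_isom_le c.h22
  have n1' : ‖star s1‖ ≤ 1 := by rwa [norm_star]
  have n2' : ‖star s2‖ ≤ 1 := by rwa [norm_star]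
  have r1 : ‖m.R s1‖ ≤ 1 := by rwa [m.norm_R]
  have r2 : ‖m.R s2‖ ≤ 1 := by rwa [m.norm_R]
  have hq1 : ‖q‖ ≤ 1 := (norm_mul_le _ _).trans (mul_le_one₀ n2 (norm_nonneg _) n2')
  have hqs : star q = q := by rw [hq, star_mul, star_star]
  have hβ : ∀ t, m'.U t (q ζ) = q ζ := by
    refine m'.U_fix_of_half ?_ ?_
    · have := mem_graphS (ξ := ζ) hqM
      rwa [hqs] at this
    · rw [m'.J_apply, m'.Jξ, hqs, hR]
      exact c.R_q m l
  have hl2 : (0 : ℝ) < 1 + l ^ 2 := by positivity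
  have hK : 0 < 1 + l⁻¹ + (1 + l) * ‖ξ‖ := by positivity
  obtain ⟨γ, hγ, g1, g2, g3⟩ : ∃ γ : ℝ, 0 < γ ∧ γ ≤ ε ∧ γ * l⁻¹ ≤ ε ∧
      γ * ((1 + l) * ‖ξ‖) ≤ ε := by
    have h0 : 0 < ε / (1 + l⁻¹ + (1 + l) * ‖ξ‖) := by positivity
    have h1 := div_mul_cancel₀ ε hK.ne'
    have h2 := mul_pos h0 (inv_pos.2 hl)
    have h3 : 0 ≤ ε / (1 + l⁻¹ + (1 + l) * ‖ξ‖) * ((1 + l) * ‖ξ‖) := by positivity
    rw [mul_add, mul_add, mul_one] at h1
    exact ⟨_, h0, by linarith, by linarith, by linarith⟩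
  obtain ⟨ι, _, t, u, ht, h1, huM, hu, a1, a2, a3⟩ := avg2 m' hqM hq1 (c.inner_q m l) (by
    rw [Complex.norm_real, Real.norm_eq_abs, abs_of_nonneg (by positivity), div_le_one hl2]
    linarith) (fun δ hδ => by
      have hB : 0 < ‖q ζ‖ ^ 2 + 1 := by positivity
      obtain ⟨α, ψ, b1, b2, ⟨C, b3⟩, b4⟩ := hN H M ζ m' (q ζ) (δ ^ 2 / (‖q ζ‖ ^ 2 + 1))
        (by positivity)
      obtain ⟨c', rfl⟩ := hL H M ζ m' hz (hG H M ζ m' hz hA hFull) α C b3 (b4 hβ)
      refine ⟨c', ψ, b1, (sq_le_sq₀ (norm_nonneg _) hδ.le).1 (b2.trans ?_)⟩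
      rw [div_mul_eq_mul_div, div_le_iff₀ hB]
      nlinarith [sq_nonneg δ]) hγ
  simp only [hR] at a1
  have nw : ∀ i, ‖star s2 * u i * s1‖ ≤ 1 := fun i =>
    (star s2 * u i * s1).opNorm_le_bound zero_le_one fun η => by
      simp only [mul_apply_eq_comp, one_mul]
      refine (norm_app_le n2' _).trans ?_
      rw [norm_unitE (hu i)]
      exact norm_app_le n1 _
  refine ⟨ι, inferInstance, t, fun i => star s2 * u i * s1, ht, h1,
    fun i => mul_mem (mul_mem (star_mem c.m2) (huM i)) c.m1, nw, ?_, ?_, ?_⟩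
  · refine le_trans (Finset.sum_le_sum (g := fun i =>
      t i * ‖u i ζ - m.R (u i) ζ‖ * ((1 + l) * ‖ξ‖)) fun i _ => ?_) ?_
    · have e : (star s2 * u i * s1) ξ - (l : ℂ) • m.R (star s2 * u i * s1) ξ =
          star s2 (m.R s1 (u i ζ - m.R (u i) ζ)) := by
        rw [map_sub, map_sub, ← m.comm_R (huM i) c.m1, c.R1, m.comm_R (star_mem c.m2) c.m1,
          m.comm_R (star_mem c.m2) (huM i), c.L2, map_smul, map_smul, m.R_mul_apply, m.R_mul_apply]
        rfl
      have b1 : ‖(star s2 * u i * s1) ξ - (l : ℂ) • m.R (star s2 * u i * s1) ξ‖ ≤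
          ‖u i ζ - m.R (u i) ζ‖ := by
        rw [e]
        exact (norm_app_le n2' _).trans (norm_app_le r1 _)
      have b2 : ‖(star s2 * u i * s1) ξ - (l : ℂ) • m.R (star s2 * u i * s1) ξ‖ ≤
          (1 + l) * ‖ξ‖ := by
        refine (norm_sub_le _ _).trans ?_
        rw [norm_smul, Complex.norm_real, Real.norm_eq_abs, abs_of_pos hl, add_mul, one_mul]
        exact add_le_add (norm_app_le (nw i) _) (mul_le_mul_of_nonneg_left
          (norm_app_le (by rw [m.norm_R]; exact nw i) _) hl.le)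
      rw [sq, mul_assoc]
      exact mul_le_mul_of_nonneg_left (mul_le_mul b1 b2 (norm_nonneg _) (norm_nonneg _)) (ht i)
    · rw [← Finset.sum_mul]
      exact (mul_le_mul_of_nonneg_right a1 (by positivity)).trans g3
  · set B := ∑ i, (t i : ℂ) • (star (u i) * q * u i) with hB
    have hBM : B ∈ M := sum_mem fun i _ =>
      M.toStarSubalgebra.smul_mem (mul_mem (mul_mem (star_mem (huM i)) hqM) (huM i)) _
    have e1 : ∑ i, (t i : ℂ) • (star (star s2 * u i * s1) * (star s2 * u i * s1)) =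
        star s1 * B * s1 := by
      rw [hB, Finset.mul_sum, Finset.sum_mul]
      refine Finset.sum_congr rfl fun i _ => ?_
      simp only [hq, star_mul, star_star, mul_smul_comm, smul_mul_assoc, mul_assoc]
    have e2 : (star s1 * B * s1) ξ - ((l ^ 2 / (1 + l ^ 2) : ℝ) : ℂ) • ξ =
        star s1 (m.R s1 (B ζ - ((l ^ 2 / (1 + l ^ 2) : ℝ) : ℂ) • ζ)) := by
      rw [map_sub, map_sub, map_smul, map_smul, ← m.comm_R hBM c.m1, c.R1,
        ← mul_apply_eq_comp (star s1) s1, c.h11]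
      rfl
    rw [e1, e2]
    exact (norm_app_le n1' _).trans ((norm_app_le r1 _).trans (a3.trans g1))
  · set B := ∑ i, (t i : ℂ) • (u i * q * star (u i)) with hB
    have hBM : B ∈ M := sum_mem fun i _ =>
      M.toStarSubalgebra.smul_mem (mul_mem (mul_mem (huM i) hqM) (star_mem (huM i))) _
    have e1 : ∑ i, (t i : ℂ) • (star s2 * u i * s1 * star (star s2 * u i * s1)) =
        1 - star s2 * B * s2 := by
      have e0 : ∀ i, star s2 * u i * s1 * star (star s2 * u i * s1) =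
          1 - star s2 * (u i * q * star (u i)) * s2 := fun i => by
        have e3 : s1 * star s1 = 1 - q := eq_sub_of_add_eq c.sum
        calc star s2 * u i * s1 * star (star s2 * u i * s1)
            = star s2 * u i * (s1 * star s1) * star (u i) * s2 := by
              simp only [star_mul, star_star, mul_assoc]
          _ = star s2 * (u i * star (u i)) * s2 - star s2 * (u i * q * star (u i)) * s2 := by
              rw [e3]
              noncomm_ring
          _ = _ := by rw [(hu i).2, mul_one, c.h22]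
      simp only [e0, smul_sub, Finset.sum_sub_distrib]
      rw [← Finset.sum_smul, ← Complex.ofReal_sum, h1, Complex.ofReal_one, one_smul, hB,
        Finset.mul_sum, Finset.sum_mul]
      simp only [mul_smul_comm, smul_mul_assoc]
    have e2 : (l : ℂ) • ((1 - star s2 * B * s2) ξ - ((1 / (1 + l ^ 2) : ℝ) : ℂ) • ξ) =
        -star s2 (m.R s2 (B ζ - ((l ^ 2 / (1 + l ^ 2) : ℝ) : ℂ) • ζ)) := by
      have e3 : ((1 / (1 + l ^ 2) : ℝ) : ℂ) = 1 - ((l ^ 2 / (1 + l ^ 2) : ℝ) : ℂ) := by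
        rw [← Complex.ofReal_one, ← Complex.ofReal_sub]
        congr 1
        field_simp
        ring
      have e4 : star s2 (s2 ξ) = ξ := by rw [← mul_apply_eq_comp, c.h22, one_apply_eq_self]
      rw [map_sub, map_sub, map_smul, map_smul, ← m.comm_R hBM c.m2, c.R2, e3]
      simp only [map_smul, e4, ContinuousLinearMap.sub_apply, one_apply_eq_self, mul_apply_eq_comp]
      module
    have b := congrArg norm e2
    rw [norm_smul, norm_neg, Complex.norm_real, Real.norm_eq_abs, abs_of_pos hl] at b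
    have b2 := (norm_app_le n2' _).trans ((norm_app_le r2 _).trans a2)
    rw [e1]
    refine le_trans ?_ g2
    rw [← div_eq_mul_inv, le_div_iff₀ hl, mul_comm, b]
    exact b2

end Vale.Agent.P132
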