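import Vale.Agent.P132.Basic
import Vale.Agent.P104.Zorn

/-! Assembly of the bicentralizer theorem from the work packages. -/

namespace Vale.Agent.P132

open scoped InnerProductSpace BoundedContinuousFunction ComplexConjugate
open Filter Topology MeasureTheory Vale.Agent.P104

universe u

variable {H : Type u} [NormedAddCommGroup H] [InnerProductSpace ℂ H] [CompleteSpace H]
variable {M : VonNeumannAlgebra H} {ξ : H}

theorem norm_unit0 {u : H →L[ℂ] H} (hu : u ∈ unitary (H →L[ℂ] H)) (η : H) : ‖u η‖ = ‖η‖ :=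
  Unitary.norm_map ⟨u, hu⟩ η

theorem R_unit {Γ : Set (H × H)} (m : HMod Γ) {u : H →L[ℂ] H} (hu : u ∈ unitary (H →L[ℂ] H)) :
    m.R u ∈ unitary (H →L[ℂ] H) :=
  ⟨by rw [← m.R_star, ← m.R_mul, hu.2, m.R_one], by rw [← m.R_star, ← m.R_mul, hu.1, m.R_one]⟩

theorem orb_sub (m : Mod M ξ) {u : H →L[ℂ] H} (hu : u ∈ unitary (H →L[ℂ] H)) :
    ‖star u ξ - m.R (star u) ξ‖ = ‖u (m.R (star u) ξ) - ξ‖ := by
  rw [← norm_unit0 hu, map_sub, ← mul_apply_eq_comp, hu.2, one_apply_eq_self, norm_sub_rev]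

theorem state_comm (m : Mod M ξ) {w y : H →L[ℂ] H} (hw : w ∈ M) (hy : y ∈ M) :
    ‖⟪ξ, (y * w) ξ⟫_ℂ - ⟪ξ, (w * y) ξ⟫_ℂ‖ ≤ 2 * ‖ξ‖ * ‖w ξ - m.R w ξ‖ * ‖y‖ := by
  have e : ⟪ξ, (y * w) ξ⟫_ℂ - ⟪ξ, (w * y) ξ⟫_ℂ =
      ⟪ξ, y (w ξ - m.R w ξ)⟫_ℂ - ⟪star w ξ - m.R (star w) ξ, y ξ⟫_ℂ := by
    rw [map_sub, inner_sub_right, inner_sub_left, m.R_star, inner_star_left, inner_star_left,
      m.comm_R hy hw, mul_apply_eq_comp, mul_apply_eq_comp]
    ring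
  rw [e]
  have h1 := (norm_inner_le_norm (𝕜 := ℂ) ξ (y (w ξ - m.R w ξ))).trans
    (mul_le_mul_of_nonneg_left (y.le_opNorm _) (norm_nonneg _))
  have h2 := (norm_inner_le_norm (𝕜 := ℂ) (star w ξ - m.R (star w) ξ) (y ξ)).trans
    (mul_le_mul_of_nonneg_left (y.le_opNorm _) (norm_nonneg _))
  rw [m.norm_comm_star] at h2
  refine (norm_sub_le _ _).trans ?_
  linarith

theorem unif (m : Mod M ξ) {a : H →L[ℂ] H} (ha : a ∈ bicentralizer M ξ) (ε : ℝ) (hε : 0 < ε) :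
    ∃ δ > 0, ∀ p ∈ orb m (a ξ), ‖p.2 - ξ‖ ≤ δ → ‖p.1 - a ξ‖ ≤ ε := by
  by_contra hc
  push Not at hc
  choose p hp h1 h2 using fun n : ℕ => hc (1 / ((n : ℝ) + 1)) Nat.one_div_pos_of_nat
  choose u hM hu hpu using hp
  have hd : ∀ n, ‖star (u n) ξ - m.R (star (u n)) ξ‖ ≤ 1 / ((n : ℝ) + 1) := fun n => by
    rw [orb_sub m (hu n)]
    simpa only [hpu n] using h1 n
  have h0 : Tendsto (fun n : ℕ => 1 / ((n : ℝ) + 1)) atTop (𝓝 0) :=
    tendsto_one_div_add_atTop_nhds_zero_nat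
  have hw : AsympCentral M ξ fun n => star (u n) := by
    refine ⟨fun n => star_mem (hM n), ⟨1, fun n => ?_⟩, fun e he => ?_⟩
    · refine ContinuousLinearMap.opNorm_le_bound _ zero_le_one fun η => ?_
      rw [norm_unit0 (Unitary.star_mem (hu n)), one_mul]
    · have := (h0.const_mul (2 * ‖ξ‖)).eventually (gt_mem_nhds (a := e) (by simpa using he))
      filter_upwards [this] with n hn y hy
      refine (state_comm m (star_mem (hM n)) hy).trans (mul_le_mul_of_nonneg_right ?_ (norm_nonneg _))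
      exact (mul_le_mul_of_nonneg_left (hd n) (by positivity)).trans hn.le
  have h3 := ((ha.2 _ hw ξ).norm).add (h0.const_mul ‖a‖)
  simp only [norm_zero, mul_zero, add_zero] at h3
  obtain ⟨n, hn⟩ := (h3.eventually (gt_mem_nhds hε)).exists
  refine absurd (h2 n) (not_lt.2 (le_trans ?_ hn.le))
  have e : (p n).1 - a ξ = u n ((a * star (u n) - star (u n) * a) ξ) -
      u n (a (star (u n) ξ - m.R (star (u n)) ξ)) := by
    simp only [hpu n, sub_apply, map_sub, mul_apply_eq_comp]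
    rw [m.comm_R ha.1 (star_mem (hM n)), ← mul_apply_eq_comp (u n) (star (u n)), (hu n).2,
      one_apply_eq_self]
    abel
  rw [e]
  refine (norm_sub_le _ _).trans ?_
  rw [norm_unit0 (hu n), norm_unit0 (hu n)]
  exact add_le_add_right ((a.le_opNorm _).trans
    (mul_le_mul_of_nonneg_left (hd n) (norm_nonneg _))) _

theorem hull_bound (m : Mod M ξ) {β : H} {ε δ : ℝ} (hε : 0 < ε) (hδ : 0 < δ)
    (h : ∀ p ∈ orb m β, ‖p.2 - ξ‖ ≤ δ → ‖p.1 - β‖ ≤ ε) :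
    ∀ p ∈ closure (convexHull ℝ (orb m β)),
      ‖p.1 - β‖ ≤ ε + 4 * ‖β‖ / δ ^ 2 * (⟪ξ, ξ - p.2⟫_ℂ).re := by
  set K := 4 * ‖β‖ / δ ^ 2 with hK
  have hK0 : 0 ≤ K := by positivity
  have hcl : IsClosed {p : H × H | ‖p.1 - β‖ ≤ ε + K * (⟪ξ, ξ - p.2⟫_ℂ).re} :=
    isClosed_le (by fun_prop) (by fun_prop)
  refine closure_minimal (convexHull_min ?_ ?_) hcl
  · rintro p hp
    obtain ⟨u, -, hu, rfl⟩ := id hp
    have n1 : ∀ η, ‖u (m.R (star u) η)‖ = ‖η‖ := fun η => by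
      rw [norm_unit0 hu, norm_unit0 (R_unit m.toHMod (Unitary.star_mem hu))]
    have e : ‖u (m.R (star u) ξ) - ξ‖ ^ 2 = 2 * (⟪ξ, ξ - u (m.R (star u) ξ)⟫_ℂ).re := by
      rw [norm_sub_rev, norm_sub_sq (𝕜 := ℂ), n1, inner_sub_right, Complex.sub_re,
        ← RCLike.re_to_complex (x := ⟪ξ, ξ⟫_ℂ), inner_self_eq_norm_sq, RCLike.re_to_complex]
      ring
    change ‖u (m.R (star u) β) - β‖ ≤ ε + K * (⟪ξ, ξ - u (m.R (star u) ξ)⟫_ℂ).re
    by_cases hd : ‖u (m.R (star u) ξ) - ξ‖ ≤ δ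
    · have := h _ hp hd
      have h0 : 0 ≤ (⟪ξ, ξ - u (m.R (star u) ξ)⟫_ℂ).re := by nlinarith [sq_nonneg ‖u (m.R (star u) ξ) - ξ‖]
      exact this.trans (le_add_of_nonneg_right (mul_nonneg hK0 h0))
    · have h1 : δ ^ 2 / 2 ≤ (⟪ξ, ξ - u (m.R (star u) ξ)⟫_ℂ).re := by
        have := pow_le_pow_left₀ hδ.le (not_le.1 hd).le 2
        linarith
      have h2 : K * (δ ^ 2 / 2) = 2 * ‖β‖ := by
        rw [hK]
        field_simp
        ring
      have h3 := norm_sub_le (u (m.R (star u) β)) β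
      rw [n1] at h3
      nlinarith [mul_le_mul_of_nonneg_left h1 hK0]
  · intro p hp q hq s t hs ht hst
    change ‖(s • p + t • q).1 - β‖ ≤ ε + K * (⟪ξ, ξ - (s • p + t • q).2⟫_ℂ).re
    have e1 : (s • p + t • q).1 - β = s • (p.1 - β) + t • (q.1 - β) := by
      simp only [Prod.fst_add, Prod.smul_fst, smul_sub]
      rw [sub_add_sub_comm, ← add_smul, hst, one_smul]
    have e2 : ξ - (s • p + t • q).2 = (s : ℂ) • (ξ - p.2) + (t : ℂ) • (ξ - q.2) := by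
      simp only [Prod.snd_add, Prod.smul_snd, smul_sub, Complex.coe_smul]
      rw [sub_add_sub_comm, ← add_smul, hst, one_smul]
    rw [e1, e2, inner_add_right, inner_smul_right, inner_smul_right, Complex.add_re,
      Complex.re_ofReal_mul, Complex.re_ofReal_mul]
    refine (norm_add_le _ _).trans ?_
    rw [norm_smul, norm_smul, Real.norm_of_nonneg hs, Real.norm_of_nonneg ht]
    have h1 := mul_le_mul_of_nonneg_left (show ‖p.1 - β‖ ≤ _ from hp) hs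
    have h2 := mul_le_mul_of_nonneg_left (show ‖q.1 - β‖ ≤ _ from hq) ht
    have h3 : ε = s * ε + t * ε := by rw [← add_mul, hst, one_mul]
    linarith

theorem final (hT : TTStmt.{u}) (hN : NStmt.{u}) (hG : GamStmt.{u}) (hL : L0Stmt.{u})
    (hE : EigStmt.{u}) (hS : StarStmt.{u}) (hC : CmpStmt.{u}) (hξ : CycSep M ξ)
    (hM : IsFactorIII1 M) : bicentralizer M ξ = {a | ∃ c : ℂ, a = c • (1 : H →L[ℂ] H)} := by
  ext a
  refine ⟨fun ha => ?_, ?_⟩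
  swap
  · rintro ⟨c, rfl⟩
    refine ⟨vn_smul_mem c (one_mem M), fun w _ η => ?_⟩
    simp
  by_cases h1 : (1 : H →L[ℂ] H) = 0
  · exact ⟨0, by rw [zero_smul, ← mul_one a, h1, mul_zero]⟩
  obtain ⟨m⟩ := hT H M ξ hξ
  have hA := hC H M ξ hξ.2 hM.1 hM.2.1
  have hF : Full M := fun ζ hζ l hl => hM.2.2 ζ hζ l hl.le
  have hp : ∃ p ∈ M, IsStarProjection p ∧ p ≠ 0 ∧ p ≠ 1 := by
    obtain ⟨v, hv, h2, -, h3⟩ := hM.2.1 1 (one_mem M) (IsStarProjection.one _) h1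
    refine ⟨v * star v, mul_mem hv (star_mem hv), ⟨?_, by simp [IsSelfAdjoint]⟩, fun h => h1 ?_, h3⟩
    · rw [IsIdempotentElem, mul_assoc, ← mul_assoc (star v), h2, one_mul]
    · rw [← mul_one 1, ← h2, mul_assoc, ← mul_assoc v, h, zero_mul, mul_zero]
  have key : ∀ e : ℝ, 0 < e → ∃ c : ℂ, ‖c • ξ - a ξ‖ ≤ e + e := fun e he => by
    obtain ⟨δ, hδ, h⟩ := unif m ha e he
    set K := 4 * ‖a ξ‖ / δ ^ 2 with hK
    have hK0 : 0 ≤ K := by positivity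
    have hB : 0 < K * ‖ξ‖ * ‖a ξ‖ + 1 := by positivity
    obtain ⟨α, ψ, hm, hψ, ⟨C, hC⟩, -⟩ := hN H M ξ m (a ξ) ((e / (K * ‖ξ‖ * ‖a ξ‖ + 1)) ^ 2)
      (by positivity)
    obtain ⟨c, rfl⟩ := hL H M ξ m hξ (hG H M ξ m hξ hA hF) α C hC
      (hS H M ξ m hξ (fun l hl => hE H M ξ m hξ hA hF hp l (by linarith)) α C hC)
    refine ⟨c, (hull_bound m he hδ h _ hm).trans (add_le_add_right ?_ _)⟩
    rw [← mul_pow] at hψ
    have h2 : ‖ψ - ξ‖ ≤ e / (K * ‖ξ‖ * ‖a ξ‖ + 1) * ‖a ξ‖ :=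
      (pow_le_pow_iff_left₀ (norm_nonneg _) (by positivity) two_ne_zero).1 hψ
    have h3 : (⟪ξ, ξ - ψ⟫_ℂ).re ≤ ‖ξ‖ * (e / (K * ‖ξ‖ * ‖a ξ‖ + 1) * ‖a ξ‖) := by
      refine (Complex.re_le_norm _).trans ((norm_inner_le_norm _ _).trans ?_)
      rw [norm_sub_rev]
      exact mul_le_mul_of_nonneg_left h2 (norm_nonneg _)
    refine (mul_le_mul_of_nonneg_left h3 hK0).trans ?_
    have : K * (‖ξ‖ * (e / (K * ‖ξ‖ * ‖a ξ‖ + 1) * ‖a ξ‖)) =
        e * (K * ‖ξ‖ * ‖a ξ‖) / (K * ‖ξ‖ * ‖a ξ‖ + 1) := by ring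
    rw [this, div_le_iff₀ hB]
    nlinarith
  have hcl : a ξ ∈ closure ((ℂ ∙ ξ : Submodule ℂ H) : Set H) := by
    refine Metric.mem_closure_iff.2 fun e he => ?_
    obtain ⟨c, hc⟩ := key (e / 3) (by positivity)
    refine ⟨c • ξ, Submodule.smul_mem _ _ (Submodule.mem_span_singleton_self ξ), ?_⟩
    rw [dist_comm, dist_eq_norm]
    linarith
  rw [(Submodule.closed_of_finiteDimensional _).closure_eq] at hcl
  obtain ⟨c, hc⟩ := Submodule.mem_span_singleton.1 hcl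
  refine ⟨c, sub_eq_zero.1 (hξ.2 _ (sub_mem ha.1 (vn_smul_mem c (one_mem M))) ?_)⟩
  simp [hc]

end Vale.Agent.P132
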