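import Vale.Agent.P132.Tools

/-! Full spectrum in the corners of the centralizer. -/

namespace Vale.Agent.P132

open scoped InnerProductSpace BoundedContinuousFunction ComplexConjugate
open Filter Topology MeasureTheory Vale.Agent.P104

universe u

variable {H : Type u} [NormedAddCommGroup H] [InnerProductSpace ℂ H] [CompleteSpace H]
variable {M : VonNeumannAlgebra H} {ξ : H}

theorem graphS_map {ζ : H} (W : H →L[ℂ] H)
    (h : ∀ x ∈ M, ∃ z ∈ M, W (x ξ) = z ζ ∧ W (star x ξ) = star z ζ) {p : H × H}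
    (hp : p ∈ graphS M ξ) : (W p.1, W p.2) ∈ graphS M ζ := by
  refine map_mem_closure (f := fun p : H × H => (W p.1, W p.2)) (by fun_prop) hp ?_
  rintro _ ⟨x, hx, rfl⟩
  obtain ⟨z, hz, h1, h2⟩ := h x hx
  exact ⟨z, hz, Prod.ext h1 h2⟩

theorem graphS_sub {p q : H × H} (hp : p ∈ graphS M ξ) (hq : q ∈ graphS M ξ) :
    p - q ∈ graphS M ξ := by
  refine map_mem_closure₂ continuous_sub hp hq ?_
  rintro _ ⟨x, hx, rfl⟩ _ ⟨y, hy, rfl⟩
  exact ⟨x - y, sub_mem hx hy, by simp⟩

theorem exists_res (c : ℝ) {r : ℝ} (hr : 0 < r) : ∃ g₀ g₁ : ℝ →ᵇ ℂ,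
    (∀ s, g₁ s = g₀ s * (Real.exp (s / 2) : ℝ)) ∧ (∀ s, conj (g₀ s) = g₀ s) ∧
    ∀ s, g₀ s * ((Real.exp s : ℝ) - (Real.exp c : ℝ)) = 1 - bump c r s := by
  set a := Real.exp c * (1 - Real.exp (-r)) with ha
  have ha0 : 0 < a := mul_pos (Real.exp_pos _) (sub_pos.2 (Real.exp_lt_one_iff.2 (by linarith)))
  have hlow : ∀ s, r ≤ |s - c| → a ≤ |Real.exp s - Real.exp c| := fun s hs => by
    have e1 : Real.exp (c - r) = Real.exp c * Real.exp (-r) := by rw [← Real.exp_add]; rfl
    have e2 := Real.exp_pos c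
    rcases le_abs'.1 hs with h | h
    · have := Real.exp_le_exp.2 (show s ≤ c - r by linarith)
      exact le_abs'.2 (Or.inl (by nlinarith))
    · have h1 := Real.exp_le_exp.2 (show c + r ≤ s by linarith)
      have h2 := Real.add_one_le_exp r
      have h3 := Real.add_one_le_exp (-r)
      rw [Real.exp_add] at h1
      exact le_abs.2 (Or.inl (by nlinarith))
  let b : ℝ → ℝ := fun s => max 0 (min 1 (2 - |s - c| / r))
  let g : ℝ → ℝ := fun s => (1 - b s) * (Real.exp s - Real.exp c) /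
    max ((Real.exp s - Real.exp c) ^ 2) (a ^ 2)
  have h0 : ∀ s, 0 < max ((Real.exp s - Real.exp c) ^ 2) (a ^ 2) := fun s =>
    lt_max_of_lt_right (by positivity)
  have hb : ∀ s, |1 - b s| ≤ 1 := fun s => abs_le.2
    ⟨by linarith [max_le zero_le_one (min_le_left 1 (2 - |s - c| / r))],
      by linarith [le_max_left 0 (min 1 (2 - |s - c| / r))]⟩
  have hgc : Continuous g := Continuous.div (by fun_prop) (by fun_prop) fun s => (h0 s).ne'
  have hg : ∀ s, g s * (Real.exp s - Real.exp c) = 1 - b s := fun s => by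
    by_cases hs : r ≤ |s - c|
    · have h1 := hlow s hs
      have h2 : Real.exp s - Real.exp c ≠ 0 := abs_pos.1 (ha0.trans_le h1)
      simp only [g]
      rw [max_eq_left (by rw [← sq_abs (Real.exp s - _)]; exact pow_le_pow_left₀ ha0.le h1 2)]
      field_simp
    · have : b s = 1 := Complex.ofReal_injective (bump_one hr (not_le.1 hs).le)
      simp [g, this]
  have hg1 : ∀ s, |g s| ≤ 1 / a := fun s => by
    by_cases hs : r ≤ |s - c|
    · have h1 := hlow s hs
      have h2 := hb s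
      rw [← hg s, abs_mul] at h2
      rw [le_div_iff₀ ha0]
      exact (mul_le_mul_of_nonneg_left h1 (abs_nonneg _)).trans h2
    · have : b s = 1 := Complex.ofReal_injective (bump_one hr (not_le.1 hs).le)
      simp [g, this, ha0.le]
  refine ⟨BoundedContinuousFunction.ofNormedAddCommGroup (fun s => (g s : ℂ)) (by fun_prop) (1 / a)
    fun s => by rw [Complex.norm_real]; exact hg1 s,
    BoundedContinuousFunction.ofNormedAddCommGroup (fun s => (g s : ℂ) * (Real.exp (s / 2) : ℝ))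
      (by fun_prop) (1 / a + (1 + 1 / a * Real.exp c)) fun s => ?_, fun s => rfl,
    fun s => Complex.conj_ofReal _, fun s => ?_⟩
  · rw [norm_mul, Complex.norm_real, Complex.norm_real, Real.norm_eq_abs, Real.norm_eq_abs,
      abs_of_pos (Real.exp_pos _)]
    have h1 : Real.exp (s / 2) ≤ 1 + Real.exp s := by
      have : Real.exp s = Real.exp (s / 2) ^ 2 := by rw [← Real.exp_nat_mul]; congr 1; ring
      nlinarith [Real.exp_pos (s / 2)]
    have h2 : |g s| * Real.exp s ≤ 1 + 1 / a * Real.exp c := by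
      have e : g s * Real.exp s = (1 - b s) + g s * Real.exp c := by rw [← hg s]; ring
      rw [← abs_of_pos (Real.exp_pos s), ← abs_mul, e]
      refine (abs_add_le _ _).trans (add_le_add (hb s) ?_)
      rw [abs_mul, abs_of_pos (Real.exp_pos c)]
      exact mul_le_mul_of_nonneg_right (hg1 s) (Real.exp_pos c).le
    nlinarith [hg1 s, abs_nonneg (g s), mul_le_mul_of_nonneg_left h1 (abs_nonneg (g s))]
  · change (g s : ℂ) * _ = 1 - (b s : ℂ)
    exact_mod_cast hg s

/-- A spectral gap on a corner gives a point outside the spectrum. -/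
theorem not_spec (m : Mod M ξ) {ζ : H} {W : H →L[ℂ] H} (hW : ∀ η, star W (W η) = η)
    (h1 : ∀ p ∈ graphS M ζ, (W p.1, W p.2) ∈ graphS M ξ)
    (h2 : ∀ p ∈ graphS M ξ, (star W p.1, star W p.2) ∈ graphS M ζ) {c r : ℝ} (hr : 0 < r)
    (hb : ∀ η, m.Φ (bump c r) (W η) = 0) : Real.exp c ∉ modSpec M ζ := by
  obtain ⟨g₀, g₁, e1, e2, e3⟩ := exists_res c hr
  have ee : ∀ s : ℝ, ((Real.exp (s / 2) : ℝ) : ℂ) * (Real.exp (s / 2) : ℝ) = (Real.exp s : ℝ) :=
    fun s => by rw [← Complex.ofReal_mul, ← Real.exp_add, add_halves]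
  have s0 : star g₀ = g₀ := by
    ext s
    exact e2 s
  have s1 : star g₁ = g₁ := by
    ext s
    change conj (g₁ s) = _
    rw [e1, map_mul, e2, Complex.conj_ofReal]
  have sb : star (bump c r) = bump c r := by
    ext s
    exact Complex.conj_ofReal _
  have e4 : ∀ s, (1 - bump c r + ((Real.exp c : ℝ) : ℂ) • g₀) s = g₁ s * (Real.exp (s / 2) : ℝ) :=
    fun s => by
    change 1 - bump c r s + ((Real.exp c : ℝ) : ℂ) * g₀ s = _
    rw [e1, mul_assoc, ee, ← e3]
    ring
  rw [modSpec, Set.mem_ofPred_eq, not_not]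
  refine fun θ => existsUnique_of_exists_of_unique ⟨star W (m.Φ g₀ (W θ)), ?_⟩ ?_
  · have t0 := h2 _ (m.core g₀ g₁ e1 (W θ))
    refine ⟨star W (m.J (m.Φ g₁ (W θ))), t0, fun q hq => ?_⟩
    have sG : star (1 - bump c r + ((Real.exp c : ℝ) : ℂ) • g₀) =
        1 - bump c r + ((Real.exp c : ℝ) : ℂ) • g₀ := by
      rw [star_add, star_sub, star_one, sb, star_smul, s0, RCLike.star_def, Complex.conj_ofReal]
    have t1 : ⟪m.J (W q.2), m.Φ g₁ (W θ)⟫_ℂ = ⟪m.Φ g₁ (m.J (W q.2)), W θ⟫_ℂ := by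
      rw [m.inner_Φ, s1]
    have t2 := m.graph _ (h1 q hq) g₁ _ e4
    have t3 : m.Φ (1 - bump c r + ((Real.exp c : ℝ) : ℂ) • g₀) (W θ) =
        W θ + ((Real.exp c : ℝ) : ℂ) • m.Φ g₀ (W θ) := by
      rw [map_add, map_sub, map_one, map_smul, add_apply, sub_apply, hb, sub_zero]
      rfl
    change ⟪q.1, θ + ((Real.exp c : ℝ) : ℂ) • star W (m.Φ g₀ (W θ))⟫_ℂ = _
    rw [inner_star_left, m.inner_J_left, t1]
    change _ = ⟪m.Φ g₁ (m.J (W q.1, W q.2).2), W θ⟫_ℂ
    rw [t2, m.inner_Φ, sG, t3, ← inner_star_right, map_add, map_smul, hW]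
  · rintro η₁ η₂ ⟨κ₁, a1, b1⟩ ⟨κ₂, a2, b2⟩
    have a3 := h1 _ (graphS_sub a1 a2)
    have b3 : ∀ q ∈ graphS M ζ, ((Real.exp c : ℝ) : ℂ) * ⟪q.1, η₁ - η₂⟫_ℂ = ⟪κ₁ - κ₂, q.2⟫_ℂ :=
      fun q hq => by
      have c1 := b1 q hq
      have c2 := b2 q hq
      simp only [inner_add_right, inner_smul_right] at c1 c2
      rw [inner_sub_left, inner_sub_right, ← c1, ← c2]
      ring
    rw [← sub_eq_zero, ← hW (η₁ - η₂)]
    suffices h0 : W (η₁ - η₂) = 0 by rw [h0, map_zero]
    refine m.eq_zero_of_cut fun n => ?_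
    obtain ⟨c₂, -, hc₂⟩ := exists_bmul (f := chi n * g₀) (chi_supp0 n).mul_right
      (g := fun s => ((Real.exp s : ℝ) : ℂ)) (by fun_prop)
    have sc : star (chi n) = chi n := by
      ext s
      exact Complex.conj_ofReal _
    have e5 : ∀ s, (chi n * g₁) s = (chi n * g₀) s * (Real.exp (s / 2) : ℝ) := fun s => by
      simp only [BoundedContinuousFunction.mul_apply, e1, mul_assoc]
    have e6 : ∀ s, c₂ s = (chi n * g₁) s * (Real.exp (s / 2) : ℝ) := fun s => by
      rw [hc₂, e5, mul_assoc, ee]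
    have e7 : m.Φ c₂ (W (η₁ - η₂)) =
        ((Real.exp c : ℝ) : ℂ) • m.Φ (chi n * g₀) (W (η₁ - η₂)) := by
      refine ext_inner_left ℂ fun ω => ?_
      have := b3 _ (h2 _ (m.core _ _ e5 ω))
      rw [inner_star_left, inner_star_right, m.inner_J_right, m.inner_Φ, m.inner_Φ, star_mul,
        star_mul, s0, s1, sc, mul_comm g₀, mul_comm g₁] at this
      rw [inner_smul_right, this]
      exact congrArg _ (m.graph _ a3 _ _ e6).symm
    have e8 : chi n = c₂ - ((Real.exp c : ℝ) : ℂ) • (chi n * g₀) + chi n * bump c r := by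
      ext s
      change chi n s = c₂ s - ((Real.exp c : ℝ) : ℂ) * (chi n s * g₀ s) + chi n s * bump c r s
      rw [hc₂, BoundedContinuousFunction.mul_apply]
      linear_combination (-chi n s) * e3 s
    rw [e8, map_add, map_sub, map_smul, add_apply, sub_apply, smul_apply, e7,
      sub_self, zero_add, m.Φ_mul_apply, hb, map_zero]

/-- Every corner of the centralizer has full spectrum. -/
theorem corner_spec (hF : FiltStmt.{u}) (m : Mod M ξ) (hξ : CycSep M ξ) (hA : AllEq M)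
    (hS : Full M) {e : H →L[ℂ] H} (he : e ∈ M) (hp : IsStarProjection e) (h0 : e ≠ 0)
    (hU : ∀ t, m.U t * e = e * m.U t) {f : ℝ →ᵇ ℂ} {c r : ℝ} (hr : 0 < r)
    (hf : ∀ s, |s - c| ≤ r → 1 / 2 ≤ ‖f s‖) : ∃ z ∈ M, e * z = z ∧ z * e = z ∧ m.Φ f (z ξ) ≠ 0 := by
  by_contra hc
  push Not at hc
  obtain ⟨v, hv, v1, v2⟩ := hA e he hp h0
  have hv' := star_mem hv
  have ev : e * v = v := by rw [← v2, mul_assoc, v1, mul_one]
  have Re : m.R e ξ = e ξ := m.R_eq hF he fun t => by
    rw [← mul_apply_eq_comp, hU, mul_apply_eq_comp, m.U_ξ]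
  let W := v * m.R (star v)
  have sW : star W = star v * m.R v := by
    rw [star_mul, ← m.R_star, star_star, commute_of_mem hv' (m.R_mem hv)]
  have W1 : ∀ η, W η = v (m.R (star v) η) := fun _ => rfl
  have W2 : ∀ η, star W η = star v (m.R v η) := fun η => by rw [sW]; rfl
  have hW : ∀ η, star W (W η) = η := fun η => by
    rw [W2, W1, ← m.comm_R hv hv, ← mul_apply_eq_comp, v1, one_apply_eq_self, ← m.R_mul_apply, v1,
      m.R_one, one_apply_eq_self]
  have A1 : ∀ y ∈ M, W (y (star W ξ)) = (v * y * star v) ξ := fun y hy => by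
    rw [W1, W2, ← m.comm_R hy hv', ← m.comm_R hv' hv', ← m.R_mul_apply, v2, Re,
      ← mul_apply_eq_comp (star v) e, ← hp.isSelfAdjoint.star_eq, ← star_mul, ev]
    rfl
  have A2 : ∀ z ∈ M, star W (z ξ) = (star v * z * v) (star W ξ) := fun z hz => by
    rw [W2, W2, mul_apply_eq_comp, mul_apply_eq_comp, ← mul_apply_eq_comp v, v2,
      m.comm_R he hv, ← Re, ← m.R_mul_apply, ev, m.comm_R hz hv]
  have hζ : CycSep M (star W ξ) := by
    refine ⟨?_, fun y hy h => ?_⟩
    · have hd : DenseRange (star W : H →L[ℂ] H) := Function.Surjective.denseRange fun η => ⟨W η, hW η⟩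
      refine (hd.dense_image (star W).continuous hξ.1).mono ?_
      rintro _ ⟨_, ⟨z, hz, rfl⟩, rfl⟩
      exact ⟨_, mul_mem (mul_mem hv' hz) hv, (A2 z hz).symm⟩
    · have := hξ.2 _ (mul_mem (mul_mem hv hy) hv') (by rw [← A1 y hy, h, map_zero])
      have e1 : y = star v * (v * y * star v) * v := by
        simp only [← mul_assoc, v1, one_mul]
        rw [mul_assoc, v1, mul_one]
      rw [e1, this, mul_zero, zero_mul]
  refine not_spec m hW (fun p hp => graphS_map W (fun y hy => ?_) hp)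
    (fun p hp => graphS_map (star W) (fun z hz => ?_) hp) (c := c) (half_pos hr) (fun η => ?_)
    (hS _ hζ _ (Real.exp_pos c))
  · refine ⟨_, mul_mem (mul_mem hv hy) hv', A1 y hy, ?_⟩
    rw [A1 _ (star_mem hy)]
    simp only [star_mul, star_star, mul_assoc]
  · refine ⟨_, mul_mem (mul_mem hv' hz) hv, A2 z hz, ?_⟩
    rw [A2 _ (star_mem hz)]
    simp only [star_mul, star_star, mul_assoc]
  · obtain ⟨g, hg⟩ := exists_div (bump c (r / 2)) f one_half_pos fun s hs => hf s
      (le_of_not_ge fun h => hs (bump_zero (half_pos hr) (by linarith)))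
    rw [← hg, m.Φ_mul_apply]
    suffices h : m.Φ f (W η) = 0 by rw [h, map_zero]
    refine closure_minimal (t := {η | m.Φ f (W η) = 0}) ?_
      (isClosed_eq (by fun_prop) continuous_const) (hζ.1 η)
    rintro _ ⟨y, hy, rfl⟩
    change m.Φ f (W (y (star W ξ))) = 0
    rw [A1 y hy]
    exact hc _ (mul_mem (mul_mem hv hy) hv') (by simp only [← mul_assoc, ev])
      (by rw [mul_assoc, ← v2, ← mul_assoc (star v), v1, one_mul])

theorem comm_proj (K : Submodule ℂ H) [K.HasOrthogonalProjection] {T : H →L[ℂ] H}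
    (h : ∀ η ∈ K, T η ∈ K) (h' : ∀ η ∈ K, star T η ∈ K) :
    T * K.starProjection = K.starProjection * T := by
  have hc : ∀ S : H →L[ℂ] H, (∀ η ∈ K, S η ∈ K) →
      K.starProjection * (S * K.starProjection) = S * K.starProjection := fun S hS => by
    ext η
    exact Submodule.starProjection_eq_self_iff.2 (hS _ (K.starProjection_apply_mem η))
  have h2 := congrArg star (hc _ h')
  simp only [star_mul, star_star, (isSelfAdjoint_starProjection K).star_eq] at h2
  rw [← hc T h, ← mul_assoc, h2]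

/-- The invariant right support. -/
theorem exists_supp (m : Mod M ξ) {x : H →L[ℂ] H} (hx : x ∈ M) :
    ∃ e ∈ M, IsStarProjection e ∧ (∀ t, m.U t * e = e * m.U t) ∧ x * e = x ∧
      ∀ y : H →L[ℂ] H, (∀ t, x * m.U t * y = 0) → e * y = 0 := by
  let S : Set H := {η | ∃ t ω, η = m.U t (star x ω)}
  let K := (Submodule.span ℂ S).topologicalClosure
  have hS : ∀ t ω, m.U t (star x ω) ∈ K := fun t ω =>
    Submodule.le_topologicalClosure _ (Submodule.subset_span ⟨t, ω, rfl⟩)
  have hK : ∀ (T : H →L[ℂ] H) (L : Submodule ℂ H), IsClosed (L : Set H) →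
      (∀ t ω, T (m.U t (star x ω)) ∈ L) → ∀ η ∈ K, T η ∈ L := fun T L hL h η hη => by
    have : K ≤ L.comap (T : H →ₗ[ℂ] H) := Submodule.topologicalClosure_minimal _
      (Submodule.span_le.2 (by rintro _ ⟨t, ω, rfl⟩; exact h t ω)) (hL.preimage T.continuous)
    exact this hη
  have hKc : IsClosed (K : Set H) := Submodule.isClosed_topologicalClosure _
  have h1 : ∀ y ∈ M.commutant, ∀ η ∈ K, y η ∈ K := fun y hy => hK y K hKc fun t ω => by
    have := congrArg (fun T : H →L[ℂ] H => T (m.U t ω))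
      (commute_of_mem (m.σ_mem t (star_mem hx)) hy)
    simp only [mul_apply_eq_comp, m.U_neg_U] at this
    rw [← this]
    exact hS _ _
  have h2 : ∀ r, ∀ η ∈ K, m.U r η ∈ K := fun r => hK _ K hKc fun t ω => by
    rw [← mul_apply_eq_comp, ← m.U_add]
    exact hS _ _
  have hP := isStarProjection_starProjection (U := K)
  refine ⟨K.starProjection, mem_of_commute fun y hy => comm_proj K (h1 y hy) (h1 _ (star_mem hy)),
    hP, fun t => comm_proj K (h2 t) (by rw [m.star_U]; exact h2 _), ?_, fun y hy => ?_⟩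
  · rw [← star_inj, star_mul, hP.isSelfAdjoint.star_eq]
    ext ω
    refine Submodule.starProjection_eq_self_iff.2 ?_
    have := hS 0 ω
    rw [m.U_zero] at this
    exact this
  · rw [← star_inj, star_mul, hP.isSelfAdjoint.star_eq, star_zero]
    ext ω
    refine hK (star y) ⊥ (by simp) (fun t ω => ?_) _ (K.starProjection_apply_mem ω)
    have := congrArg (fun T : H →L[ℂ] H => star T ω) (hy (-t))
    simp only [star_mul, m.star_U, neg_neg, mul_apply_eq_comp, star_zero] at this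
    exact this

theorem gam (hB : BIStmt.{u}) (hF : FiltStmt.{u}) : GamStmt.{u} := by
  intro H _ _ _ M ξ m hξ hA hS e he f hf pe pf e0 f0 Ue Uf η hη
  obtain ⟨A, B, ρ, hρ, hk⟩ := kern hF
  obtain ⟨δ, hδ, hd⟩ := Metric.continuousAt_iff.1
    (show ContinuousAt (fun s : ℝ => Real.exp (s / 2)) 0 by fun_prop) η hη
  have hκ : 0 < δ / 5 := by positivity
  have filt := fun k x hk => (hF.1 H _ m.toHMod).2.2 k x hk
  have fξ : ∀ {k : ℝ → ℂ} {g : ℝ →ᵇ ℂ} {x y : H →L[ℂ] H}, Integrable k →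
      (∀ s, g s = ∫ t, k t * ex t s) → (∀ η, y η = ∫ t, k t • m.U t (x (m.U (-t) η))) →
      y ξ = m.Φ g (x ξ) := fun h1 h2 h3 => by
    rw [h3, ← (hF.1 H _ m.toHMod).2.1 _ _ h1 h2]
    simp only [m.U_ξ]
  have fl : ∀ {k : ℝ → ℂ} {p x y : H →L[ℂ] H}, Integrable k → (∀ t, m.U t * p = p * m.U t) →
      p * x = x → (∀ η, y η = ∫ t, k t • m.U t (x (m.U (-t) η))) → p * y = y :=
    fun {k p x y} h1 h2 h3 h4 => by
    ext ω
    rw [mul_apply_eq_comp, h4, ← ContinuousLinearMap.integral_comp_comm _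
      (m.integrable_filt hF h1 x _)]
    refine integral_congr_ae (Eventually.of_forall fun t => ?_)
    simp only [map_smul]
    rw [← mul_apply_eq_comp p, ← h2, mul_apply_eq_comp, ← mul_apply_eq_comp p, h3]
  have fr : ∀ {k : ℝ → ℂ} {p x y : H →L[ℂ] H}, (∀ t, m.U t * p = p * m.U t) →
      x * p = x → (∀ η, y η = ∫ t, k t • m.U t (x (m.U (-t) η))) → y * p = y :=
    fun {k p x y} h2 h3 h4 => by
    ext ω
    rw [mul_apply_eq_comp, h4, h4]
    refine integral_congr_ae (Eventually.of_forall fun t => ?_)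
    simp only
    rw [← mul_apply_eq_comp (m.U (-t)), h2, mul_apply_eq_comp p, ← mul_apply_eq_comp _ p, h3]
  obtain ⟨v, hv, v1, v2⟩ := hA e he pe e0
  obtain ⟨w, hw, w1, w2⟩ := hA f hf pf f0
  have x0M : w * star v ∈ M := mul_mem hw (star_mem hv)
  have x00 : (w * star v) ξ ≠ 0 := fun h => e0 (by
    have := hξ.2 _ x0M h
    rw [← v2, ← one_mul (star v), ← w1, mul_assoc, this, mul_zero, mul_zero])
  have : ∃ c, ∃ (k : ℝ → ℂ) (g : ℝ →ᵇ ℂ), Integrable k ∧ (∀ s, g s = ∫ t, k t * ex t s) ∧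
      (∀ s, δ / 5 ≤ |s - c| → g s = 0) ∧ m.Φ g ((w * star v) ξ) ≠ 0 := by
    by_contra hc
    push Not at hc
    refine x00 (m.eq_zero_of_cover fun c => ?_)
    obtain ⟨k, g, h1, -, -, h2, h3, h4⟩ := hk _ hκ c
    refine ⟨g, hc c k g h1 h2 h3, fun h => ?_⟩
    have := h4 c (by rw [sub_self, abs_zero]; positivity)
    rw [h, norm_zero] at this
    linarith
  obtain ⟨c, k, g, k1, k2, k3, k4⟩ := this
  obtain ⟨x, hx, xM⟩ := filt k (w * star v) k1
  have xM := xM M fun t => m.σ_mem t x0M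
  have x0 : x ≠ 0 := fun h => k4 (by rw [← fξ k1 k2 hx, h]; rfl)
  have fx : f * x = x := fl k1 Uf (by rw [← w2, ← mul_assoc, mul_assoc w, w1, mul_one]) hx
  have xe : x * e = x := fr Ue (by rw [← v2, mul_assoc, ← mul_assoc (star v), v1, one_mul]) hx
  obtain ⟨e₁, e1M, e1p, e1U, xe1, he1⟩ := exists_supp m xM
  have e10 : e₁ ≠ 0 := fun h => x0 (by rw [← xe1, h, mul_zero])
  have ee1 : e₁ * e = e₁ := by
    have := he1 (1 - e) fun t => by
      rw [mul_sub, mul_one, mul_assoc, Ue, ← mul_assoc, xe, sub_self]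
    rw [mul_sub, mul_one, sub_eq_zero] at this
    exact this.symm
  obtain ⟨k', g', j1, -, -, j2, j3, j4⟩ := hk _ hκ (-c)
  obtain ⟨y₀, y0M, ey0, ey0', hy0⟩ := corner_spec hF m hξ hA hS e1M e1p e10 e1U
    (mul_pos hρ hκ) j4
  obtain ⟨y, hy, yM⟩ := filt k' y₀ j1
  have yM := yM M fun t => m.σ_mem t y0M
  have yξ := fξ j1 j2 hy
  have : ∃ t, x * m.U t * y ≠ 0 := by
    by_contra hc
    push Not at hc
    refine hy0 ?_
    rw [← yξ, ← fl j1 e1U ey0 hy, he1 y hc]
    rfl
  obtain ⟨t, ht⟩ := this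
  have zM : m.U (-t) * x * m.U (- -t) * y ∈ M := mul_mem (m.σ_mem _ xM) yM
  rw [neg_neg] at zM
  set z := m.U (-t) * x * m.U t * y with hz
  have z0 : z ≠ 0 := fun h => ht (by
    have : x * m.U t * y = m.U t * z := by
      simp only [hz, ← mul_assoc, m.U_mul_neg, one_mul]
    rw [this, h, mul_zero])
  refine ⟨z, zM, ?_, z0, ?_⟩
  · have ye : y * e = y := by rw [← fr e1U ey0' hy, mul_assoc, ee1]
    rw [hz, mul_assoc, mul_assoc _ y, ye, ← mul_assoc, ← mul_assoc, ← mul_assoc, ← Uf,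
      mul_assoc _ f, fx]
  have hb : 0 < 2 * (δ / 5) := by positivity
  have b1 : m.Φ (bump 0 (2 * (δ / 5))) (z ξ) = z ξ := by
    refine m.ext_cut fun n => ?_
    have := m.band hB hF k1 k2 hx (p := chi n * (1 - bump 0 (2 * (δ / 5))))
      (chi_supp0 n).mul_right (supp_of_zero j3) (fun s s' => ?_) (m.U t (y₀ ξ))
    · rw [← sub_eq_zero, ← map_sub, ← neg_eq_zero, ← map_neg, neg_sub]
      have e : z ξ - m.Φ (bump 0 (2 * (δ / 5))) (z ξ) =
          m.Φ (1 - bump 0 (2 * (δ / 5))) (z ξ) := by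
        rw [map_sub, map_one]
        rfl
      rw [e, ← m.Φ_mul_apply, hz, mul_apply_eq_comp, mul_apply_eq_comp, mul_apply_eq_comp, yξ,
        m.U_Φ, ← m.U_Φ, this, map_zero]
    · by_cases h1 : δ / 5 ≤ |s' - -c|
      · rw [j3 s' h1, mul_zero, zero_mul]
      by_cases h2 : δ / 5 ≤ |s - s' - c|
      · rw [k3 _ h2, mul_zero]
      have h3 : |s - 0| ≤ 2 * (δ / 5) := by
        have := abs_add_le (s' - -c) (s - s' - c)
        rw [show s' - -c + (s - s' - c) = s - 0 by ring] at this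
        linarith [not_le.1 h1, not_le.1 h2]
      simp [bump_one hb h3]
  obtain ⟨h, -, hh⟩ := exists_exp (bump_supp 0 hb)
  have b2 : m.R z ξ = m.Φ h (z ξ) := by
    refine m.ext_cut fun n => ?_
    obtain ⟨g₁, -, hg₁⟩ := exists_exp (chi_supp0 n)
    rw [m.Φ_R_ξ zM _ g₁ hg₁, ← m.Φ_mul_apply]
    conv_lhs => rw [← b1, ← m.Φ_mul_apply]
    congr 2
    ext s
    simp only [BoundedContinuousFunction.mul_apply, hg₁, hh]
    ring
  have b3 : z ξ - m.R z ξ = m.Φ (bump 0 (2 * (δ / 5)) - h) (z ξ) := by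
    rw [map_sub, sub_apply, b1, b2]
  rw [b3]
  refine (m.norm_Φ_apply_le _ _).trans (mul_le_mul_of_nonneg_right ?_ (norm_nonneg _))
  refine (BoundedContinuousFunction.norm_le hη.le).2 fun s => ?_
  rw [BoundedContinuousFunction.sub_apply, hh, ← mul_one_sub, norm_mul]
  by_cases hs : 2 * (2 * (δ / 5)) ≤ |s - 0|
  · rw [bump_zero hb hs, norm_zero, zero_mul]
    exact hη.le
  · have := hd (x := s) (by rw [Real.dist_eq]; linarith [not_le.1 hs])
    rw [Real.dist_eq, zero_div, Real.exp_zero, abs_sub_comm] at this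
    rw [← one_mul η, ← Complex.ofReal_one, ← Complex.ofReal_sub, Complex.norm_real]
    exact mul_le_mul (norm_bump_le _ _ _) this.le (norm_nonneg _) zero_le_one

end Vale.Agent.P132
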