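import Vale.Agent.P132.L0a

/-! Invariant Lipschitz vectors are scalar. -/

namespace Vale.Agent.P132

open scoped InnerProductSpace BoundedContinuousFunction ComplexConjugate ComplexOrder
open Filter Topology Vale.Agent.P104

universe u

variable {H : Type u} [NormedAddCommGroup H] [InnerProductSpace ℂ H] [CompleteSpace H]
  {M : VonNeumannAlgebra H} {ξ : H}

namespace L

theorem cen (hF : FiltStmt.{u}) (m : Mod M ξ) {α : H} {C : ℝ} (hL : Lip m α C) {z : H →L[ℂ] H}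
    (hz : z ∈ M) (h : ∀ t, m.U t * z = z * m.U t) : m.R z α = z α := by
  have := hL z hz
  rw [R_fix hF m hz h, sub_self, norm_zero, mul_zero, norm_le_zero_iff, sub_eq_zero] at this
  exact this.symm

theorem trunc (hF : FiltStmt.{u}) (m : Mod M ξ) (hs : ∀ x ∈ M, x ξ = 0 → x = 0) {α : H} {C : ℝ}
    (hL : Lip m α C) (hJ : m.J α = α) (hU : ∀ t, m.U t α = α) :
    ∃ x ∈ M, IsSelfAdjoint x ∧ ‖x‖ ≤ 1 ∧ ‖x ξ‖ ≤ 2 * ‖α‖ ∧ (∀ t, m.U t * x = x * m.U t) ∧
      (1 - x * x) (α - x ξ) = 0 := by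
  obtain ⟨x, xM, xs, x1, hx⟩ := ex_min M ξ α
  have xU : ∀ t, m.U t * x = x * m.U t := fun t => by
    obtain ⟨x', hx'⟩ : ∃ x', x' = m.U t * x * m.U (-t) := ⟨_, rfl⟩
    have a1 : x' ∈ M := hx' ▸ m.σ_mem t xM
    have a2 : IsSelfAdjoint x' := by
      rw [hx', ← m.star_U]
      exact xs.conjugate _
    have a3 : ‖x'‖ ≤ 1 := by
      rwa [hx', CStarRing.norm_mul_mem_unitary _ (m.U_unitary _),
        CStarRing.norm_mem_unitary_mul _ (m.U_unitary _)]
    have a4 : ‖α - x' ξ‖ = ‖α - x ξ‖ := by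
      rw [← m.norm_U t (α - x ξ), map_sub, hU, hx', mul_apply_eq_comp, mul_apply_eq_comp, m.U_ξ]
    have a5 := hx ((2 : ℂ)⁻¹ • (x + x')) (vn_smul_mem _ (add_mem xM a1))
      (IsSelfAdjoint.smul (by simp [IsSelfAdjoint]) (xs.add a2)) (by
        rw [norm_smul, norm_inv, Complex.norm_ofNat]
        linarith [norm_add_le x x'])
    have a6 := parallelogram_law_with_norm ℂ (α - x ξ) (α - x' ξ)
    rw [show α - x ξ + (α - x' ξ) = (2 : ℂ) • (α - ((2 : ℂ)⁻¹ • (x + x')) ξ) by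
      simp only [smul_apply, add_apply]; module, norm_smul, Complex.norm_ofNat, a4] at a6
    have a7 : (x' - x) ξ = 0 := norm_eq_zero.1 (by
      rw [sub_sub_sub_cancel_left] at a6
      rw [sub_apply]
      nlinarith [norm_nonneg (α - x ξ), norm_nonneg (x' ξ - x ξ)])
    rw [← sub_eq_zero.1 (hs _ (sub_mem a1 xM) a7)]
    nth_rw 2 [hx']
    rw [mul_assoc, m.U_neg_mul, mul_one, sub_eq_zero.1 (hs _ (sub_mem a1 xM) a7)]
  refine ⟨x, xM, xs, x1, ?_, xU, ?_⟩
  · have := hx 0 (zero_mem M) (IsSelfAdjoint.zero _) (by simp)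
    have h2 := norm_sub_norm_le (x ξ) α
    rw [norm_sub_rev] at h2
    simp only [zero_apply, sub_zero] at this
    linarith
  have hp := fun y => pert (y := y) xs x1
  have hx2 : x * (1 - x * x) = (1 - x * x) * x := by noncomm_ring
  have hM : 1 - x * x ∈ M := sub_mem (one_mem M) (mul_mem xM xM)
  have hsa : star (1 - x * x) = 1 - x * x := by rw [star_sub, star_one, star_mul, xs.star_eq]
  have hhU : ∀ t, m.U t * (1 - x * x) = (1 - x * x) * m.U t := fun t => by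
    rw [mul_sub, sub_mul, ← mul_assoc, xU, mul_assoc, xU, mul_assoc, mul_one, one_mul]
  generalize 1 - x * x = h at *
  have b1 : m.R h (α - x ξ) = h (α - x ξ) := by
    rw [map_sub, cen hF m hL hM hhU, ← m.comm_R xM hM, R_fix hF m hM hhU, map_sub,
      ← mul_apply_eq_comp x, hx2, mul_apply_eq_comp]
  have b2 : m.J (α - x ξ) = α - x ξ := by
    rw [map_sub, hJ, m.J_apply, xs.star_eq, m.Jξ, R_fix hF m xM xU]
  have b3 : ∀ t, m.U t (α - x ξ) = α - x ξ := fun t => by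
    rw [map_sub, hU, ← mul_apply_eq_comp, xU, mul_apply_eq_comp, m.U_ξ]
  have b4 := zero_of_perp hF m (c := h (h (α - x ξ))) (by
    rw [m.J_apply, m.J_apply, hsa, b2, b1, ← m.comm_R hM hM, b1]) (fun t => by
    rw [← mul_apply_eq_comp, hhU, mul_apply_eq_comp, ← mul_apply_eq_comp (m.U t), hhU,
      mul_apply_eq_comp, b3]) fun y yM ys => by
    have e : ⟪h (h (α - x ξ)), y ξ⟫_ℂ = ⟪α - x ξ, h (y (h ξ))⟫_ℂ := by
      rw [← hsa, inner_star_left, hsa, ← b1, ← hsa, m.R_star, inner_star_left, hsa,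
        ← m.comm_R hM hM, ← m.comm_R yM hM, R_fix hF m hM hhU]
    rw [e]
    refine re_zero (ε := 1 / (8 * (‖y‖ + 1))) (by positivity) fun s s1 => ?_
    have y2 : IsSelfAdjoint ((s : ℂ) • y) := IsSelfAdjoint.smul (Complex.conj_ofReal s) ys
    have := hx _ (add_mem xM (mul_mem (mul_mem hM (vn_smul_mem s yM)) hM)) (xs.add (by
      have := y2.conjugate h
      rwa [hsa] at this)) (hp _ y2 (by
        rw [norm_smul, Complex.norm_real, Real.norm_eq_abs]
        have := (le_div_iff₀ (by positivity)).1 s1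
        nlinarith [abs_nonneg s]))
    simpa [sub_sub] using this
  rw [← norm_eq_zero, ← sq_eq_zero_iff, ← inner_self_eq_norm_sq (𝕜 := ℂ)]
  nth_rw 1 [← hsa]
  rw [inner_star_left, b4, inner_zero_right, map_zero]

theorem step (hF : FiltStmt.{u}) (m : Mod M ξ) (hs : ∀ x ∈ M, x ξ = 0 → x = 0) (hG : Gam m)
    {α : H} {C : ℝ} (hL : Lip m α C) (hJ : m.J α = α) (hU : ∀ t, m.U t α = α) :
    ∃ w ∈ M, ‖w‖ ≤ 1 ∧ ‖w ξ‖ ≤ 2 * ‖α‖ ∧ ∃ r : ℂ, α - w α = r • (ξ - w ξ) := by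
  obtain ⟨x, xM, xs, x1, x2, xU, hb⟩ := trunc hF m hs hL hJ hU
  have pr : ∀ r ∈ spectrum ℝ x, r * r ≠ 1 → ∀ γ : ℝ, 0 < γ → ∃ e ∈ M, IsStarProjection e ∧
      e ≠ 0 ∧ (∀ t, m.U t * e = e * m.U t) ∧ ∃ y ∈ M, ‖y‖ ≤ γ ∧ m.R y ξ = y ξ ∧
        e α - (r : ℂ) • e ξ = y ξ := fun r hr r1 γ γ0 => by
    obtain ⟨e, e1, e2, e3, e4, e5⟩ := ex_proj xs hr r1 γ0
    have eM : e ∈ M := mem_of_commute fun y hy =>
      e5 y (commute_of_mem xM hy) (commute_of_mem xM (star_mem hy))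
    have eU : ∀ t, m.U t * e = e * m.U t := fun t =>
      e5 _ (xU t).symm (by rw [m.star_U]; exact (xU _).symm)
    have yM := mul_mem (sub_mem xM (vn_smul_mem (r : ℂ) (one_mem M))) eM
    refine ⟨e, eM, e1, e2, eU, _, yM, e4, R_fix hF m yM fun t => ?_, ?_⟩
    · rw [mul_assoc _ e, ← eU, ← mul_assoc, ← mul_assoc, mul_sub, xU, sub_mul x]
      simp
    · have := e3 _ hb
      rw [map_sub, sub_eq_zero, ← mul_apply_eq_comp,
        ← e5 x (Commute.refl x) (by rw [xs.star_eq])] at this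
      simp [this]
  have uq : ∀ r ∈ spectrum ℝ x, r * r ≠ 1 → ∀ r' ∈ spectrum ℝ x, r' * r' ≠ 1 → r = r' := by
    intro r hr r1 r' hr' r1'
    by_contra ne
    obtain ⟨γ, hγ⟩ : ∃ γ, γ = |r - r'| / 8 := ⟨_, rfl⟩
    have γ0 : 0 < γ := by rw [hγ]; exact div_pos (abs_pos.2 (sub_ne_zero.2 ne)) (by norm_num)
    obtain ⟨e, eM, e1, e2, eU, y, yM, y1, y2, y3⟩ := pr r hr r1 γ γ0
    obtain ⟨f, fM, f1, f2, fU, y', yM', y1', -, y3'⟩ := pr r' hr' r1' γ γ0
    obtain ⟨η, η0, η1, η2⟩ : ∃ η : ℝ, 0 < η ∧ η ≤ 1 ∧ (|C| + |r'|) * η ≤ γ := by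
      refine ⟨min 1 (γ / (|C| + |r'| + 1)), by positivity, min_le_left _ _, ?_⟩
      have := (le_div_iff₀ (by positivity)).1 (min_le_right 1 (γ / (|C| + |r'| + 1)))
      have h0 : 0 < min 1 (γ / (|C| + |r'| + 1)) := by positivity
      nlinarith
    obtain ⟨z, zM, z1, z2, z3⟩ := hG e eM f fM e1 f1 e2 f2 eU fU η η0
    have ze : z * e = z := by rw [← z1, mul_assoc _ e, e1.isIdempotentElem.eq]
    have fz : f * z = z := by rw [← z1, ← mul_assoc, ← mul_assoc, f1.isIdempotentElem.eq]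
    have a1 : ‖z α - (r : ℂ) • z ξ‖ ≤ γ * ‖z ξ‖ := by
      rw [show z α - (r : ℂ) • z ξ = m.R y (z ξ) by
        rw [← m.comm_R zM yM, y2, ← y3, map_sub, map_smul, ← mul_apply_eq_comp z e,
          ← mul_apply_eq_comp z e, ze]]
      exact (m.R y).le_of_opNorm_le ((m.norm_R y).trans_le y1) _
    have a2 : ‖m.R z α - (r' : ℂ) • m.R z ξ‖ ≤ γ * ‖m.R z ξ‖ := by
      rw [show m.R z α - (r' : ℂ) • m.R z ξ = y' (m.R z ξ) by
        rw [m.comm_R yM' zM, ← y3', map_sub, map_smul, ← cen hF m hL fM fU, ← R_fix hF m fM fU,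
          ← m.R_mul_apply, ← m.R_mul_apply, fz]]
      exact y'.le_of_opNorm_le y1' _
    have a3 := (hL z zM).trans (mul_le_mul (le_abs_self C) z3 (norm_nonneg _) (abs_nonneg C))
    have a4 := norm_sub_norm_le (m.R z ξ) (z ξ)
    rw [norm_sub_rev] at a4
    have a5 : ‖(r' : ℂ) • (z ξ - m.R z ξ)‖ ≤ |r'| * (η * ‖z ξ‖) := by
      rw [norm_smul, Complex.norm_real, Real.norm_eq_abs]
      gcongr
    have a6 : ((r - r' : ℝ) : ℂ) • z ξ = (z α - m.R z α) + (m.R z α - (r' : ℂ) • m.R z ξ) -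
        (z α - (r : ℂ) • z ξ) - (r' : ℂ) • (z ξ - m.R z ξ) := by
      push_cast
      module
    have a7 := (norm_sub_le _ _).trans (add_le_add ((norm_sub_le _ _).trans (add_le_add
      ((norm_add_le _ _).trans (add_le_add a3 a2)) a1)) a5)
    rw [← a6, norm_smul, Complex.norm_real, Real.norm_eq_abs, show |r - r'| = 8 * γ by linarith]
      at a7
    have N0 : 0 < ‖z ξ‖ := norm_pos_iff.2 fun h => z2 (hs z zM h)
    nlinarith [mul_le_mul_of_nonneg_right η2 N0.le, mul_le_mul_of_nonneg_right η1 N0.le,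
      mul_pos γ0 N0, mul_le_mul_of_nonneg_left (show ‖m.R z ξ‖ ≤ 2 * ‖z ξ‖ by
        nlinarith [mul_le_mul_of_nonneg_right η1 N0.le]) γ0.le]
  obtain ⟨r, hr⟩ : ∃ r : ℝ, ∀ t ∈ spectrum ℝ x, (1 - t * t) * (t - r) = 0 := by
    by_cases h : ∃ r ∈ spectrum ℝ x, r * r ≠ 1
    · obtain ⟨r, h1, h2⟩ := h
      refine ⟨r, fun t ht => ?_⟩
      by_cases c : t * t = 1
      · rw [c, sub_self, zero_mul]
      · rw [uq t ht c r h1 h2, sub_self, mul_zero]
    · push Not at h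
      exact ⟨0, fun t ht => by rw [h t ht, sub_self, zero_mul]⟩
  have e : (1 - x * x) * (x - (r : ℂ) • 1) = 0 := by
    have := cfc_congr (a := x) (f := fun t : ℝ => (1 - t * t) * (t - r)) (g := 0) hr
    rwa [cfc_zero, cfc_mul _ _ x, cfc_sub _ _ x, cfc_sub _ _ x, cfc_mul _ _ x, cfc_id' ℝ x,
      cfc_const_one ℝ x, cfc_const r x, Algebra.algebraMap_eq_smul_one, ← Complex.coe_smul] at this
  refine ⟨x * x, mul_mem xM xM, (norm_mul_le _ _).trans (mul_le_one₀ x1 (norm_nonneg _) x1),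
    (x.le_of_opNorm_le x1 _).trans (by rwa [one_mul]), r, ?_⟩
  have e2 := DFunLike.congr_fun e ξ
  rw [mul_apply_eq_comp, sub_apply x, map_sub, zero_apply, sub_eq_zero] at e2
  rw [map_sub, e2, sub_eq_zero] at hb
  simpa [smul_sub] using hb

theorem real_case (hF : FiltStmt.{u}) (m : Mod M ξ) (hs : ∀ x ∈ M, x ξ = 0 → x = 0) (hG : Gam m)
    {α : H} {C : ℝ} (hL : Lip m α C) (hJ : m.J α = α) (hU : ∀ t, m.U t α = α) :
    ⟪ξ, ξ⟫_ℂ • α = ⟪ξ, α⟫_ℂ • ξ := by
  have key : ∀ n : ℕ, ∃ w ∈ M, ‖w‖ ≤ 1 ∧ ‖w ξ‖ ≤ 2 * ‖α‖ * (1 / ((n : ℝ) + 1)) ∧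
      ⟪ξ, ξ - w ξ⟫_ℂ • (α - w α) = ⟪ξ, α - w α⟫_ℂ • (ξ - w ξ) := fun n => by
    obtain ⟨c, hc⟩ : ∃ c : ℝ, c = 1 / ((n : ℝ) + 1) := ⟨_, rfl⟩
    have c0 : 0 < c := by rw [hc]; positivity
    obtain ⟨w, w1, w2, w3, r, w4⟩ := step hF m hs hG (α := (c : ℂ) • α) (C := c * C)
      (fun x hx => by
        rw [map_smul, map_smul, ← smul_sub, norm_smul, Complex.norm_real, Real.norm_of_nonneg c0.le,
          mul_assoc]
        exact mul_le_mul_of_nonneg_left (hL x hx) c0.le)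
      (by rw [map_smulₛₗ, hJ, Complex.conj_ofReal]) fun t => by rw [map_smul, hU]
    rw [norm_smul, Complex.norm_real, Real.norm_of_nonneg c0.le] at w3
    rw [map_smul, ← smul_sub, ← eq_inv_smul_iff₀ (by exact_mod_cast c0.ne'), smul_smul] at w4
    refine ⟨w, w1, w2, by rw [← hc]; linarith, ?_⟩
    rw [w4, inner_smul_right, smul_smul, mul_comm]
  choose w w1 w2 w3 w4 using key
  have t0 : Tendsto (fun n : ℕ => 2 * ‖α‖ * (1 / ((n : ℝ) + 1))) atTop (𝓝 0) := by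
    simpa using tendsto_one_div_add_atTop_nhds_zero_nat.const_mul (2 * ‖α‖)
  have t1 : ∀ η, Tendsto (fun n => η - w n η) atTop (𝓝 η) := fun η => by
    have : Tendsto (fun n => w n η) atTop (𝓝 0) := Metric.tendsto_nhds.2 fun ε hε => by
      obtain ⟨δ, d0, hd⟩ := strong_of_sep hs η 1 (ε / 2) (half_pos hε)
      filter_upwards [t0.eventually_le_const d0] with n hn
      rw [dist_zero_right]
      exact (hd _ (w1 n) (w2 n) ((w3 n).trans hn)).trans_lt (half_lt_self hε)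
    simpa using this.const_sub η
  exact tendsto_nhds_unique ((tendsto_const_nhds.inner (t1 ξ)).smul (t1 α))
    (((tendsto_const_nhds.inner (t1 α)).smul (t1 ξ)).congr fun n => (w4 n).symm)

end L

open L in
theorem l0 (hF : FiltStmt.{u}) : L0Stmt.{u} := by
  intro H _ _ _ M ξ m hc hG α C hL hU
  rcases eq_or_ne ξ 0 with rfl | h0
  · refine ⟨0, ?_⟩
    have := closure_minimal (t := {0}) (by rintro _ ⟨x, -, rfl⟩; simp) isClosed_singleton (hc.1 α)
    simpa using this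
  have part : ∀ c : ℂ, ∃ d : ℂ, c • α + conj c • m.J α = d • ξ := fun c => by
    have := real_case hF m hc.2 hG (α := c • α + conj c • m.J α) (C := ‖c‖ * C + ‖c‖ * C)
      (fun x hx => by
        have a1 := hL x hx
        have a2 := hL _ (star_mem hx)
        rw [m.norm_comm_star, ← m.J.norm_map, map_sub, m.J_apply, m.J_R, star_star,
          norm_sub_rev] at a2
        rw [show x (c • α + conj c • m.J α) - m.R x (c • α + conj c • m.J α) =
          c • (x α - m.R x α) + conj c • (x (m.J α) - m.R x (m.J α)) by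
            simp only [map_add, map_smul]; module]
        refine (norm_add_le _ _).trans ?_
        rw [norm_smul, norm_smul, Complex.norm_conj, add_mul, mul_assoc]
        gcongr)
      (by rw [map_add, map_smulₛₗ, map_smulₛₗ, m.JJ, Complex.conj_conj, add_comm])
      fun t => by rw [map_add, map_smul, map_smul, ← m.J_U, hU]
    exact ⟨_, by rw [← eq_inv_smul_iff₀ (inner_self_ne_zero.2 h0), smul_smul] at this; exact this⟩
  obtain ⟨d, hd⟩ := part 1
  obtain ⟨d', hd'⟩ := part Complex.I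
  refine ⟨(d - Complex.I * d') / 2, ?_⟩
  rw [map_one] at hd
  rw [Complex.conj_I] at hd'
  have hI : Complex.I * Complex.I = -1 := Complex.I_mul_I
  linear_combination (norm := skip) (2 : ℂ)⁻¹ • hd - (Complex.I / 2) • hd'
  match_scalars <;> ring_nf <;> simp

end Vale.Agent.P132
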