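import Vale.Agent.P132.Basic

/-! The nearest point of the closed convex hull of the unitary orbit. -/

namespace Vale.Agent.P132

open scoped InnerProductSpace BoundedContinuousFunction ComplexConjugate
open Filter Topology

universe u

variable {H : Type u} [NormedAddCommGroup H] [InnerProductSpace ℂ H] [CompleteSpace H]

theorem near_pt (S : Set (H × H)) (hc : IsClosed S) (hv : Convex ℝ S) (hn : S.Nonempty) (ξ : H)
    {ε : ℝ} (hε : 0 < ε) : ∃ p ∈ S, ∀ q ∈ S,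
      0 ≤ ε * (⟪p.1, q.1 - p.1⟫_ℂ).re + (⟪p.2 - ξ, q.2 - p.2⟫_ℂ).re := by
  letI : InnerProductSpace ℝ H := InnerProductSpace.complexToReal
  have hs : 0 < √ε := Real.sqrt_pos.2 hε
  have hs' : ((√ε : ℝ) : ℂ) ≠ 0 := by exact_mod_cast hs.ne'
  let T : WithLp 2 (H × H) → H × H := fun p => (((√ε : ℝ) : ℂ)⁻¹ • p.ofLp.1, p.ofLp.2)
  have hT : Continuous T := by
    have := WithLp.prod_continuous_ofLp 2 H H
    fun_prop
  have hm : ∀ q ∈ S, WithLp.toLp 2 (((√ε : ℝ) : ℂ) • q.1, q.2) ∈ T ⁻¹' S := fun q hq => by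
    change (((√ε : ℝ) : ℂ)⁻¹ • ((√ε : ℝ) : ℂ) • q.1, q.2) ∈ S
    rw [smul_smul, inv_mul_cancel₀ hs', one_smul]
    exact hq
  have hv' : Convex ℝ (T ⁻¹' S) := by
    intro a ha b hb s t h1 h2 h3
    have := hv ha hb h1 h2 h3
    have e : T (s • a + t • b) = s • T a + t • T b := by
      refine Prod.ext ?_ rfl
      change ((√ε : ℝ) : ℂ)⁻¹ • ((s : ℂ) • a.ofLp.1 + (t : ℂ) • b.ofLp.1) =
        (s : ℂ) • ((√ε : ℝ) : ℂ)⁻¹ • a.ofLp.1 + (t : ℂ) • ((√ε : ℝ) : ℂ)⁻¹ • b.ofLp.1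
      rw [smul_add, smul_comm _ (s : ℂ), smul_comm _ (t : ℂ)]
    change T _ ∈ S
    rw [e]
    exact this
  obtain ⟨q0, hq0⟩ := hn
  obtain ⟨v, hvS, hmin⟩ := exists_norm_eq_iInf_of_complete_convex ⟨_, hm q0 hq0⟩
    (hc.preimage hT).isComplete hv' (WithLp.toLp 2 (0, ξ))
  refine ⟨T v, hvS, fun q hq => ?_⟩
  have h1 := (norm_eq_iInf_iff_real_inner_le_zero hv' hvS).1 hmin _ (hm q hq)
  rw [WithLp.prod_inner_apply] at h1
  change (⟪0 - v.ofLp.1, ((√ε : ℝ) : ℂ) • q.1 - v.ofLp.1⟫_ℂ).re +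
    (⟪ξ - v.ofLp.2, q.2 - v.ofLp.2⟫_ℂ).re ≤ 0 at h1
  have e1 : v.ofLp.1 = ((√ε : ℝ) : ℂ) • (T v).1 := by
    change _ = ((√ε : ℝ) : ℂ) • ((√ε : ℝ) : ℂ)⁻¹ • v.ofLp.1
    rw [smul_smul, mul_inv_cancel₀ hs', one_smul]
  have e2 : v.ofLp.2 = (T v).2 := rfl
  rw [e1, e2, zero_sub, ← smul_sub, inner_neg_left, inner_smul_left, inner_smul_right,
    Complex.conj_ofReal, ← mul_assoc, ← Complex.ofReal_mul, Real.mul_self_sqrt hε.le,
    ← neg_sub (T v).2 ξ, inner_neg_left, Complex.neg_re, Complex.neg_re,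
    Complex.re_ofReal_mul] at h1
  linarith

theorem near_uni {V : H →L[ℂ] H} (hV : V ∈ unitary (H →L[ℂ] H)) (α ψ ξ : H) {ε : ℝ}
    (h1 : 0 ≤ ε * (⟪α, V α - α⟫_ℂ).re + (⟪ψ - ξ, V ψ - ψ⟫_ℂ).re)
    (h2 : 0 ≤ ε * (⟪α, star V α - α⟫_ℂ).re + (⟪ψ - ξ, star V ψ - ψ⟫_ℂ).re) :
    4 * ε * ‖α - V α‖ ^ 2 ≤ ‖ξ - V ξ‖ ^ 2 := by
  have ad : ∀ a b : H, ⟪a, star V b⟫_ℂ = ⟪V a, b⟫_ℂ := fun a b => by
    rw [ContinuousLinearMap.star_eq_adjoint, ContinuousLinearMap.adjoint_inner_right]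
  have iv : ∀ a b : H, ⟪V a, V b⟫_ℂ = ⟪a, b⟫_ℂ := fun a b => by
    rw [← ad, ← mul_apply_eq_comp, hV.1, one_apply_eq_self]
  have key : ∀ a b : H, (⟪a - V a, b - V b⟫_ℂ).re =
      -((⟪a, V b - b⟫_ℂ).re + (⟪a, star V b - b⟫_ℂ).re) := fun a b => by
    simp only [inner_sub_left, inner_sub_right, iv, ad, Complex.sub_re]
    ring
  have nn : ∀ a : H, (⟪a, a⟫_ℂ).re = ‖a‖ ^ 2 := fun a => inner_self_eq_norm_sq (𝕜 := ℂ) a
  have k1 := key α α
  have k2 := key ψ ψ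
  have k3 := key ξ ψ
  rw [nn] at k1 k2
  rw [inner_sub_left, Complex.sub_re] at h1 h2
  have k4 : (⟪ξ - V ξ, ψ - V ψ⟫_ℂ).re ≤ ‖ξ - V ξ‖ * ‖ψ - V ψ‖ :=
    re_inner_le_norm (𝕜 := ℂ) _ _
  have k5 : ε * ‖α - V α‖ ^ 2 = -(ε * (⟪α, V α - α⟫_ℂ).re + ε * (⟪α, star V α - α⟫_ℂ).re) := by
    rw [k1]; ring
  nlinarith [sq_nonneg (‖ξ - V ξ‖ - 2 * ‖ψ - V ψ‖)]

omit [CompleteSpace H] in
theorem hull_maps (V : H →L[ℂ] H) {S : Set (H × H)} (h : ∀ p ∈ S, (V p.1, V p.2) ∈ S) :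
    ∀ p ∈ closure (convexHull ℝ S), (V p.1, V p.2) ∈ closure (convexHull ℝ S) := by
  have h1 : Set.MapsTo (fun p : H × H => (V p.1, V p.2)) (convexHull ℝ S) (convexHull ℝ S) := by
    refine convexHull_min (fun p hp => subset_convexHull ℝ S (h p hp)) ?_
    intro a ha b hb s t h1 h2 h3
    have := convex_convexHull ℝ S ha hb h1 h2 h3
    change (V (s • a.1 + t • b.1), V (s • a.2 + t • b.2)) ∈ convexHull ℝ S
    rw [map_add, map_add, V.map_smul_of_tower, V.map_smul_of_tower, V.map_smul_of_tower,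
      V.map_smul_of_tower]
    exact this
  exact h1.closure (by fun_prop)

variable {M : VonNeumannAlgebra H} {ξ : H}

theorem lip_of_unitary (m : Mod M ξ) (α : H) {K : ℝ} (hK : 0 ≤ K)
    (h : ∀ u ∈ M, u ∈ unitary (H →L[ℂ] H) → ‖u α - m.R u α‖ ≤ K * ‖u ξ - m.R u ξ‖) :
    Lip m α (2 * K) := by
  have Rc : ∀ v : H, Continuous fun x : H →L[ℂ] H => x v - m.R x v := fun v => by
    simp only [HMod.R_apply]
    have := m.J.continuous
    fun_prop
  have Rl : ∀ (v : H) (c : ℂ) (x : H →L[ℂ] H), (c • (x - 1)) v - m.R (c • (x - 1)) v =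
      c • (x v - m.R x v) := fun v c x => by
    rw [m.R_smul, m.R_sub, m.R_one]
    simp only [ContinuousLinearMap.smul_apply, ContinuousLinearMap.sub_apply, one_apply_eq_self,
      smul_sub]
    abel
  have sa : ∀ y ∈ M, IsSelfAdjoint y → ‖y α - m.R y α‖ ≤ K * ‖y ξ - m.R y ξ‖ := by
    intro y hy hs
    have hd := hasDerivAt_exp_smul_const (𝕂 := ℂ) y 0
    rw [hasDerivAt_iff_tendsto_slope_zero] at hd
    simp only [zero_smul, NormedSpace.exp_zero, one_mul, zero_add] at hd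
    have hl : Tendsto (fun n : ℕ => Complex.I * ((1 / ((n : ℝ) + 1) : ℝ) : ℂ)) atTop (𝓝[≠] 0) := by
      refine tendsto_nhdsWithin_iff.2 ⟨?_, Eventually.of_forall fun n => ?_⟩
      · have := ((Complex.continuous_ofReal.tendsto 0).comp
          (tendsto_one_div_add_atTop_nhds_zero_nat (𝕜 := ℝ))).const_mul Complex.I
        simpa using this
      · exact mul_ne_zero Complex.I_ne_zero (Complex.ofReal_ne_zero.2 (by positivity))
    have l1 := (((Rc α).tendsto y).comp (hd.comp hl)).norm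
    have l2 := (((Rc ξ).tendsto y).comp (hd.comp hl)).norm.const_mul K
    refine le_of_tendsto_of_tendsto' l1 l2 fun n => ?_
    simp only [Function.comp_apply, Rl, norm_smul]
    rw [mul_left_comm]
    refine mul_le_mul_of_nonneg_left (h _ ?_ ?_) (norm_nonneg _)
    · exact P104.mem_of_commute fun z hz =>
        (Commute.exp_left (Commute.smul_left (P104.commute_of_mem hy hz) _)).symm.eq
    · have hs' : IsSelfAdjoint (((1 / ((n : ℝ) + 1) : ℝ) : ℂ) • y) := by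
        rw [IsSelfAdjoint, star_smul, hs.star_eq, RCLike.star_def, Complex.conj_ofReal]
      rw [← smul_smul]
      exact (selfAdjoint.expUnitary ⟨_, hs'⟩).2
  intro x hx
  have Ls : ∀ (v : H) (a b : ℂ), (a • x + b • star x) v - m.R (a • x + b • star x) v =
      a • (x v - m.R x v) + b • (star x v - m.R (star x) v) := fun v a b => by
    rw [m.R_add, m.R_smul, m.R_smul]
    simp only [ContinuousLinearMap.smul_apply, ContinuousLinearMap.add_apply, smul_sub]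
    abel
  have bd : ∀ a : ℂ, ‖a‖ = 1 / 2 → ‖a • (x α - m.R x α) + conj a • (star x α - m.R (star x) α)‖ ≤
      K * ‖x ξ - m.R x ξ‖ := fun a ha => by
    have h1 := sa (a • x + conj a • star x)
      (add_mem (M.toStarSubalgebra.smul_mem hx _) (M.toStarSubalgebra.smul_mem (star_mem hx) _))
      (by rw [IsSelfAdjoint, star_add, star_smul, star_smul, star_star, RCLike.star_def,
        Complex.conj_conj, add_comm])
    rw [Ls, Ls] at h1
    refine h1.trans (mul_le_mul_of_nonneg_left ((norm_add_le _ _).trans ?_) hK)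
    rw [norm_smul, norm_smul, m.norm_comm_star, Complex.norm_conj, ha]
    linarith
  have b1 := bd (1 / 2) (by simp)
  have b2 := bd (Complex.I / 2) (by simp)
  have e : x α - m.R x α = ((1 / 2 : ℂ) • (x α - m.R x α) +
      conj (1 / 2 : ℂ) • (star x α - m.R (star x) α)) + (-Complex.I) •
      ((Complex.I / 2) • (x α - m.R x α) + conj (Complex.I / 2) • (star x α - m.R (star x) α)) := by
    have c1 : conj (1 / 2 : ℂ) = 1 / 2 := by simp [map_ofNat]
    have c2 : conj (Complex.I / 2) = -Complex.I / 2 := by simp [map_ofNat]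
    rw [c1, c2, smul_add, smul_smul, smul_smul]
    have c3 : -Complex.I * (Complex.I / 2) = 1 / 2 := by
      linear_combination (-1 / 2 : ℂ) * Complex.I_mul_I
    have c4 : -Complex.I * (-Complex.I / 2) = -(1 / 2) := by
      linear_combination (1 / 2 : ℂ) * Complex.I_mul_I
    rw [c3, c4]
    module
  rw [e]
  refine (norm_add_le _ _).trans ?_
  rw [norm_smul, norm_neg, Complex.norm_I, one_mul]
  linarith

theorem near : NStmt.{u} := by
  intro H _ _ _ M ξ m β ε hε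
  have h1 : (β, ξ) ∈ closure (convexHull ℝ (orb m β)) := by
    refine subset_closure (subset_convexHull ℝ _ ⟨1, one_mem _, one_mem _, ?_⟩)
    simp [m.R_one]
  obtain ⟨p, hp, hq⟩ := near_pt _ isClosed_closure (convex_convexHull ℝ (orb m β)).closure
    ⟨_, h1⟩ ξ hε
  have main : ∀ V ∈ unitary (H →L[ℂ] H), (∀ q ∈ orb m β, (V q.1, V q.2) ∈ orb m β) →
      (∀ q ∈ orb m β, (star V q.1, star V q.2) ∈ orb m β) →
      4 * ε * ‖p.1 - V p.1‖ ^ 2 ≤ ‖ξ - V ξ‖ ^ 2 := fun V hV a b =>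
    near_uni hV p.1 p.2 ξ (hq _ (hull_maps V a p hp)) (hq _ (hull_maps (star V) b p hp))
  refine ⟨p.1, p.2, hp, ?_, ⟨2 * (1 / (2 * √ε)), lip_of_unitary m _ (by positivity) ?_⟩, ?_⟩
  · have a1 := hq _ h1
    have nn : ∀ a : H, (⟪a, a⟫_ℂ).re = ‖a‖ ^ 2 := fun a => inner_self_eq_norm_sq (𝕜 := ℂ) a
    change 0 ≤ ε * (⟪p.1, β - p.1⟫_ℂ).re + (⟪p.2 - ξ, ξ - p.2⟫_ℂ).re at a1
    rw [← neg_sub p.2 ξ, inner_neg_right, Complex.neg_re, nn, inner_sub_right, Complex.sub_re,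
      nn] at a1
    have a2 : (⟪p.1, β⟫_ℂ).re ≤ ‖p.1‖ * ‖β‖ := re_inner_le_norm (𝕜 := ℂ) _ _
    have a3 : (⟪p.1, β⟫_ℂ).re - ‖p.1‖ ^ 2 ≤ ‖β‖ ^ 2 := by
      nlinarith [sq_nonneg (‖p.1‖ - ‖β‖), norm_nonneg p.1, norm_nonneg β]
    nlinarith
  · intro u hu hun
    have hR : ∀ w ∈ unitary (H →L[ℂ] H), m.R w ∈ unitary (H →L[ℂ] H) := fun w hw =>
      ⟨by rw [← m.R_star, ← m.R_mul, hw.2, m.R_one], by rw [← m.R_star, ← m.R_mul, hw.1, m.R_one]⟩
    have inv : ∀ w ∈ M, w ∈ unitary (H →L[ℂ] H) → ∀ q ∈ orb m β,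
        ((w * m.R (star w)) q.1, (w * m.R (star w)) q.2) ∈ orb m β := by
      rintro w hw hwn _ ⟨v, hv, hvn, rfl⟩
      refine ⟨w * v, mul_mem hw hv, mul_mem hwn hvn, ?_⟩
      simp only [mul_apply_eq_comp, star_mul, m.R_mul_apply, m.comm_R hv (star_mem hw)]
    have e : star (u * m.R (star u)) = star u * m.R (star (star u)) := by
      rw [star_mul, ← m.R_star]
      exact (P104.commute_of_mem (star_mem hu) (m.R_mem (star_mem (star_mem hu)))).symm
    have a1 := main _ (mul_mem hun (hR _ (Unitary.star_mem hun))) (inv u hu hun)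
      (e ▸ inv _ (star_mem hu) (Unitary.star_mem hun))
    have nr : ∀ v : H, ‖v - (u * m.R (star u)) v‖ = ‖u v - m.R u v‖ := fun v => by
      rw [← Unitary.norm_map ⟨_, hR u hun⟩, norm_sub_rev]
      change ‖m.R u (v - (u * m.R (star u)) v)‖ = _
      rw [map_sub, mul_apply_eq_comp, ← m.comm_R hu hu, ← m.R_mul_apply, hun.1, m.R_one,
        one_apply_eq_self, norm_sub_rev]
    rw [nr, nr] at a1
    have hs : 0 < √ε := Real.sqrt_pos.2 hε
    rw [one_div, ← div_eq_inv_mul, le_div_iff₀ (by positivity)]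
    refine (pow_le_pow_iff_left₀ (by positivity) (norm_nonneg _) two_ne_zero).1 ?_
    rw [mul_pow, mul_pow, Real.sq_sqrt hε.le]
    linarith
  · intro hβ t
    have inv : ∀ s, ∀ q ∈ orb m β, (m.U s q.1, m.U s q.2) ∈ orb m β := by
      rintro s _ ⟨v, hv, hvn, rfl⟩
      refine ⟨m.U s * v * m.U (-s), m.σ_mem s hv,
        mul_mem (mul_mem (m.U_unitary s) hvn) (m.U_unitary _), ?_⟩
      have e : ∀ η, m.U s η = η → m.U s (v (m.R (star v) η)) =
          (m.U s * v * m.U (-s)) (m.R (star (m.U s * v * m.U (-s))) η) := fun η hη => by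
        have e1 : star (m.U s * v * m.U (-s)) = m.U s * star v * m.U (-s) := by
          simp only [star_mul, m.star_U, neg_neg, mul_assoc]
        rw [e1]
        conv_rhs => rw [← hη, ← m.U_R]
        simp only [mul_apply_eq_comp, m.U_neg_U]
      rw [← e β (hβ s), ← e ξ (m.U_ξ s)]
    have a1 := main _ (m.U_unitary t) (inv t) (by rw [m.star_U]; exact inv (-t))
    rw [m.U_ξ, sub_self, norm_zero] at a1
    have a2 : ‖p.1 - m.U t p.1‖ ^ 2 ≤ 0 := by nlinarith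
    have a3 : ‖p.1 - m.U t p.1‖ = 0 := by nlinarith [norm_nonneg (p.1 - m.U t p.1)]
    exact (sub_eq_zero.1 (norm_eq_zero.1 a3)).symm

end Vale.Agent.P132
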