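import Vale.Agent.P132.Star0

/-! Work package S, part 2: Lipschitz vectors are invariant under the modular group. -/

namespace Vale.Agent.P132

open scoped InnerProductSpace BoundedContinuousFunction ComplexConjugate
open Filter Topology MeasureTheory

universe u

namespace St

variable {H : Type u} [NormedAddCommGroup H] [InnerProductSpace ℂ H] [CompleteSpace H]
variable {M : VonNeumannAlgebra H} {ξ : H}

/-- The rescaled and translated bump. -/
noncomputable def resc (f : ℝ →ᵇ ℂ) (s0 κ : ℝ) : ℝ →ᵇ ℂ :=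
  f.compContinuous ⟨fun s => (s - s0) / κ, by fun_prop⟩

theorem resc_apply (f : ℝ →ᵇ ℂ) (s0 κ s : ℝ) : resc f s0 κ s = f ((s - s0) / κ) := rfl

theorem lip_resc (hF : FiltStmt.{u}) (m : Mod M ξ) {α : H} {C : ℝ} (h : Lip m α C)
    (k : ℝ → ℂ) (f : ℝ →ᵇ ℂ) (hk : Integrable k) (hf : ∀ s, f s = ∫ t, k t * ex t s)
    (s0 κ : ℝ) (hκ : 0 < κ) : Lip m (m.Φ (resc f s0 κ) α) ((∫ t, ‖k t‖) * C) := by
  have hk1 : Integrable fun t => (κ : ℂ) * k (κ * t) := (hk.comp_mul_left' hκ.ne').const_mul _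
  have hn : ∀ t, ‖(κ : ℂ) * k (κ * t) * ex t (-s0)‖ = κ * ‖k (κ * t)‖ := fun t => by
    rw [norm_mul, norm_ex_apply, mul_one, norm_mul, Complex.norm_real, Real.norm_of_nonneg hκ.le]
  have hc : Continuous fun t => ex t (-s0) := by
    simp only [ex_apply]
    fun_prop
  have hk' : Integrable fun t => (κ : ℂ) * k (κ * t) * ex t (-s0) :=
    hk1.mul_bdd (c := 1) hc.aestronglyMeasurable
      (Eventually.of_forall fun t => (norm_ex_apply _ _).le)
  have hi : ∀ F : ℝ → ℂ, ∫ t, (κ : ℂ) * F (κ * t) = ∫ t, F t := fun F => by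
    rw [integral_const_mul, Measure.integral_comp_mul_left, abs_of_pos (inv_pos.2 hκ),
      Complex.real_smul, ← mul_assoc]
    push_cast
    rw [mul_inv_cancel₀ (by exact_mod_cast hκ.ne'), one_mul]
  have hr : ∫ t, ‖(κ : ℂ) * k (κ * t) * ex t (-s0)‖ = ∫ t, ‖k t‖ := by
    simp only [hn]
    rw [integral_const_mul, Measure.integral_comp_mul_left (fun t => ‖k t‖),
      abs_of_pos (inv_pos.2 hκ), smul_eq_mul, ← mul_assoc, mul_inv_cancel₀ hκ.ne', one_mul]
  rw [← hr]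
  refine lip_filter hF m h _ _ hk' fun s => ?_
  rw [resc_apply, hf, ← hi]
  refine integral_congr_ae (Eventually.of_forall fun t => ?_)
  simp only [ex_apply, mul_assoc, ← Complex.exp_add]
  congr 3
  push_cast
  have : (κ : ℂ) ≠ 0 := by exact_mod_cast hκ.ne'
  field_simp
  ring

theorem exp_sub_le {x y : ℝ} (hx : x ≤ 0) (hy : y ≤ 0) : |Real.exp x - Real.exp y| ≤ |x - y| := by
  have key : ∀ a b : ℝ, b ≤ 0 → a ≤ b → Real.exp b - Real.exp a ≤ b - a := fun a b hb hab => by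
    have h1 : Real.exp a = Real.exp b * Real.exp (a - b) := by rw [← Real.exp_add]; ring_nf
    have h2 := Real.add_one_le_exp (a - b)
    have h3 : Real.exp b ≤ 1 := Real.exp_le_one_iff.2 hb
    have h4 := Real.exp_pos b
    nlinarith
  rcases le_total x y with h | h
  · rw [abs_sub_comm, abs_sub_comm x, abs_of_nonneg (sub_nonneg.2 (Real.exp_le_exp.2 h)),
      abs_of_nonneg (sub_nonneg.2 h)]
    exact key x y hy h
  · rw [abs_of_nonneg (sub_nonneg.2 (Real.exp_le_exp.2 h)), abs_of_nonneg (sub_nonneg.2 h)]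
    exact key y x hx h

/-- The function `exp (s / 2)` clamped to an interval. -/
noncomputable def clampExp (a b : ℝ) : ℝ →ᵇ ℂ :=
  BoundedContinuousFunction.ofNormedAddCommGroup
    (fun s => ((Real.exp (max a (min b s) / 2) : ℝ) : ℂ)) (by fun_prop)
    (Real.exp (max a b / 2)) (fun s => by
      rw [Complex.norm_real, Real.norm_of_nonneg (Real.exp_pos _).le, Real.exp_le_exp]
      have := max_le_max_left a (min_le_left b s)
      linarith)

theorem clampExp_apply (a b s : ℝ) :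
    clampExp a b s = ((Real.exp (max a (min b s) / 2) : ℝ) : ℂ) := rfl

theorem local_bd (m : Mod M ξ) (hs : CycSep M ξ) (hE : ∀ l : ℝ, 1 < l → Eig m l) {α : H}
    {C : ℝ} (hC : 0 ≤ C) (f : ℝ →ᵇ ℂ) (s0 κ σ : ℝ) (hκ : 0 < κ) (hσ : κ ≤ σ) (h0 : s0 ≤ -σ)
    (hf : ∀ s, κ ≤ |s - s0| → f s = 0) (h : Lip m (m.Φ f α) C) :
    (1 - Real.exp (-σ / 2)) * ‖m.Φ f α‖ ≤ 2 * (‖ξ‖ * C) * κ := by
  set a := m.Φ f α with ha
  set g := clampExp (s0 - κ) (s0 + κ) with hg
  have hl : 1 < Real.exp (-s0 / 2) := Real.one_lt_exp_iff.2 (by linarith)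
  have hli : (Real.exp (-s0 / 2))⁻¹ = Real.exp (s0 / 2) := by
    rw [← Real.exp_neg]
    ring_nf
  have hcl : ∀ s, s0 - κ ≤ max (s0 - κ) (min (s0 + κ) s) ∧
      max (s0 - κ) (min (s0 + κ) s) ≤ s0 + κ := fun s =>
    ⟨le_max_left _ _, max_le (by linarith) (min_le_left _ _)⟩
  have hcore := m.core f (g * f) (fun s => by
    rw [BoundedContinuousFunction.mul_apply, mul_comm]
    by_cases hs : κ ≤ |s - s0|
    · rw [hf s hs, zero_mul, zero_mul]
    · rw [not_le, abs_lt] at hs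
      rw [hg, clampExp_apply, min_eq_right (by linarith), max_eq_right (by linarith)]) α
  have key := star_graph m hs hC h hl (hE _ hl) hcore
  simp only [HMod.JJ, LinearIsometryEquiv.norm_map, hli] at key
  rw [m.Φ_mul_apply, ← ha] at key
  have g1 : ‖g‖ ≤ 1 := (BoundedContinuousFunction.norm_le zero_le_one).2 fun s => by
    rw [hg, clampExp_apply, Complex.norm_real, Real.norm_of_nonneg (Real.exp_pos _).le,
      Real.exp_le_one_iff]
    linarith [(hcl s).2]
  have g2 : ‖g - ((Real.exp (s0 / 2) : ℝ) : ℂ) • 1‖ ≤ κ :=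
    (BoundedContinuousFunction.norm_le hκ.le).2 fun s => by
      rw [BoundedContinuousFunction.sub_apply, BoundedContinuousFunction.smul_apply,
        BoundedContinuousFunction.coe_one, Pi.one_apply, smul_eq_mul, mul_one, hg,
        clampExp_apply, ← Complex.ofReal_sub, Complex.norm_real, Real.norm_eq_abs]
      refine (exp_sub_le (by linarith [(hcl s).2]) (by linarith)).trans ?_
      rw [abs_le]
      constructor <;> linarith [(hcl s).1, (hcl s).2]
  have b1 : ‖m.Φ g a‖ ≤ ‖a‖ :=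
    (m.norm_Φ_apply_le g a).trans (mul_le_of_le_one_left (norm_nonneg _) g1)
  have b2 : ‖m.Φ g a - ((Real.exp (s0 / 2) : ℝ) : ℂ) • a‖ ≤ κ * ‖a‖ := by
    have e : m.Φ g a - ((Real.exp (s0 / 2) : ℝ) : ℂ) • a =
        m.Φ (g - ((Real.exp (s0 / 2) : ℝ) : ℂ) • 1) a := by
      rw [map_sub, map_smul, map_one]
      rfl
    rw [e]
    exact (m.norm_Φ_apply_le _ a).trans (mul_le_mul_of_nonneg_right g2 (norm_nonneg _))
  have b3 : Real.exp (s0 / 2) ≤ Real.exp (-σ / 2) := Real.exp_le_exp.2 (by linarith)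
  have b4 : ‖⟪a, a⟫_ℂ‖ = ‖a‖ * ‖a‖ := by
    rw [inner_self_eq_norm_sq_to_K, norm_pow, RCLike.norm_ofReal, abs_norm, sq]
  rw [b4] at key
  have hK : 0 ≤ 2 * (‖ξ‖ * C) := by positivity
  rcases (norm_nonneg a).eq_or_lt with h0 | hp
  · rw [← h0, mul_zero]
    positivity
  · refine le_of_mul_le_mul_right ?_ hp
    have c1 : Real.exp (s0 / 2) * ‖a‖ * ‖m.Φ g a‖ ≤ Real.exp (-σ / 2) * ‖a‖ * ‖a‖ :=
      mul_le_mul (mul_le_mul_of_nonneg_right b3 hp.le) b1 (norm_nonneg _) (by positivity)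
    have c2 := mul_le_mul_of_nonneg_left b2 hK
    nlinarith

theorem norm_Φ_sq {Γ : Set (H × H)} (m : HMod Γ) (g : ℝ →ᵇ ℂ) (α : H) :
    ‖m.Φ g α‖ ^ 2 = (⟪α, m.Φ (star g * g) α⟫_ℂ).re := by
  rw [m.Φ_mul_apply, ← m.inner_Φ]
  exact (inner_self_eq_norm_sq (𝕜 := ℂ) _).symm

theorem pos_le {Γ : Set (H × H)} (m : HMod Γ) {ι : Type} (S : Finset ι) (g : ι → ℝ →ᵇ ℂ)
    (b : ℝ →ᵇ ℂ) (h : ∀ s, ‖b s‖ ^ 2 ≤ ∑ j ∈ S, ‖g j s‖ ^ 2) (α : H) :
    ‖m.Φ b α‖ ^ 2 ≤ ∑ j ∈ S, ‖m.Φ (g j) α‖ ^ 2 := by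
  let r : ℝ →ᵇ ℂ := BoundedContinuousFunction.ofNormedAddCommGroup
    (fun s => ((Real.sqrt (∑ j ∈ S, ‖g j s‖ ^ 2 - ‖b s‖ ^ 2) : ℝ) : ℂ)) (by fun_prop)
    (Real.sqrt (∑ j ∈ S, ‖g j‖ ^ 2)) (fun s => by
      rw [Complex.norm_real, Real.norm_of_nonneg (Real.sqrt_nonneg _)]
      refine Real.sqrt_le_sqrt ((sub_le_self _ (sq_nonneg _)).trans ?_)
      exact Finset.sum_le_sum fun j _ =>
        pow_le_pow_left₀ (norm_nonneg _) ((g j).norm_coe_le_norm s) 2)
  have hn : ∀ z : ℂ, star z * z = ((‖z‖ ^ 2 : ℝ) : ℂ) := fun z => by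
    rw [RCLike.star_def, Complex.conj_mul']
    push_cast
    rfl
  have e : star b * b + star r * r = ∑ j ∈ S, star (g j) * g j := by
    ext s
    rw [BoundedContinuousFunction.sum_apply]
    simp only [BoundedContinuousFunction.add_apply, BoundedContinuousFunction.mul_apply,
      BoundedContinuousFunction.star_apply, hn]
    have : ‖r s‖ ^ 2 = ∑ j ∈ S, ‖g j s‖ ^ 2 - ‖b s‖ ^ 2 := by
      change ‖((Real.sqrt _ : ℝ) : ℂ)‖ ^ 2 = _
      rw [Complex.norm_real, Real.norm_of_nonneg (Real.sqrt_nonneg _),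
        Real.sq_sqrt (sub_nonneg.2 (h s))]
    rw [this]
    push_cast
    ring
  have e2 : ‖m.Φ b α‖ ^ 2 + ‖m.Φ r α‖ ^ 2 = ∑ j ∈ S, ‖m.Φ (g j) α‖ ^ 2 := by
    simp only [norm_Φ_sq]
    rw [← Complex.add_re, ← inner_add_right, ← add_apply, ← map_add, e, map_sum, sum_apply,
      inner_sum, Complex.re_sum]
  linarith [sq_nonneg ‖m.Φ r α‖]

theorem vanish_neg (hF : FiltStmt.{u}) (m : Mod M ξ) (hs : CycSep M ξ)
    (hE : ∀ l : ℝ, 1 < l → Eig m l) {α : H} {C : ℝ} (h : Lip m α C) (b : ℝ →ᵇ ℂ) (L σ : ℝ)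
    (hσ : 0 < σ) (hL : σ < L) (hb : ∀ s, b s ≠ 0 → -L ≤ s ∧ s ≤ -σ) : m.Φ b α = 0 := by
  obtain ⟨k, f, hk, hf, f0, f1⟩ := hF.2.1
  obtain ⟨c, c0, hc⟩ := Metric.continuousAt_iff.1 (f.continuous.continuousAt (x := 0)) (1 / 2)
    (by norm_num)
  have hfc : ∀ s, |s| ≤ c / 2 → 1 / 2 ≤ ‖f s‖ := fun s hs => by
    have := hc (x := s) (by rw [Real.dist_eq, sub_zero]; linarith)
    rw [f0, dist_eq_norm, norm_sub_rev] at this
    have h2 := norm_sub_norm_le (1 : ℂ) (f s)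
    rw [norm_one] at h2
    linarith
  set C1 := (∫ t, ‖k t‖) * |C| with hC1
  have C0 : 0 ≤ C1 := mul_nonneg (integral_nonneg fun t => norm_nonneg _) (abs_nonneg _)
  have e0 : 0 < 1 - Real.exp (-σ / 2) := sub_pos.2 (Real.exp_lt_one_iff.2 (by linarith))
  set K := 2 * (‖ξ‖ * C1) / (1 - Real.exp (-σ / 2)) with hK
  have K0 : 0 ≤ K := by positivity
  have loc : ∀ s0 κ : ℝ, 0 < κ → κ ≤ σ → s0 ≤ -σ → ‖m.Φ (resc f s0 κ) α‖ ≤ K * κ :=
    fun s0 κ hκ h1 h2 => by
      have := local_bd m hs hE C0 (resc f s0 κ) s0 κ σ hκ h1 h2 (fun s hs => f1 ((s - s0) / κ) (by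
        rw [abs_div, abs_of_pos hκ, le_div_iff₀ hκ, one_mul]
        exact hs)) (lip_resc hF m (lip_abs m h) k f hk hf s0 κ hκ)
      rw [hK, div_mul_eq_mul_div, le_div_iff₀ e0, mul_comm]
      exact this
  set T := 2 * (L - σ) / c with hT
  have T0 : 0 < T := by have := sub_pos.2 hL; positivity
  have bd : ∀ N : ℕ, 1 ≤ N → T / N ≤ σ →
      ‖m.Φ b α‖ ^ 2 ≤ 8 * ‖b‖ ^ 2 * K ^ 2 * T ^ 2 / N := fun N hN hNσ => by
    have N0 : (0 : ℝ) < N := by exact_mod_cast hN
    have N1 : (1 : ℝ) ≤ N := by exact_mod_cast hN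
    set d := (L - σ) / N with hd
    have d0 : 0 < d := by have := sub_pos.2 hL; positivity
    have hκ : 0 < T / N := by positivity
    have hp := pos_le m.toHMod (Finset.range (N + 1))
      (fun j => ((2 * ‖b‖ : ℝ) : ℂ) • resc f (-L + j * d) (T / N)) b (fun s => by
        by_cases hb0 : b s = 0
        · rw [hb0, norm_zero, zero_pow two_ne_zero]
          exact Finset.sum_nonneg fun j _ => sq_nonneg _
        obtain ⟨s1, s2⟩ := hb s hb0
        have r0 : 0 ≤ (s + L) / d := div_nonneg (by linarith) d0.le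
        have j1 := Nat.floor_le r0
        have j2 := Nat.lt_floor_add_one ((s + L) / d)
        have j3 : ⌊(s + L) / d⌋₊ ∈ Finset.range (N + 1) := by
          rw [Finset.mem_range, Nat.lt_succ_iff]
          refine Nat.floor_le_of_le ?_
          rw [div_le_iff₀ d0, hd, mul_div_cancel₀ _ N0.ne']
          linarith
        refine le_trans ?_ (Finset.single_le_sum (f := fun j : ℕ =>
          ‖(((2 * ‖b‖ : ℝ) : ℂ) • resc f (-L + j * d) (T / N)) s‖ ^ 2)
          (fun j _ => sq_nonneg _) j3)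
        refine pow_le_pow_left₀ (norm_nonneg _) ?_ 2
        rw [BoundedContinuousFunction.smul_apply, norm_smul, Complex.norm_real,
          Real.norm_of_nonneg (by positivity), resc_apply]
        rw [le_div_iff₀ d0] at j1
        rw [div_lt_iff₀ d0] at j2
        have := hfc ((s - (-L + ⌊(s + L) / d⌋₊ * d)) / (T / N)) (by
          rw [abs_div, abs_of_pos hκ, div_le_iff₀ hκ, abs_of_nonneg (by linarith)]
          have : c / 2 * (T / N) = d := by
            rw [hT, hd]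
            field_simp
          rw [this]
          linarith)
        nlinarith [b.norm_coe_le_norm s, norm_nonneg b]) α
    refine hp.trans ?_
    have : ∀ j ∈ Finset.range (N + 1),
        ‖m.Φ (((2 * ‖b‖ : ℝ) : ℂ) • resc f (-L + j * d) (T / N)) α‖ ^ 2 ≤
          (2 * ‖b‖ * (K * (T / N))) ^ 2 := fun j hj => by
      refine pow_le_pow_left₀ (norm_nonneg _) ?_ 2
      rw [map_smul, smul_apply, norm_smul, Complex.norm_real, Real.norm_of_nonneg (by positivity)]
      refine mul_le_mul_of_nonneg_left (loc _ _ hκ hNσ ?_) (by positivity)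
      have j1 : (j : ℝ) ≤ N := by exact_mod_cast Nat.lt_succ_iff.1 (Finset.mem_range.1 hj)
      have j2 : N * d = L - σ := by rw [hd, mul_div_cancel₀ _ N0.ne']
      nlinarith
    refine (Finset.sum_le_card_nsmul _ _ _ this).trans ?_
    rw [Finset.card_range, nsmul_eq_mul, le_div_iff₀ N0]
    push_cast
    have e : ((N : ℝ) + 1) * (2 * ‖b‖ * (K * (T / N))) ^ 2 * N =
        (4 * ‖b‖ ^ 2 * K ^ 2 * T ^ 2) * ((N + 1) / N) := by
      field_simp
      ring
    have e2 : ((N : ℝ) + 1) / N ≤ 2 := by rw [div_le_iff₀ N0]; linarith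
    rw [e]
    nlinarith [show 0 ≤ 4 * ‖b‖ ^ 2 * K ^ 2 * T ^ 2 by positivity]
  have lim : ‖m.Φ b α‖ ^ 2 ≤ 0 := by
    refine ge_of_tendsto (tendsto_const_div_atTop_nhds_zero_nat (8 * ‖b‖ ^ 2 * K ^ 2 * T ^ 2)) ?_
    filter_upwards [eventually_ge_atTop 1,
      (tendsto_const_div_atTop_nhds_zero_nat T).eventually (ge_mem_nhds hσ)] with N h1 h2
    exact bd N h1 h2
  exact norm_eq_zero.1 (pow_eq_zero_iff two_ne_zero |>.1 (le_antisymm lim (sq_nonneg _)))

theorem vanish_pos (hF : FiltStmt.{u}) (m : Mod M ξ) (hs : CycSep M ξ)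
    (hE : ∀ l : ℝ, 1 < l → Eig m l) {α : H} {C : ℝ} (h : Lip m α C) (b : ℝ →ᵇ ℂ) (L σ : ℝ)
    (hσ : 0 < σ) (hL : σ < L) (hb : ∀ s, b s ≠ 0 → σ ≤ s ∧ s ≤ L) : m.Φ b α = 0 := by
  let b' : ℝ →ᵇ ℂ := star (b.compContinuous ⟨fun s => -s, by fun_prop⟩)
  have hb' : ∀ s, b' s = conj (b (-s)) := fun s => rfl
  have h1 := vanish_neg hF m hs hE (lip_J m h) b' L σ hσ hL fun s hs => by
    have := hb (-s) (fun h0 => hs (by rw [hb', h0, map_zero]))
    constructor <;> linarith [this.1, this.2]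
  rw [← m.JΦ b b' hb'] at h1
  rw [← norm_eq_zero, ← m.J.norm_map, h1, norm_zero]

/-- The ramp vanishing on `(-∞, δ]` and equal to `1` on `[2 δ, ∞)`. -/
noncomputable def ramp (δ : ℝ) : ℝ →ᵇ ℂ :=
  BoundedContinuousFunction.ofNormedAddCommGroup
    (fun s => ((max 0 (min 1 (s / δ - 1)) : ℝ) : ℂ)) (by fun_prop) 1 (fun s => by
      rw [Complex.norm_real, Real.norm_eq_abs, abs_of_nonneg (le_max_left _ _)]
      exact max_le zero_le_one (min_le_left _ _))

theorem ramp_apply (δ s : ℝ) : ramp δ s = ((max 0 (min 1 (s / δ - 1)) : ℝ) : ℂ) := rfl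

theorem ramp_zero {δ s : ℝ} (hδ : 0 < δ) (h : s ≤ δ) : ramp δ s = 0 := by
  have : s / δ ≤ 1 := (div_le_one hδ).2 h
  rw [ramp_apply, max_eq_left ((min_le_right _ _).trans (by linarith)), Complex.ofReal_zero]

theorem ramp_one {δ s : ℝ} (hδ : 0 < δ) (h : 2 * δ ≤ s) : ramp δ s = 1 := by
  have : 2 ≤ s / δ := (le_div_iff₀ hδ).2 h
  rw [ramp_apply, min_eq_left (by linarith), max_eq_right zero_le_one, Complex.ofReal_one]

theorem norm_one_sub_ramp (δ s : ℝ) : ‖1 - ramp δ s‖ ≤ 1 := by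
  rw [ramp_apply, ← Complex.ofReal_one, ← Complex.ofReal_sub, Complex.norm_real, Real.norm_eq_abs,
    abs_le]
  have h1 := le_max_left 0 (min 1 (s / δ - 1))
  have h2 : max 0 (min 1 (s / δ - 1)) ≤ 1 := max_le zero_le_one (min_le_left _ _)
  constructor <;> linarith

theorem vanish (hF : FiltStmt.{u}) (m : Mod M ξ) (hs : CycSep M ξ)
    (hE : ∀ l : ℝ, 1 < l → Eig m l) {α : H} {C : ℝ} (h : Lip m α C) (F : ℝ →ᵇ ℂ) (L : ℝ)
    (F0 : F 0 = 0) (hL : ∀ s, L ≤ |s| → F s = 0) : m.Φ F α = 0 := by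
  rw [← norm_le_zero_iff]
  refine le_of_forall_pos_le_add fun ε hε => ?_
  have hA : 0 < ‖α‖ + 1 := by positivity
  obtain ⟨c, c0, hc⟩ := Metric.continuousAt_iff.1 (F.continuous.continuousAt (x := 0)) _
    (div_pos hε hA)
  set δ := c / 4 with hδ
  have δ0 : 0 < δ := by positivity
  let r' : ℝ →ᵇ ℂ := (ramp δ).compContinuous ⟨fun s => -s, by fun_prop⟩
  have hr' : ∀ s, r' s = ramp δ (-s) := fun s => rfl
  have hL' : δ < |L| + δ + 1 := by linarith [abs_nonneg L]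
  have h1 := vanish_pos hF m hs hE h (F * ramp δ) _ δ δ0 hL' fun s hs => by
    rw [BoundedContinuousFunction.mul_apply, mul_ne_zero_iff] at hs
    have a1 : ¬ s ≤ δ := fun h => hs.2 (ramp_zero δ0 h)
    have a2 : ¬ L ≤ |s| := fun h => hs.1 (hL s h)
    constructor <;> linarith [le_abs_self s, le_abs_self L, not_le.1 a1, not_le.1 a2]
  have h2 := vanish_neg hF m hs hE h (F * r') _ δ δ0 hL' fun s hs => by
    rw [BoundedContinuousFunction.mul_apply, mul_ne_zero_iff] at hs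
    have a1 : ¬ -s ≤ δ := fun h => hs.2 (ramp_zero δ0 h)
    have a2 : ¬ L ≤ |s| := fun h => hs.1 (hL s h)
    constructor <;> linarith [neg_abs_le s, le_abs_self L, not_le.1 a1, not_le.1 a2]
  have e : m.Φ F α = m.Φ (F - F * ramp δ - F * r') α := by
    rw [map_sub, map_sub, sub_apply, sub_apply, h1, h2, sub_zero, sub_zero]
  have hb : ‖F - F * ramp δ - F * r'‖ ≤ ε / (‖α‖ + 1) := by
    refine (BoundedContinuousFunction.norm_le (by positivity)).2 fun s => ?_
    simp only [BoundedContinuousFunction.sub_apply, BoundedContinuousFunction.mul_apply, hr']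
    have key : ∀ v : ℝ, |s| = v → ‖F s * (1 - ramp δ v)‖ ≤ ε / (‖α‖ + 1) := fun v hv => by
      by_cases hv2 : 2 * δ ≤ v
      · rw [ramp_one δ0 hv2, sub_self, mul_zero, norm_zero]
        positivity
      · have := hc (x := s) (by rw [Real.dist_eq, sub_zero, hv]; linarith [not_le.1 hv2])
        rw [F0, dist_zero_right] at this
        rw [norm_mul]
        exact (mul_le_of_le_one_right (norm_nonneg _) (norm_one_sub_ramp _ _)).trans this.le
    rcases le_total 0 s with h0 | h0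
    · have := key s (abs_of_nonneg h0)
      rw [ramp_zero δ0 (show -s ≤ δ by linarith), mul_zero, sub_zero]
      rwa [mul_sub, mul_one] at this
    · have := key (-s) (abs_of_nonpos h0)
      rw [ramp_zero δ0 (show s ≤ δ by linarith), mul_zero, sub_zero]
      rwa [mul_sub, mul_one] at this
  rw [e, zero_add]
  refine (m.norm_Φ_apply_le _ _).trans ((mul_le_mul_of_nonneg_right hb (norm_nonneg _)).trans ?_)
  rw [div_mul_eq_mul_div, div_le_iff₀ hA]
  nlinarith

end St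

theorem starS (hF : FiltStmt.{u}) : StarStmt.{u} := by
  intro H _ _ _ M ξ m hs hE α C h t
  rw [← sub_eq_zero]
  refine m.eq_zero_of_cut fun n => ?_
  have := St.vanish hF m hs hE h (chi n * (ex t - 1)) (n + 1) (by simp) fun s hs => by
    rw [BoundedContinuousFunction.mul_apply, chi_apply,
      max_eq_left ((min_le_right _ _).trans (by linarith)), Complex.ofReal_zero, zero_mul]
  rw [m.Φ_mul_apply, map_sub, map_one] at this
  exact this

end Vale.Agent.P132
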