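import Vale.Agent.P132.Stm
import Vale.Agent.P082.Struct

/-! Comparison of projections in countably decomposable type III factors. -/

namespace Vale.Agent.P132

open Vale.Agent.P104 Vale.Agent.P082 Finset

universe u

variable {K : Type u} [NormedAddCommGroup K] [InnerProductSpace ℂ K] [CompleteSpace K]
  {M : VonNeumannAlgebra K}

namespace C

theorem cen_one (h : IsFactor M) {z : Alg M} (hz : Cen z) (h0 : z ≠ 0) : z = 1 := by
  obtain ⟨c, hc⟩ := h z.1 z.2 fun x hx => congrArg Subtype.val (hz.comm ⟨x, hx⟩)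
  have e : z = c • 1 := Subtype.ext hc
  have c0 : c ≠ 0 := fun d => h0 (by rw [e, d, zero_smul])
  have h1 : c • z = c • 1 := by
    calc c • z = z * z := by nth_rw 2 [e]; rw [smul_mul_assoc, one_mul]
      _ = c • 1 := by rw [hz.proj.1.eq, e]
  exact smul_right_injective _ c0 h1

/-- The translates of a wandering projection are orthogonal. -/
theorem shift {A : Type*} [Ring A] [StarRing A] {e v q : A} (hq : IsStarProjection q)
    (h1 : star v * v = e) (h2 : e * v = v) (h3 : e * q = q) (h4 : q * v = 0) :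
    (∀ n : ℕ, e * (v ^ n * q) = v ^ n * q) ∧
      ∀ n m : ℕ, star (v ^ n * q) * (v ^ m * q) = if n = m then q else 0 := by
  have a : ∀ n : ℕ, e * (v ^ n * q) = v ^ n * q := by
    rintro (_ | n)
    · rw [pow_zero, one_mul, h3]
    · rw [pow_succ', ← mul_assoc, ← mul_assoc, h2]
  have b : ∀ m : ℕ, star (v ^ 0 * q) * (v ^ (m + 1) * q) = 0 := fun m => by
    rw [pow_zero, one_mul, hq.2.star_eq, pow_succ', ← mul_assoc, ← mul_assoc, h4, zero_mul,
      zero_mul]
  refine ⟨a, fun n => ?_⟩
  induction n with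
  | zero =>
    rintro (_ | m)
    · rw [pow_zero, one_mul, hq.2.star_eq, hq.1.eq, if_pos rfl]
    · rw [b, if_neg (by omega)]
  | succ n ih =>
    rintro (_ | m)
    · rw [if_neg (by omega), ← star_eq_zero, star_mul, star_star, b]
    · have : star (v ^ (n + 1) * q) * (v ^ (m + 1) * q) =
          star (v ^ n * q) * (star v * v * (v ^ m * q)) := by
        rw [pow_succ', pow_succ', mul_assoc v, star_mul v]
        simp only [mul_assoc]
      rw [this, h1, a, ih]
      simp

/-- Schroeder-Bernstein for the identity. -/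
theorem sb {e u : Alg M} (he : IsStarProjection e) (h1 : star u * u = 1) (h2 : e * u = u) :
    ∃ w : Alg M, star w * w = 1 ∧ w * star w = e := by
  obtain ⟨f, hf⟩ : ∃ f, f = 1 - e := ⟨_, rfl⟩
  have fp : IsStarProjection f := hf ▸ he.one_sub
  have fu : f * u = 0 := by rw [hf, sub_mul, one_mul, h2, sub_self]
  obtain ⟨-, t⟩ := shift fp h1 (one_mul u) (one_mul f) fu
  obtain ⟨p, p1, p2, p3⟩ := exists_psum (fun n : ℕ => u ^ n * f * star (u ^ n * f))
    (fun n => pi_fin (by rw [mul_assoc _ (star _), t, if_pos rfl, mul_assoc, fp.1.eq]))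
    fun n m c => by rw [mul_assoc, ← mul_assoc (star _), t, if_neg c, zero_mul, mul_zero]
  have f0 : u ^ 0 * f * star (u ^ 0 * f) = f := by rw [pow_zero, one_mul, fp.2.star_eq, fp.1.eq]
  have pf : p * f = f := by
    have := p3 0
    rwa [f0] at this
  have k : u * p * star u = p - f := by
    have a := ((p1.mul_left u).mul_right (star u)).congr
      (v' := fun n : ℕ => u ^ (n + 1) * f * star (u ^ (n + 1) * f)) fun n => by
        simp only [pow_succ', star_mul, mul_assoc]
    have b : SSum (fun n : ℕ => u ^ n * f * star (u ^ n * f)) (f + u * p * star u) := fun ξ => by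
      have := (hasSum_nat_add_iff
        (f := fun n : ℕ => (u ^ n * f * star (u ^ n * f)).1 ξ) 1).1 (a ξ)
      rwa [range_one, sum_singleton, f0, add_comm] at this
    rw [eq_sub_iff_add_eq, add_comm, ← p1.unique b]
  have k1 : u * p = (p - f) * u := by rw [← k, mul_assoc, h1, mul_one]
  have k2 : (1 - p) * (u * p) = 0 := by
    rw [k1, ← mul_assoc, sub_mul, one_mul, mul_sub, p2.1.eq, pf, sub_self, zero_mul]
  have k3 : p * star u * (1 - p) = 0 := by
    have := star_eq_zero_mul k2
    rwa [star_mul, p2.2.star_eq, p2.one_sub.2.star_eq] at this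
  have k4 : p * (1 - p) = 0 := by rw [mul_sub, p2.1.eq, mul_one, sub_self]
  have k5 : (1 - p) * p = 0 := by rw [sub_mul, p2.1.eq, one_mul, sub_self]
  refine ⟨u * p + (1 - p), ?_, ?_⟩
  · rw [star_add, star_mul, p2.2.star_eq, p2.one_sub.2.star_eq, add_mul, mul_add, mul_add, k2, k3,
      p2.one_sub.1.eq, mul_assoc p, ← mul_assoc (star u), h1, one_mul, p2.1.eq]
    abel
  · rw [star_add, star_mul, p2.2.star_eq, p2.one_sub.2.star_eq, add_mul, mul_add, mul_add,
      p2.one_sub.1.eq, mul_assoc u p (1 - p), k4, ← mul_assoc (1 - p), k5, mul_assoc u,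
      ← mul_assoc p, p2.1.eq, ← mul_assoc, k, hf, mul_zero, zero_mul]
    abel

/-- The identity embeds under infinitely many copies of a nonzero projection. -/
theorem embed {ξ : K} (hs : ∀ x ∈ M, x ξ = 0 → x = 0) (hF : IsFactor M) {e q : Alg M}
    (hq : IsStarProjection q) (q0 : q ≠ 0) (s : ℕ → Alg M) (s1 : ∀ n, e * s n = s n)
    (s2 : ∀ n m, star (s n) * s m = if n = m then q else 0) :
    ∃ u : Alg M, star u * u = 1 ∧ e * u = u := by
  classical
  obtain ⟨z, S, z1, z2, S1, S2, S3⟩ := cover q hq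
  obtain rfl : z = 1 := cen_one hF z1 fun c => q0 (by rw [← z2, c, zero_mul])
  have hc : Countable S := by
    rw [← Set.countable_univ_iff]
    refine ((S3 ξ).summable.countable_support.union
      (Set.Subsingleton.countable (s := {w : S | w.1 = 0}) fun a ha b hb =>
        Subtype.ext (ha.trans hb.symm))).mono fun w _ => ?_
    by_cases c : (w.1 * star w.1).1 ξ = 0
    · have : w.1 * star w.1 = 0 := Subtype.ext (hs _ (w.1 * star w.1).2 c)
      exact .inr (by rw [Set.mem_ofPred_eq, ← (S1 _ w.2).1, this, zero_mul])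
    · exact .inl c
  obtain ⟨φ, hφ⟩ := Countable.exists_injective_nat S
  obtain ⟨a, ha⟩ : ∃ a : S → Alg M, ∀ w, a w = s (φ w) * star w.1 := ⟨_, fun _ => rfl⟩
  have a1 : ∀ w w', star (a w) * a w' = if w = w' then w.1 * star w.1 else 0 := fun w w' => by
    rw [ha, ha, star_mul, star_star, mul_assoc, ← mul_assoc (star _), s2]
    by_cases c : w = w'
    · rw [if_pos c, if_pos (congrArg φ c), ← mul_assoc, (S1 _ w.2).2.1, c]
    · rw [if_neg c, if_neg fun d => c (hφ d), zero_mul, mul_zero]
  obtain ⟨u, hu⟩ := exists_ssum a (fun w w' c => by rw [a1, if_neg c]) fun t =>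
    norm_le_one_of_proj (by
      rw [star_sum, sum_mul_sum, sum_congr rfl fun o ho => sum_eq_single o
        (fun o' _ c => by rw [a1, if_neg c.symm]) fun c => absurd ho c]
      simp only [a1, if_true]
      exact proj_sumA t _ (fun w => pi_fin (S1 _ w.2).1) fun o o' c => by
        rw [mul_assoc, ← mul_assoc (star _), S2 _ o.2 _ o'.2 fun d => c (Subtype.ext d), zero_mul,
          mul_zero])
  refine ⟨u, hu.star_mul S3 fun w => ?_, (hu.mul_left e).unique (hu.congr fun w => ?_)⟩
  · have := (hu.mul_left (star (a w))).unique (ssum_single w fun w' c => by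
      rw [a1, if_neg c.symm])
    rw [this, a1, if_pos rfl]
  · rw [ha, ← mul_assoc, s1]

end C

theorem cmp : CmpStmt.{u} := by
  intro H _ _ _ M ξ hs hF h3 e eM he e0
  obtain ⟨v, vM, v1, v2, v3⟩ := h3 e eM he e0
  obtain ⟨e, rfl⟩ : ∃ a : Alg M, a.1 = e := ⟨⟨e, eM⟩, rfl⟩
  obtain ⟨v, rfl⟩ : ∃ a : Alg M, a.1 = v := ⟨⟨v, vM⟩, rfl⟩
  have hp : IsStarProjection e := proj_coe.2 he
  have w1 : star v * v = e := Subtype.ext v1
  have w2 : e * (v * star v) = v * star v := Subtype.ext v2
  have w3 : v * star v * v = v := pi_of_init (w1 ▸ hp)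
  have w4 : e * v = v := by rw [← w3, ← mul_assoc, w2]
  have hq := (pi_fin w3).sub_of_mul_eq_right hp w2
  obtain ⟨a, b⟩ := C.shift hq w1 w4 (by rw [mul_sub, hp.1.eq, w2])
    (by rw [sub_mul, w4, w3, sub_self])
  obtain ⟨u, u1, u2⟩ := C.embed hs hF hq
    (fun c => v3 (congrArg Subtype.val (sub_eq_zero.1 c).symm)) _ a b
  obtain ⟨w, h1, h2⟩ := C.sb hp u1 u2
  exact ⟨w.1, w.2, congrArg Subtype.val h1, congrArg Subtype.val h2⟩

end Vale.Agent.P132
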