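import Vale.Agent.P132.Basic
import Vale.Agent.P082.Base

/-! Tools for invariant Lipschitz vectors: truncations and spectral projections. -/

namespace Vale.Agent.P132.L

open scoped InnerProductSpace BoundedContinuousFunction ComplexConjugate ComplexOrder
open Filter Topology Vale.Agent.P104

universe u

theorem pert {A : Type*} [CStarAlgebra A] [PartialOrder A] [StarOrderedRing A] {x y : A}
    (hx : IsSelfAdjoint x) (x1 : ‖x‖ ≤ 1) (hy : IsSelfAdjoint y) (y1 : ‖y‖ ≤ 1 / 8) :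
    ‖x + (1 - x * x) * y * (1 - x * x)‖ ≤ 1 := by
  have hh : ∀ x : A, IsSelfAdjoint x → IsSelfAdjoint (1 - x * x) := fun x hx => by
    rw [IsSelfAdjoint, star_sub, star_one, star_mul, hx.star_eq]
  have key : ∀ x y : A, IsSelfAdjoint x → ‖x‖ ≤ 1 → IsSelfAdjoint y → ‖y‖ ≤ 1 / 8 →
      x + (1 - x * x) * y * (1 - x * x) ≤ 1 := fun x y hx x1 hy y1 => by
    have h1 := CStarAlgebra.star_left_conjugate_le_norm_smul (a := 1 - x * x) hy
    have h2 : ‖y‖ • (star (1 - x * x) * (1 - x * x)) ≤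
        (1 / 8 : ℝ) • (star (1 - x * x) * (1 - x * x)) :=
      smul_le_smul_of_nonneg_right y1 (star_mul_self_nonneg _)
    rw [(hh x hx).star_eq] at h1 h2
    have h3 : x + (1 / 8 : ℝ) • ((1 - x * x) * (1 - x * x)) =
        cfc (fun t : ℝ => t + (1 / 8 : ℝ) • ((1 - t * t) * (1 - t * t))) x := by
      rw [cfc_add x _ _, cfc_smul _ _ x, cfc_mul _ _ x, cfc_sub _ _ x, cfc_mul _ _ x, cfc_id' ℝ x,
        cfc_const_one ℝ x]
    refine (add_le_add le_rfl (h1.trans h2)).trans (h3 ▸ cfc_le_one _ _ fun t ht => ?_)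
    rcases subsingleton_or_nontrivial A with _ | _
    · simp [spectrum.of_subsingleton] at ht
    have := abs_le.1 ((spectrum.norm_le_norm_of_mem ht).trans x1)
    have a1 : (1 + t) * (1 + t) * (1 - t) ≤ 8 := by nlinarith
    rw [smul_eq_mul]
    nlinarith [mul_le_mul_of_nonneg_left a1 (sub_nonneg.2 this.2)]
  have hz : IsSelfAdjoint (x + (1 - x * x) * y * (1 - x * x)) := hx.add (by
    have := hy.conjugate' (1 - x * x)
    rwa [(hh x hx).star_eq] at this)
  have k1 := key x y hx x1 hy y1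
  have k2 := key (-x) (-y) hx.neg (by rwa [norm_neg]) hy.neg (by rwa [norm_neg])
  rw [neg_mul_neg, mul_neg, neg_mul, ← neg_add, neg_le] at k2
  rw [← cfc_id' ℝ _ hz]
  refine norm_cfc_le zero_le_one fun t ht => abs_le.2 ⟨?_, ?_⟩
  · exact (algebraMap_le_iff_le_spectrum hz).1 (by rwa [map_neg, map_one]) t ht
  · exact (le_algebraMap_iff_spectrum_le hz).1 (by rwa [map_one]) t ht

variable {H : Type u} [NormedAddCommGroup H] [InnerProductSpace ℂ H] [CompleteSpace H]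

theorem ex_range {a : H →L[ℂ] H} (ha : IsSelfAdjoint a) : ∃ e : H →L[ℂ] H, IsStarProjection e ∧
    e * a = a ∧ (∀ v, a v = 0 → e v = 0) ∧ (∀ p, p * a = 0 → p * e = 0) ∧
    ∀ y, Commute a y → Commute a (star y) → y * e = e * y := by
  let n := a.ker.starProjection
  have hn : IsStarProjection n := isStarProjection_starProjection
  have h1 : ∀ v, a v = 0 → n v = v := fun v hv => Submodule.starProjection_eq_self_iff.2 hv
  have h2 : a * n = 0 := ContinuousLinearMap.ext fun v => a.ker.starProjection_apply_mem v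
  have h3 : ∀ z, a * z = 0 → n * z = z := fun z hz =>
    ContinuousLinearMap.ext fun v => h1 _ (DFunLike.congr_fun hz v)
  have h4 : ∀ y, Commute a y → n * (y * n) = y * n := fun y hy =>
    h3 _ (by rw [← mul_assoc, hy.eq, mul_assoc, h2, mul_zero])
  refine ⟨1 - n, hn.one_sub, ?_, fun v hv => by simp [h1 v hv], fun p hp => ?_, fun y a1 a2 => ?_⟩
  · have := congrArg star h2
    rw [star_mul, hn.isSelfAdjoint.star_eq, ha.star_eq, star_zero] at this
    rw [sub_mul, this, one_mul, sub_zero]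
  · have := congrArg star (h3 (star p) (by rw [← ha.star_eq, ← star_mul, hp, star_zero]))
    rw [star_mul, star_star, hn.isSelfAdjoint.star_eq] at this
    rw [mul_sub, this, mul_one, sub_self]
  · have := congrArg star (h4 _ a2)
    simp only [star_mul, star_star, hn.isSelfAdjoint.star_eq] at this
    rw [mul_sub, sub_mul, mul_one, one_mul, ← h4 y a1, ← mul_assoc, this]

variable {M : VonNeumannAlgebra H} {ξ : H}

theorem ex_proj {x : H →L[ℂ] H} (hx : IsSelfAdjoint x) {r γ : ℝ} (hr : r ∈ spectrum ℝ x)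
    (r1 : r * r ≠ 1) (γ0 : 0 < γ) : ∃ e : H →L[ℂ] H, IsStarProjection e ∧ e ≠ 0 ∧
      (∀ v, (1 - x * x) v = 0 → e v = 0) ∧ ‖(x - (r : ℂ) • 1) * e‖ ≤ γ ∧
      ∀ y, Commute x y → Commute x (star y) → y * e = e * y := by
  let k : ℝ → ℝ := fun t => max 0 (γ - |t - r|) * (1 - t * t)
  have kc : Continuous k := by fun_prop
  obtain ⟨e, e1, e2, e3, e4, e5⟩ := ex_range (a := cfc k x) (cfc_predicate k x)
  refine ⟨e, e1, fun h => ?_, fun v hv => e3 v ?_, ?_, fun y a1 a2 =>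
    e5 y (a1.cfc_real k) (a2.cfc_real k)⟩
  · have := norm_apply_le_norm_cfc k x hr
    rw [← e2, h, zero_mul, norm_zero, norm_le_zero_iff] at this
    simp [k, γ0.le, γ0.ne', sub_eq_zero, r1.symm] at this
  · rw [cfc_mul _ _ x, cfc_sub _ _ x, cfc_mul _ _ x, cfc_id' ℝ x, cfc_const_one ℝ x,
      mul_apply_eq_comp, hv, map_zero]
  · let q : ℝ → ℝ := fun t => max (-γ) (min γ (t - r))
    have e6 : x - (r : ℂ) • 1 = cfc (fun t : ℝ => t - r) x := by
      rw [cfc_sub _ _ x, cfc_id' ℝ x, cfc_const r x, Algebra.algebraMap_eq_smul_one,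
        Complex.coe_smul]
    have e7 := e4 (x - (r : ℂ) • 1 - cfc q x) (by
      rw [e6, ← cfc_sub _ _ x, ← cfc_mul _ _ x, ← cfc_zero ℝ x]
      refine cfc_congr fun t _ => ?_
      rcases le_total γ |t - r| with h | h
      · simp [k, h]
      · have := abs_le.1 h
        simp [q, this.1, this.2])
    rw [sub_mul, sub_eq_zero] at e7
    rw [e7]
    refine (norm_mul_le _ _).trans ((mul_le_of_le_one_right (norm_nonneg _) e1.norm_le).trans
      (norm_cfc_le γ0.le fun t _ => abs_le.2 ⟨le_max_left _ _, max_le (by linarith) (min_le_left _ _)⟩))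

theorem ex_min (M : VonNeumannAlgebra H) (ξ α : H) : ∃ x ∈ M, IsSelfAdjoint x ∧ ‖x‖ ≤ 1 ∧
    ∀ y ∈ M, IsSelfAdjoint y → ‖y‖ ≤ 1 → ‖α - x ξ‖ ≤ ‖α - y ξ‖ := by
  let S : Set ℝ := {d | ∃ y ∈ M, IsSelfAdjoint y ∧ ‖y‖ ≤ 1 ∧ d = ‖α - y ξ‖}
  have hb : BddBelow S := ⟨0, by rintro _ ⟨y, -, -, -, rfl⟩; positivity⟩
  obtain ⟨d, -, d1, d2⟩ := exists_seq_tendsto_sInf (S := S)
    ⟨_, 0, zero_mem M, IsSelfAdjoint.zero _, by simp, rfl⟩ hb
  choose y y1 y2 y3 y4 using d2
  let U := hyperfilter ℕ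
  have hy : ∀ n, ‖(⟨y n, y1 n⟩ : P082.Alg M)‖ ≤ 1 := y3
  have w1 := P082.wlim_spec (U := U) hy
  have w2 := P082.wlim_norm_le (U := U) hy
  generalize P082.wlim U (fun n => (⟨y n, y1 n⟩ : P082.Alg M)) = w at w1 w2
  refine ⟨w.1, w.2, ?_, w2, fun z z1 z2 z3 => le_trans ?_ (csInf_le hb ⟨z, z1, z2, z3, rfl⟩)⟩
  · refine ContinuousLinearMap.isSelfAdjoint_iff_isSymmetric.2 fun a b => ?_
    have := (Complex.continuous_conj.tendsto _).comp (w1 a b)
    rw [inner_conj_symm] at this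
    refine tendsto_nhds_unique this ((w1 b a).congr fun n => ?_)
    exact ((inner_conj_symm _ _).trans
      (ContinuousLinearMap.isSelfAdjoint_iff_isSymmetric.1 (y2 n) a b)).symm
  · have t1 := ((w1 ξ (α - w.1 ξ)).const_sub ⟪α - w.1 ξ, α⟫_ℂ).norm
    have t2 := (d1.mono_left Nat.hyperfilter_le_atTop).const_mul ‖α - w.1 ξ‖
    have t3 := le_of_tendsto_of_tendsto' t1 t2 fun n => by
      rw [← inner_sub_right, y4]
      exact norm_inner_le_norm _ _
    rw [← inner_sub_right, inner_self_eq_norm_sq_to_K, norm_pow, RCLike.norm_ofReal, abs_norm,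
      sq] at t3
    rcases (norm_nonneg (α - w.1 ξ)).eq_or_lt with h | h
    · exact h ▸ le_csInf ⟨_, z, z1, z2, z3, rfl⟩ (by rintro _ ⟨y, -, -, -, rfl⟩; positivity)
    · exact le_of_mul_le_mul_left t3 h

omit [CompleteSpace H] in
theorem re_zero {b v : H} {ε : ℝ} (hε : 0 < ε) (h : ∀ s : ℝ, |s| ≤ ε → ‖b‖ ≤ ‖b - (s : ℂ) • v‖) :
    (⟪b, v⟫_ℂ).re = 0 := by
  have key : ∀ s : ℝ, |s| ≤ ε → 2 * s * (⟪b, v⟫_ℂ).re ≤ s ^ 2 * ‖v‖ ^ 2 := fun s hs => by
    have h1 := pow_le_pow_left₀ (norm_nonneg _) (h s hs) 2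
    rw [norm_sub_sq (𝕜 := ℂ), inner_smul_right, norm_smul, mul_pow, Complex.norm_real,
      Real.norm_eq_abs, sq_abs] at h1
    simp only [RCLike.re_to_complex, Complex.re_ofReal_mul] at h1
    linarith
  generalize (⟪b, v⟫_ℂ).re = p at key
  by_contra hp
  have p0 : 0 < |p| := abs_pos.2 hp
  obtain ⟨c, c0, c1, c2⟩ : ∃ c : ℝ, 0 < c ∧ c * |p| ≤ ε ∧ c * ‖v‖ ^ 2 ≤ 1 := by
    refine ⟨min (ε / |p|) (1 / (‖v‖ ^ 2 + 1)), by positivity, ?_, ?_⟩
    · exact (le_div_iff₀ p0).1 (min_le_left _ _)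
    · have := (le_div_iff₀ (by positivity)).1 (min_le_right (ε / |p|) (1 / (‖v‖ ^ 2 + 1)))
      have h0 : 0 < min (ε / |p|) (1 / (‖v‖ ^ 2 + 1)) := by positivity
      nlinarith
  have := key (c * p) (by rwa [abs_mul, abs_of_pos c0])
  have q : 0 < c * p ^ 2 := by positivity
  nlinarith [mul_le_mul_of_nonneg_left c2 q.le]

/-- The cutoff multiplied by `exp (s / 2)`. -/
theorem ex_half (n : ℕ) : ∃ g : ℝ →ᵇ ℂ, ∀ s, g s = chi n s * (Real.exp (s / 2) : ℝ) := by
  refine ⟨BoundedContinuousFunction.ofNormedAddCommGroup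
    (fun s => chi n s * (Real.exp (s / 2) : ℝ)) (by fun_prop) (Real.exp ((n + 1) / 2)) fun s => ?_,
    fun _ => rfl⟩
  rw [norm_mul, chi_apply, Complex.norm_real, Complex.norm_real, Real.norm_of_nonneg
    (le_max_left _ _), Real.norm_of_nonneg (Real.exp_pos _).le]
  rcases le_total s (n + 1) with h | h
  · exact (mul_le_of_le_one_left (Real.exp_pos _).le
      (max_le zero_le_one (min_le_left _ _))).trans (Real.exp_le_exp.2 (by linarith))
  · rw [max_eq_left ((min_le_right _ _).trans (by linarith [le_abs_self s])), zero_mul]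
    positivity

theorem chi_zero (n : ℕ) : chi n 0 = 1 := by
  simp [chi_apply]

theorem R_fix (hF : FiltStmt.{u}) (m : Mod M ξ) {z : H →L[ℂ] H} (hz : z ∈ M)
    (h : ∀ t, m.U t * z = z * m.U t) : m.R z ξ = z ξ := by
  refine tendsto_nhds_unique (m.cut _) (tendsto_const_nhds.congr fun n => ?_)
  obtain ⟨g, hg⟩ := ex_half n
  rw [m.Φ_R_ξ hz _ g hg, inv_fix hF m.toHMod (fun t => by
    rw [← mul_apply_eq_comp, h, mul_apply_eq_comp, m.U_ξ]), hg, chi_zero]
  simp

theorem zero_of_perp (hF : FiltStmt.{u}) (m : Mod M ξ) {c : H} (h1 : m.J c = c)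
    (h2 : ∀ t, m.U t c = c) (h3 : ∀ y ∈ M, IsSelfAdjoint y → (⟪c, y ξ⟫_ℂ).re = 0) : c = 0 := by
  obtain ⟨g, hg⟩ := ex_half 0
  have k1 := m.core _ g hg c
  rw [inv_fix hF m.toHMod h2, inv_fix hF m.toHMod h2, hg, chi_zero] at k1
  have k2 := closure_minimal (t := {p : H × H | (⟪c, p.1 + p.2⟫_ℂ).re = 0}) (by
    rintro _ ⟨x, hx, rfl⟩
    exact h3 (x + star x) (add_mem hx (star_mem hx)) (IsSelfAdjoint.add_star_self x))
    (isClosed_eq (by fun_prop) continuous_const) k1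
  have k3 := inner_self_eq_norm_sq (𝕜 := ℂ) c
  simp [h1] at k2 k3
  exact norm_eq_zero.1 (by nlinarith [norm_nonneg c])

end Vale.Agent.P132.L
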