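import Mathlib

/-! Definitions used in the statement of the bicentralizer theorem. -/

namespace Vale.Agent.P132

open scoped InnerProductSpace
open Filter Topology

variable {H : Type*} [NormedAddCommGroup H] [InnerProductSpace ℂ H] [CompleteSpace H]

/-- `ξ` is cyclic and separating for `M`. -/
def CycSep (M : VonNeumannAlgebra H) (ξ : H) : Prop :=
  Dense {η | ∃ x ∈ M, x ξ = η} ∧ ∀ x ∈ M, x ξ = 0 → x = 0

/-- The graph of the Tomita operator `S`, the closure of `x ξ ↦ x* ξ`. -/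
def graphS (M : VonNeumannAlgebra H) (ξ : H) : Set (H × H) :=
  closure {p | ∃ x ∈ M, p = (x ξ, star x ξ)}

/-- The graph of the modular operator `Δ = S* S`: `(η, θ)` with `η ∈ D(S)` and
`⟪η', θ⟫ = ⟪S η, S η'⟫` for all `η' ∈ D(S)`. -/
def graphDelta (M : VonNeumannAlgebra H) (ξ : H) : Set (H × H) :=
  {p | ∃ κ, (p.1, κ) ∈ graphS M ξ ∧ ∀ q ∈ graphS M ξ, ⟪q.1, p.2⟫_ℂ = ⟪κ, q.2⟫_ℂ}

/-- The spectrum of `Δ`: the real numbers `l` such that `Δ - l` is not bijective. -/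
def modSpec (M : VonNeumannAlgebra H) (ξ : H) : Set ℝ :=
  {l | ¬ ∀ θ : H, ∃! η : H, (η, θ + (l : ℂ) • η) ∈ graphDelta M ξ}

/-- `M` has trivial centre. -/
def IsFactor (M : VonNeumannAlgebra H) : Prop :=
  ∀ z ∈ M, (∀ x ∈ M, z * x = x * z) → ∃ c : ℂ, z = c • (1 : H →L[ℂ] H)

/-- `M` has no nonzero finite projection. -/
def IsTypeIII (M : VonNeumannAlgebra H) : Prop :=
  ∀ e ∈ M, IsStarProjection e → e ≠ 0 →
    ∃ v ∈ M, star v * v = e ∧ e * (v * star v) = v * star v ∧ v * star v ≠ e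

/-- A type III factor all of whose modular operators have spectrum containing `[0, ∞)`. -/
def IsFactorIII1 (M : VonNeumannAlgebra H) : Prop :=
  IsFactor M ∧ IsTypeIII M ∧ ∀ ζ : H, CycSep M ζ → ∀ l : ℝ, 0 ≤ l → l ∈ modSpec M ζ

/-- A bounded sequence `w` in `M` with `‖w n φ - φ (w n)‖ → 0`, for `φ = ⟪ξ, · ξ⟫`. -/
def AsympCentral (M : VonNeumannAlgebra H) (ξ : H) (w : ℕ → H →L[ℂ] H) : Prop :=
  (∀ n, w n ∈ M) ∧ (∃ C : ℝ, ∀ n, ‖w n‖ ≤ C) ∧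
    ∀ ε : ℝ, 0 < ε → ∀ᶠ n in atTop, ∀ y ∈ M,
      ‖⟪ξ, (y * w n) ξ⟫_ℂ - ⟪ξ, (w n * y) ξ⟫_ℂ‖ ≤ ε * ‖y‖

/-- Connes' bicentralizer of the state `⟪ξ, · ξ⟫` on `M`. -/
def bicentralizer (M : VonNeumannAlgebra H) (ξ : H) : Set (H →L[ℂ] H) :=
  {a | a ∈ M ∧ ∀ w, AsympCentral M ξ w →
    ∀ η : H, Tendsto (fun n => (a * w n - w n * a) η) atTop (𝓝 0)}

end Vale.Agent.P132
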