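import Vale.Agent.P132.Jc

/-! Averaging over unitaries that almost commute with the vector. -/

namespace Vale.Agent.P132

open scoped InnerProductSpace BoundedContinuousFunction ComplexConjugate
open Filter Topology MeasureTheory

universe u

variable {H : Type u} [NormedAddCommGroup H] [InnerProductSpace ℂ H] [CompleteSpace H]
variable {M : VonNeumannAlgebra H} {ξ ζ : H}

theorem Mod.inner_R_nonneg (m : Mod M ξ) {y : H →L[ℂ] H} (hy : y ∈ M) :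
    0 ≤ (⟪y ξ, m.R y ξ⟫_ℂ).re ∧ (⟪y ξ, m.R y ξ⟫_ℂ).im = 0 := by
  have hcl : IsClosed {z : ℂ | 0 ≤ z.re ∧ z.im = 0} :=
    (isClosed_le continuous_const Complex.continuous_re).inter
      (isClosed_eq Complex.continuous_im continuous_const)
  have ht : Tendsto (fun n => ⟪m.Φ (chi n) (y ξ), m.Φ (chi n) (m.R y ξ)⟫_ℂ) atTop
      (𝓝 ⟪y ξ, m.R y ξ⟫_ℂ) := (m.cut _).inner (m.cut _)
  refine hcl.mem_of_tendsto ht (Eventually.of_forall fun n => ?_)
  have e : ⟪m.Φ (chi n) (y ξ), m.Φ (chi n) (m.R y ξ)⟫_ℂ =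
      ⟪m.Φ (cm n (fun s => ((Real.exp (s / 4) : ℝ) : ℂ)) (by fun_prop)) (y ξ),
        m.Φ (cm n (fun s => ((Real.exp (s / 4) : ℝ) : ℂ)) (by fun_prop)) (y ξ)⟫_ℂ := by
    rw [m.Φ_R_ξ hy (chi n) (cm n (fun s => ((Real.exp (s / 2) : ℝ) : ℂ)) (by fun_prop))
      (fun s => rfl), m.inner_Φ, m.inner_Φ, ← m.Φ_mul_apply, ← m.Φ_mul_apply]
    congr 3
    ext s
    have e1 : Real.exp (s / 2) = Real.exp (s / 4) * Real.exp (s / 4) := by
      rw [← Real.exp_add]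
      congr 1
      ring
    simp only [BoundedContinuousFunction.mul_apply, BoundedContinuousFunction.star_apply, cm_apply,
      chi_apply, RCLike.star_def, map_mul, Complex.conj_ofReal, e1, Complex.ofReal_mul]
    ring
  rw [e]
  exact ⟨inner_self_nonneg (𝕜 := ℂ), inner_self_im (𝕜 := ℂ) _⟩

theorem HMod.U_fix_of_half {Γ : Set (H × H)} (m : HMod Γ) {β : H} (h : (β, β) ∈ Γ)
    (hJ : m.J β = β) (t : ℝ) : m.U t β = β := by
  let a : ℝ → ℂ := dslope (fun s : ℝ => ex t s) 0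
  let b : ℝ → ℝ := dslope (fun s : ℝ => Real.exp (s / 2)) 0
  have ha : Continuous a := by
    rw [← continuousOn_univ, continuousOn_dslope univ_mem]
    refine ⟨(ex t).continuous.continuousOn, ?_⟩
    simp only [ex_apply, Complex.ofReal_mul]
    exact ((Complex.ofRealCLM.differentiableAt.const_mul (t : ℂ)).mul_const _).cexp
  have hd : HasDerivAt (fun s : ℝ => Real.exp (s / 2)) (Real.exp (0 / 2) * (1 / 2)) 0 :=
    ((hasDerivAt_id (0 : ℝ)).div_const 2).exp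
  have hb : Continuous b := by
    rw [← continuousOn_univ, continuousOn_dslope univ_mem]
    exact ⟨by fun_prop, hd.differentiableAt⟩
  have ea : ∀ s : ℝ, (s : ℂ) * a s = ex t s - 1 := fun s => by
    have := sub_smul_dslope (fun s : ℝ => ex t s) 0 s
    simpa [a] using this
  have eb : ∀ s : ℝ, s * b s = Real.exp (s / 2) - 1 := fun s => by
    have := sub_smul_dslope (fun s : ℝ => Real.exp (s / 2)) 0 s
    simpa [b] using this
  have hb0 : ∀ s, b s ≠ 0 := fun s hs => by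
    by_cases h0 : s = 0
    · subst h0
      have : b 0 = Real.exp (0 / 2) * (1 / 2) := by
        change dslope _ _ _ = _
        rw [dslope_same, hd.deriv]
      rw [this] at hs
      exact absurd hs (by positivity)
    · have := eb s
      rw [hs, mul_zero, eq_comm, sub_eq_zero, Real.exp_eq_one_iff] at this
      exact h0 (by linarith)
  have hc : Continuous fun s => a s / (b s : ℂ) :=
    ha.div (Complex.continuous_ofReal.comp hb) fun s => by exact_mod_cast hb0 s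
  rw [← sub_eq_zero]
  refine m.eq_zero_of_cut fun n => ?_
  have h1 := m.graph _ h (cm n _ hc)
    (cm n (fun s => a s / (b s : ℂ) * (Real.exp (s / 2) : ℝ)) (hc.mul (by fun_prop)))
    (fun s => by rw [cm_apply, cm_apply, mul_assoc])
  have e : chi n * (ex t - 1) =
      cm n (fun s => a s / (b s : ℂ) * (Real.exp (s / 2) : ℝ)) (hc.mul (by fun_prop)) -
        cm n _ hc := by
    ext s
    have h2 : ((Real.exp (s / 2) : ℝ) : ℂ) = s * b s + 1 := by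
      rw [← Complex.ofReal_mul, eb]
      push_cast
      ring
    have h3 : (b s : ℂ) ≠ 0 := by exact_mod_cast hb0 s
    rw [BoundedContinuousFunction.mul_apply, BoundedContinuousFunction.sub_apply,
      BoundedContinuousFunction.sub_apply, cm_apply, cm_apply, h2,
      BoundedContinuousFunction.coe_one, Pi.one_apply, ← ea]
    field_simp
    ring
  have e2 : m.Φ (chi n) (m.U t β - β) = m.Φ (chi n * (ex t - 1)) β := by
    rw [m.Φ_mul_apply, map_sub m.Φ, map_one]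
    rfl
  rw [e2, e, map_sub, ContinuousLinearMap.sub_apply, ← h1]
  simp only [hJ, sub_self]

theorem HMod.R_unitary {Γ : Set (H × H)} (m : HMod Γ) {u : H →L[ℂ] H}
    (hu : u ∈ unitary (H →L[ℂ] H)) : m.R u ∈ unitary (H →L[ℂ] H) :=
  ⟨by rw [← m.R_star, ← m.R_mul, hu.2, m.R_one], by rw [← m.R_star, ← m.R_mul, hu.1, m.R_one]⟩

theorem norm_unitE {u : H →L[ℂ] H} (hu : u ∈ unitary (H →L[ℂ] H)) (η : H) : ‖u η‖ = ‖η‖ :=
  Unitary.norm_map ⟨u, hu⟩ η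

theorem inner_unitE {u : H →L[ℂ] H} (hu : u ∈ unitary (H →L[ℂ] H)) (a b : H) :
    ⟪u a, u b⟫_ℂ = ⟪a, b⟫_ℂ := by
  rw [← ContinuousLinearMap.adjoint_inner_right, ← ContinuousLinearMap.star_eq_adjoint,
    ← mul_apply_eq_comp, hu.1, one_apply_eq_self]

theorem sum_le_of_sq {ι : Type} [Fintype ι] {t a : ι → ℝ} {γ : ℝ} (ht : ∀ i, 0 ≤ t i)
    (h1 : ∑ i, t i = 1) (hγ : 0 < γ) (h : ∑ i, t i * a i ^ 2 ≤ γ ^ 2) : ∑ i, t i * a i ≤ γ := by
  have h2 : 2 * γ * ∑ i, t i * a i ≤ ∑ i, t i * a i ^ 2 + γ ^ 2 * ∑ i, t i := by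
    rw [Finset.mul_sum, Finset.mul_sum, ← Finset.sum_add_distrib]
    refine Finset.sum_le_sum fun i _ => ?_
    nlinarith [mul_nonneg (ht i) (sq_nonneg (a i - γ))]
  rw [h1] at h2
  nlinarith

omit [CompleteSpace H] in
theorem norm_avg_le {ι : Type} [Fintype ι] {t a : ι → ℝ} (ht : ∀ i, 0 ≤ t i) {x : ι → H}
    (h : ∀ i, ‖x i‖ ≤ a i) : ‖∑ i, (t i : ℂ) • x i‖ ≤ ∑ i, t i * a i := by
  refine (norm_sum_le _ _).trans (Finset.sum_le_sum fun i _ => ?_)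
  rw [norm_smul, Complex.norm_real, Real.norm_eq_abs, abs_of_nonneg (ht i)]
  exact mul_le_mul_of_nonneg_left (h i) (ht i)

omit [CompleteSpace H] in
theorem avg_sub {ι : Type} [Fintype ι] {t : ι → ℝ} (h1 : ∑ i, t i = 1) (x : ι → H) (η : H) :
    ∑ i, (t i : ℂ) • x i - η = ∑ i, (t i : ℂ) • (x i - η) := by
  simp only [smul_sub, Finset.sum_sub_distrib]
  rw [← Finset.sum_smul, ← Complex.ofReal_sum, h1, Complex.ofReal_one, one_smul]

omit [CompleteSpace H] in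
theorem avg_sq_le {ι : Type} [Fintype ι] {t : ι → ℝ} (h1 : ∑ i, t i = 1) {x : ι → H}
    (hx : ∀ i, ‖x i‖ = ‖ζ‖) :
    ∑ i, t i * ‖x i - ζ‖ ^ 2 ≤ 2 * ‖ζ‖ * ‖∑ i, (t i : ℂ) • x i - ζ‖ := by
  have e : ∑ i, t i * ‖x i - ζ‖ ^ 2 = -2 * (⟪ζ, ∑ i, (t i : ℂ) • x i - ζ⟫_ℂ).re := by
    rw [avg_sub h1, inner_sum, Complex.re_sum, Finset.mul_sum]
    refine Finset.sum_congr rfl fun i _ => ?_
    have h2 := norm_sub_sq (𝕜 := ℂ) ζ (x i)
    have h3 := inner_self_eq_norm_sq (𝕜 := ℂ) ζ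
    rw [norm_sub_rev, h2, inner_smul_right, Complex.re_ofReal_mul, inner_sub_right,
      Complex.sub_re, hx]
    simp only [RCLike.re_to_complex] at h3 ⊢
    rw [h3]
    ring
  rw [e]
  have h4 := (Complex.abs_re_le_norm _).trans
    (norm_inner_le_norm (𝕜 := ℂ) ζ (∑ i, (t i : ℂ) • x i - ζ))
  linarith [neg_abs_le (⟪ζ, ∑ i, (t i : ℂ) • x i - ζ⟫_ℂ).re]

/-- One sided averaging. -/
theorem avg1 (m : Mod M ζ) {q : H →L[ℂ] H} (hq : q ∈ M) (hq1 : ‖q‖ ≤ 1) {c0 : ℂ}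
    (hc0 : ⟪ζ, q ζ⟫_ℂ = ⟪ζ, c0 • ζ⟫_ℂ)
    (h : ∀ δ : ℝ, 0 < δ → ∃ (c : ℂ) (ψ : H),
      (c • ζ, ψ) ∈ closure (convexHull ℝ (orb m (q ζ))) ∧ ‖ψ - ζ‖ ≤ δ) {ε : ℝ} (hε : 0 < ε) :
    ∃ (ι : Type) (_ : Fintype ι) (t : ι → ℝ) (u : ι → H →L[ℂ] H), (∀ i, 0 ≤ t i) ∧
      ∑ i, t i = 1 ∧ (∀ i, u i ∈ M) ∧ (∀ i, u i ∈ unitary (H →L[ℂ] H)) ∧
      ∑ i, t i * ‖u i ζ - m.R (u i) ζ‖ ≤ ε ∧
      ‖(∑ i, (t i : ℂ) • (u i * q * star (u i))) ζ - c0 • ζ‖ ≤ ε := by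
  obtain ⟨γ, hγ, rfl⟩ : ∃ γ : ℝ, 0 < γ ∧ ε = 4 * γ := ⟨ε / 4, by positivity, by ring⟩
  have hZ : 0 < 4 * ‖ζ‖ + 1 := by positivity
  obtain ⟨δ, hδ, hδ1, hδ2⟩ : ∃ δ : ℝ, 0 < δ ∧ δ ≤ γ ∧ δ * (4 * ‖ζ‖ + 1) ≤ γ ^ 2 :=
    ⟨min γ (γ ^ 2 / (4 * ‖ζ‖ + 1)), by positivity, min_le_left _ _,
      (le_div_iff₀ hZ).1 (min_le_right _ _)⟩
  obtain ⟨c, ψ, hmem, hψ⟩ := h δ hδ
  obtain ⟨P, hP, hd⟩ := Metric.mem_closure_iff.1 hmem δ hδ
  obtain ⟨ι, _, t, z, ht, h1, hz, rfl⟩ := mem_convexHull_iff_exists_fintype.1 hP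
  choose u huM hu hz using hz
  rw [Prod.dist_eq, max_lt_iff, dist_comm, dist_comm ψ, dist_eq_norm, dist_eq_norm, Prod.fst_sum,
    Prod.snd_sum] at hd
  simp only [hz, Prod.smul_fst, Prod.smul_snd, ← Complex.coe_smul] at hd
  obtain ⟨hd1, hd2⟩ := hd
  have hR : ∀ i, m.R (star (u i)) ∈ unitary (H →L[ℂ] H) := fun i =>
    m.R_unitary (Unitary.star_mem (hu i))
  have nV : ∀ i η, ‖u i (m.R (star (u i)) η)‖ = ‖η‖ := fun i η => by
    rw [norm_unitE (hu i), norm_unitE (hR i)]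
  have na : ∀ i, ‖u i ζ - m.R (u i) ζ‖ = ‖u i (m.R (star (u i)) ζ) - ζ‖ := fun i => by
    rw [← norm_unitE (hR i), map_sub, ← m.comm_R (huM i) (star_mem (huM i)), ← m.R_mul_apply,
      (hu i).2, m.R_one, one_apply_eq_self]
  have s2 := avg_sq_le h1 (fun i => nV i ζ)
  have s3 : ‖∑ i, (t i : ℂ) • u i (m.R (star (u i)) ζ) - ζ‖ ≤ 2 * δ := by
    linarith [norm_sub_le_norm_sub_add_norm_sub (∑ i, (t i : ℂ) • u i (m.R (star (u i)) ζ)) ψ ζ]
  have s1 : ∑ i, t i * ‖u i (m.R (star (u i)) ζ) - ζ‖ ≤ γ :=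
    sum_le_of_sq ht h1 hγ (by nlinarith [norm_nonneg ζ])
  have nq : ∀ η, ‖q η‖ ≤ ‖η‖ := fun η =>
    (q.le_opNorm η).trans (mul_le_of_le_one_left (norm_nonneg _) hq1)
  have s4 : ‖(∑ i, (t i : ℂ) • (u i * q * star (u i))) ζ -
      ∑ i, (t i : ℂ) • u i (m.R (star (u i)) (q ζ))‖ ≤ γ := by
    rw [ContinuousLinearMap.sum_apply, ← Finset.sum_sub_distrib]
    simp only [ContinuousLinearMap.smul_apply, ← smul_sub]
    refine (norm_avg_le ht fun i => ?_).trans s1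
    have e : (u i * q * star (u i)) ζ - u i (m.R (star (u i)) (q ζ)) =
        u i (q (star (u i) (ζ - u i (m.R (star (u i)) ζ)))) := by
      rw [map_sub, map_sub, map_sub, ← mul_apply_eq_comp (star (u i)) (u i), (hu i).1,
        one_apply_eq_self, m.comm_R hq (star_mem (huM i))]
      rfl
    rw [e, norm_unitE (hu i), norm_sub_rev]
    exact (nq _).trans (norm_unitE (Unitary.star_mem (hu i)) _).le
  have s5 : ‖⟪ζ, ∑ i, (t i : ℂ) • u i (m.R (star (u i)) (q ζ))⟫_ℂ - ⟪ζ, q ζ⟫_ℂ‖ ≤ γ * ‖ζ‖ := by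
    have e : ⟪ζ, ∑ i, (t i : ℂ) • u i (m.R (star (u i)) (q ζ))⟫_ℂ - ⟪ζ, q ζ⟫_ℂ =
        ∑ i, (t i : ℂ) • ⟪ζ - u i (m.R (star (u i)) ζ), u i (m.R (star (u i)) (q ζ))⟫_ℂ := by
      simp only [inner_sum, inner_smul_right, inner_sub_left, inner_unitE (hu _), inner_unitE (hR _),
        smul_eq_mul, mul_sub, Finset.sum_sub_distrib]
      rw [← Finset.sum_mul, ← Complex.ofReal_sum, h1, Complex.ofReal_one, one_mul]
    rw [e]
    refine (norm_avg_le (a := fun i => ‖u i (m.R (star (u i)) ζ) - ζ‖ * ‖ζ‖) ht fun i => ?_).trans ?_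
    · refine (norm_inner_le_norm _ _).trans ?_
      rw [nV, norm_sub_rev]
      exact mul_le_mul_of_nonneg_left (nq _) (norm_nonneg _)
    · simp only [← mul_assoc]
      rw [← Finset.sum_mul]
      exact mul_le_mul_of_nonneg_right s1 (norm_nonneg _)
  have s6 : ‖c • ζ - c0 • ζ‖ ≤ δ + γ := by
    rcases (norm_nonneg ζ).eq_or_lt with h0 | h0
    · rw [norm_eq_zero.1 h0.symm, smul_zero, smul_zero, sub_self, norm_zero]
      positivity
    · have e : ‖c • ζ - c0 • ζ‖ * ‖ζ‖ = ‖⟪ζ, c • ζ - c0 • ζ⟫_ℂ‖ := by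
        rw [← sub_smul, inner_smul_right, norm_smul, norm_mul, inner_self_eq_norm_sq_to_K]
        simp [sq, mul_assoc]
      have e2 : ⟪ζ, c • ζ - c0 • ζ⟫_ℂ =
          (⟪ζ, ∑ i, (t i : ℂ) • u i (m.R (star (u i)) (q ζ))⟫_ℂ - ⟪ζ, q ζ⟫_ℂ) -
            ⟪ζ, ∑ i, (t i : ℂ) • u i (m.R (star (u i)) (q ζ)) - c • ζ⟫_ℂ := by
        rw [inner_sub_right, inner_sub_right, hc0]
        ring
      refine le_of_mul_le_mul_right ?_ h0
      rw [e, e2]
      refine (norm_sub_le _ _).trans ?_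
      have := norm_inner_le_norm (𝕜 := ℂ) ζ
        (∑ i, (t i : ℂ) • u i (m.R (star (u i)) (q ζ)) - c • ζ)
      nlinarith
  refine ⟨ι, inferInstance, t, u, ht, h1, huM, hu, by simp only [na]; linarith, ?_⟩
  have n1 := norm_sub_le_norm_sub_add_norm_sub ((∑ i, (t i : ℂ) • (u i * q * star (u i))) ζ)
    (∑ i, (t i : ℂ) • u i (m.R (star (u i)) (q ζ))) (c0 • ζ)
  have n2 := norm_sub_le_norm_sub_add_norm_sub
    (∑ i, (t i : ℂ) • u i (m.R (star (u i)) (q ζ))) (c • ζ) (c0 • ζ)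
  linarith

/-- Two sided averaging. -/
theorem avg2 (m : Mod M ζ) {q : H →L[ℂ] H} (hq : q ∈ M) (hq1 : ‖q‖ ≤ 1) {c0 : ℂ}
    (hc0 : ⟪ζ, q ζ⟫_ℂ = ⟪ζ, c0 • ζ⟫_ℂ) (hc1 : ‖c0‖ ≤ 1)
    (h : ∀ δ : ℝ, 0 < δ → ∃ (c : ℂ) (ψ : H),
      (c • ζ, ψ) ∈ closure (convexHull ℝ (orb m (q ζ))) ∧ ‖ψ - ζ‖ ≤ δ) {ε : ℝ} (hε : 0 < ε) :
    ∃ (ι : Type) (_ : Fintype ι) (t : ι → ℝ) (u : ι → H →L[ℂ] H), (∀ i, 0 ≤ t i) ∧
      ∑ i, t i = 1 ∧ (∀ i, u i ∈ M) ∧ (∀ i, u i ∈ unitary (H →L[ℂ] H)) ∧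
      ∑ i, t i * ‖u i ζ - m.R (u i) ζ‖ ≤ ε ∧
      ‖(∑ i, (t i : ℂ) • (u i * q * star (u i))) ζ - c0 • ζ‖ ≤ ε ∧
      ‖(∑ i, (t i : ℂ) • (star (u i) * q * u i)) ζ - c0 • ζ‖ ≤ ε := by
  obtain ⟨γ, hγ, rfl⟩ : ∃ γ : ℝ, 0 < γ ∧ ε = 3 * γ := ⟨ε / 3, by positivity, by ring⟩
  obtain ⟨ι, _, t, u, ht, h1, huM, hu, s1, s2⟩ := avg1 m hq hq1 hc0 h hγ
  have hus : ∀ i, star (u i) ∈ unitary (H →L[ℂ] H) := fun i => Unitary.star_mem (hu i)
  set A := ∑ i, (t i : ℂ) • (u i * q * star (u i)) with hA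
  have hAM : A ∈ M := sum_mem fun i _ =>
    M.toStarSubalgebra.smul_mem (mul_mem (mul_mem (huM i) hq) (star_mem (huM i))) _
  have nq : ∀ η, ‖q η‖ ≤ ‖η‖ := fun η =>
    (q.le_opNorm η).trans (mul_le_of_le_one_left (norm_nonneg _) hq1)
  have nA : ∀ η, ‖A η‖ ≤ ‖η‖ := fun η => by
    rw [hA, ContinuousLinearMap.sum_apply]
    simp only [ContinuousLinearMap.smul_apply]
    refine (norm_avg_le (a := fun _ => ‖η‖) ht fun i => ?_).trans ?_
    · simp only [mul_apply_eq_comp]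
      rw [norm_unitE (hu i)]
      exact (nq _).trans (norm_unitE (hus i) _).le
    · rw [← Finset.sum_mul, h1, one_mul]
  have key : ‖(∑ p : ι × ι, ((t p.1 * t p.2 : ℝ) : ℂ) •
      (star (u p.1) * u p.2 * q * star (star (u p.1) * u p.2))) ζ - c0 • ζ‖ ≤ 3 * γ := by
    have e : ∑ p : ι × ι, ((t p.1 * t p.2 : ℝ) : ℂ) •
        (star (u p.1) * u p.2 * q * star (star (u p.1) * u p.2)) =
        ∑ i, (t i : ℂ) • (star (u i) * A * u i) := by
      rw [Fintype.sum_prod_type]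
      refine Finset.sum_congr rfl fun i _ => ?_
      rw [hA, Finset.mul_sum, Finset.sum_mul, Finset.smul_sum]
      refine Finset.sum_congr rfl fun j _ => ?_
      simp only [star_mul, star_star, Complex.ofReal_mul, mul_smul, mul_smul_comm, smul_mul_assoc,
        mul_assoc]
    rw [e, ContinuousLinearMap.sum_apply]
    simp only [ContinuousLinearMap.smul_apply]
    rw [avg_sub h1]
    refine (norm_avg_le (a := fun i => 2 * ‖u i ζ - m.R (u i) ζ‖ + γ) ht fun i => ?_).trans ?_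
    · have e2 : (star (u i) * A * u i) ζ - c0 • ζ = star (u i) (A (u i ζ - m.R (u i) ζ) +
          m.R (u i) (A ζ - c0 • ζ) - c0 • (u i ζ - m.R (u i) ζ)) := by
        have e3 : star (u i) (u i ζ) = ζ := by
          rw [← mul_apply_eq_comp, (hu i).1, one_apply_eq_self]
        simp only [map_sub, map_add, map_smul, smul_sub, mul_apply_eq_comp, e3,
          m.comm_R hAM (huM i)]
        abel
      rw [e2, norm_unitE (hus i)]
      have n1 := nA (u i ζ - m.R (u i) ζ)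
      have n2 := norm_unitE (m.R_unitary (hu i)) (A ζ - c0 • ζ)
      have n3 : ‖c0 • (u i ζ - m.R (u i) ζ)‖ ≤ ‖u i ζ - m.R (u i) ζ‖ := by
        rw [norm_smul]
        exact mul_le_of_le_one_left (norm_nonneg _) hc1
      have n4 := norm_sub_le (A (u i ζ - m.R (u i) ζ) + m.R (u i) (A ζ - c0 • ζ))
        (c0 • (u i ζ - m.R (u i) ζ))
      have n5 := norm_add_le (A (u i ζ - m.R (u i) ζ)) (m.R (u i) (A ζ - c0 • ζ))
      linarith
    · simp only [mul_add, Finset.sum_add_distrib, mul_left_comm (t _) 2]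
      rw [← Finset.mul_sum, ← Finset.sum_mul, h1]
      linarith
  refine ⟨ι × ι, inferInstance, fun p => t p.1 * t p.2, fun p => star (u p.1) * u p.2,
    fun p => mul_nonneg (ht _) (ht _), ?_, fun p => mul_mem (star_mem (huM _)) (huM _),
    fun p => mul_mem (hus _) (hu _), ?_, key, ?_⟩
  · rw [Fintype.sum_prod_type, ← Finset.sum_mul_sum, h1, one_mul]
  · have b : ∀ p : ι × ι, ‖(star (u p.1) * u p.2) ζ - m.R (star (u p.1) * u p.2) ζ‖ ≤
        ‖u p.1 ζ - m.R (u p.1) ζ‖ + ‖u p.2 ζ - m.R (u p.2) ζ‖ := fun p => by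
      have e : (star (u p.1) * u p.2) ζ - m.R (star (u p.1) * u p.2) ζ =
          m.R (u p.2) (star (u p.1) ζ - m.R (star (u p.1)) ζ) +
            star (u p.1) (u p.2 ζ - m.R (u p.2) ζ) := by
        rw [m.R_mul_apply, map_sub, map_sub, m.comm_R (star_mem (huM _)) (huM _),
          mul_apply_eq_comp]
        abel
      rw [e]
      refine (norm_add_le _ _).trans (le_of_eq ?_)
      rw [norm_unitE (m.R_unitary (hu _)), norm_unitE (hus _), m.norm_comm_star]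
    refine (Finset.sum_le_sum fun p _ =>
      mul_le_mul_of_nonneg_left (b p) (mul_nonneg (ht _) (ht _))).trans ?_
    have e : ∑ p : ι × ι, t p.1 * t p.2 *
        (‖u p.1 ζ - m.R (u p.1) ζ‖ + ‖u p.2 ζ - m.R (u p.2) ζ‖) =
        (∑ i, t i * ‖u i ζ - m.R (u i) ζ‖) * ∑ i, t i +
          (∑ i, t i) * ∑ i, t i * ‖u i ζ - m.R (u i) ζ‖ := by
      rw [Fintype.sum_prod_type, Finset.sum_mul_sum, Finset.sum_mul_sum, ← Finset.sum_add_distrib]
      refine Finset.sum_congr rfl fun i _ => ?_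
      rw [← Finset.sum_add_distrib]
      refine Finset.sum_congr rfl fun j _ => ?_
      ring
    rw [e, h1]
    linarith
  · have e : ∑ p : ι × ι, ((t p.1 * t p.2 : ℝ) : ℂ) •
        (star (star (u p.1) * u p.2) * q * (star (u p.1) * u p.2)) =
        ∑ p : ι × ι, ((t p.1 * t p.2 : ℝ) : ℂ) •
          (star (u p.1) * u p.2 * q * star (star (u p.1) * u p.2)) := by
      refine Fintype.sum_equiv (Equiv.prodComm ι ι) _ _ fun p => ?_
      simp only [Equiv.prodComm_apply, Prod.fst_swap, Prod.snd_swap, star_mul, star_star,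
        mul_comm (t p.1)]
    rw [e]
    exact key

end Vale.Agent.P132
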