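import Vale.Agent.P132.Basic

/-! The modular conjugation only depends on the natural cone. -/

namespace Vale.Agent.P132

open scoped InnerProductSpace BoundedContinuousFunction ComplexConjugate
open Filter Topology MeasureTheory

universe u

theorem chi_suppE (n : ℕ) : HasCompactSupport (chi n) := by
  refine HasCompactSupport.intro (isCompact_Icc (a := -((n : ℝ) + 1)) (b := (n : ℝ) + 1))
    fun s hs => ?_
  have h : (n : ℝ) + 1 < |s| := by
    by_contra h
    exact hs (abs_le.1 (not_lt.1 h))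
  rw [chi_apply, max_eq_left (min_le_of_right_le (by linarith)), Complex.ofReal_zero]

/-- The cutoff `chi n * g` of a continuous function `g`. -/
noncomputable def cm (n : ℕ) (g : ℝ → ℂ) (hg : Continuous g) : ℝ →ᵇ ℂ :=
  ofCompactSupport (fun s => chi n s * g s) ((chi n).continuous.mul hg) (chi_suppE n).mul_right

theorem cm_apply (n : ℕ) (g : ℝ → ℂ) (hg : Continuous g) (s : ℝ) :
    cm n g hg s = chi n s * g s := rfl

theorem star_chiE (n : ℕ) : star (chi n) = chi n := by
  ext s
  simp only [BoundedContinuousFunction.star_apply, chi_apply, RCLike.star_def, Complex.conj_ofReal]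

/-- The function `exp (a s) / (1 + exp s)`. -/
noncomputable def bf (a : ℝ) (h0 : 0 ≤ a) (h1 : a ≤ 1) : ℝ →ᵇ ℂ :=
  BoundedContinuousFunction.ofNormedAddCommGroup
    (fun s => ((Real.exp (a * s) / (1 + Real.exp s) : ℝ) : ℂ))
    (Complex.continuous_ofReal.comp (Continuous.div (by fun_prop) (by fun_prop)
      fun s => by positivity)) 1 (fun s => by
      have hp : 0 < 1 + Real.exp s := by positivity
      rw [Complex.norm_real, Real.norm_eq_abs, abs_of_nonneg (by positivity), div_le_one hp]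
      rcases le_total s 0 with hs | hs
      · have : Real.exp (a * s) ≤ 1 := Real.exp_le_one_iff.2 (by nlinarith)
        linarith [Real.exp_pos s]
      · have : Real.exp (a * s) ≤ Real.exp s := Real.exp_le_exp.2 (by nlinarith)
        linarith)

theorem bf_apply (a : ℝ) (h0 : 0 ≤ a) (h1 : a ≤ 1) (s : ℝ) :
    bf a h0 h1 s = ((Real.exp (a * s) / (1 + Real.exp s) : ℝ) : ℂ) := rfl

theorem star_bf (a : ℝ) (h0 : 0 ≤ a) (h1 : a ≤ 1) : star (bf a h0 h1) = bf a h0 h1 := by
  ext s
  simp only [BoundedContinuousFunction.star_apply, bf_apply, RCLike.star_def, Complex.conj_ofReal]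

theorem bf_half (a b : ℝ) (h0 : 0 ≤ a) (h1 : a ≤ 1) (h2 : 0 ≤ b) (h3 : b ≤ 1) (h : b = a + 1 / 2)
    (s : ℝ) : bf b h2 h3 s = bf a h0 h1 s * (Real.exp (s / 2) : ℝ) := by
  rw [bf_apply, bf_apply, ← Complex.ofReal_mul, div_mul_eq_mul_div, ← Real.exp_add, h]
  congr 3
  ring

theorem bf_one : bf 1 zero_le_one le_rfl = 1 - bf 0 le_rfl zero_le_one := by
  ext s
  have hp : 0 < 1 + Real.exp s := by positivity
  have h : Real.exp (1 * s) / (1 + Real.exp s) = 1 - Real.exp (0 * s) / (1 + Real.exp s) := by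
    rw [one_mul, zero_mul, Real.exp_zero]
    field_simp
    ring
  rw [BoundedContinuousFunction.sub_apply, bf_apply, bf_apply, h]
  simp

theorem bf_sq : bf 0 le_rfl zero_le_one * bf (1 / 2) (by norm_num) (by norm_num) =
    star (bf (1 / 4) (by norm_num) (by norm_num)) * bf (1 / 4) (by norm_num) (by norm_num) := by
  rw [star_bf]
  ext s
  simp only [BoundedContinuousFunction.mul_apply, bf_apply, ← Complex.ofReal_mul, div_mul_div_comm,
    ← Real.exp_add]
  congr 3
  ring

variable {H : Type u} [NormedAddCommGroup H] [InnerProductSpace ℂ H] [CompleteSpace H]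

/-- The linear operator `J1 J2`. -/
noncomputable def jj (J1 J2 : H ≃ₗᵢ⋆[ℂ] H) : H →L[ℂ] H :=
  LinearMap.mkContinuous
    { toFun := fun η => J1 (J2 η)
      map_add' := fun a b => by simp only [map_add]
      map_smul' := fun c a => by simp [map_smulₛₗ] } 1 (fun η => by
    change ‖J1 (J2 η)‖ ≤ _
    rw [J1.norm_map, J2.norm_map, one_mul])

omit [CompleteSpace H] in
theorem jj_apply (J1 J2 : H ≃ₗᵢ⋆[ℂ] H) (η : H) : jj J1 J2 η = J1 (J2 η) := rfl

theorem star_jj {Γ Γ' : Set (H × H)} (m : HMod Γ) (m' : HMod Γ') :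
    star (jj m.J m'.J) = jj m'.J m.J := by
  symm
  rw [ContinuousLinearMap.star_eq_adjoint, ContinuousLinearMap.eq_adjoint_iff]
  intro a b
  rw [jj_apply, jj_apply, m'.inner_J_left, m.inner_J_right, ← inner_conj_symm, ← m.inner_J, m.JJ,
    ← inner_conj_symm, m.inner_J_right, inner_conj_symm]

theorem graph_jj {Γ Γ' : Set (H × H)} (m : HMod Γ) (m' : HMod Γ') {M : VonNeumannAlgebra H}
    {ζ : H} (h : m.J ζ = ζ) (h' : m'.J ζ = ζ) (hM : ∀ x ∈ M, cj m.J (cj m'.J x) ∈ M)
    {p : H × H} (hp : p ∈ graphS M ζ) : (jj m.J m'.J p.1, jj m.J m'.J p.2) ∈ graphS M ζ := by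
  refine map_mem_closure (f := fun p : H × H => (jj m.J m'.J p.1, jj m.J m'.J p.2)) (by fun_prop)
    hp ?_
  rintro _ ⟨x, hx, rfl⟩
  refine ⟨_, hM x hx, ?_⟩
  rw [← m.cj_star, ← m'.cj_star]
  simp only [cj_apply, jj_apply, h, h']

theorem HMod.eq_zero_of_mul_bf {Γ : Set (H × H)} (m : HMod Γ) {z : H →L[ℂ] H}
    (h : z * m.Φ (bf 0 le_rfl zero_le_one * bf (1 / 2) (by norm_num) (by norm_num)) = 0) :
    z = 0 := by
  ext η
  have h1 : ∀ n, z (m.Φ (chi n) η) = 0 := fun n => by
    have e : chi n = bf 0 le_rfl zero_le_one * bf (1 / 2) (by norm_num) (by norm_num) *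
        cm n (fun s => (((1 + Real.exp s) ^ 2 * Real.exp (-(1 / 2 * s)) : ℝ) : ℂ))
          (by fun_prop) := by
      ext s
      have hp : 0 < 1 + Real.exp s := by positivity
      have e1 : Real.exp (0 * s) / (1 + Real.exp s) * (Real.exp (1 / 2 * s) / (1 + Real.exp s)) *
          ((1 + Real.exp s) ^ 2 * Real.exp (-(1 / 2 * s))) = 1 := by
        rw [zero_mul, Real.exp_zero, Real.exp_neg]
        field_simp
      rw [BoundedContinuousFunction.mul_apply, BoundedContinuousFunction.mul_apply, cm_apply,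
        bf_apply, bf_apply, mul_left_comm, ← Complex.ofReal_mul, ← Complex.ofReal_mul, e1]
      simp
    rw [e, m.Φ_mul_apply, ← mul_apply_eq_comp, h]
    rfl
  have h2 := (z.continuous.tendsto η).comp (m.cut η)
  exact tendsto_nhds_unique h2 (by
    simp only [Function.comp_def, h1]
    exact tendsto_const_nhds)

theorem jc : JcStmt.{u} := by
  intro H _ _ _ M ξ ζ m m' hJ hpos
  set C := m'.Φ (bf 0 le_rfl zero_le_one) with hC
  set D := m'.Φ (bf (1 / 2) (by norm_num) (by norm_num)) with hD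
  set W := jj m.J m'.J with hW
  set V := jj m'.J m.J with hV
  have sC : star C = C := by rw [hC, ← map_star, star_bf]
  have sD : star D = D := by rw [hD, ← map_star, star_bf]
  have sW : star W = V := star_jj m.toHMod m'.toHMod
  have sV : star V = W := star_jj m'.toHMod m.toHMod
  have hVW : V * W = 1 := by
    ext η
    simp only [hV, hW, mul_apply_eq_comp, jj_apply, m.JJ, m'.JJ, one_apply_eq_self]
  have core : ∀ k, (C k, m'.J (D k)) ∈ graphS M ζ := fun k =>
    m'.core _ _ (bf_half _ _ _ _ _ _ (by norm_num)) k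
  have gr : ∀ p ∈ graphS M ζ, D (m'.J p.2) = (1 - C) p.1 := fun p hp => by
    rw [hD, m'.graph p hp _ (bf 1 zero_le_one le_rfl) (bf_half _ _ _ _ _ _ (by norm_num)), bf_one,
      map_sub, map_one]
  have e1 : D * V * D = (1 - C) * W * C := by
    ext k
    have := gr _ (graph_jj m.toHMod m'.toHMod hJ m'.Jξ (fun x hx => m.lt _ (m'.rt _ hx)) (core k))
    simpa only [hV, hW, mul_apply_eq_comp, jj_apply, m'.JJ] using this
  have e2 : D * W * D = (1 - C) * V * C := by
    ext k
    have := gr _ (graph_jj m'.toHMod m.toHMod m'.Jξ hJ (fun x hx => m'.lt _ (m.rt _ hx)) (core k))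
    simpa only [hV, hW, mul_apply_eq_comp, jj_apply, m'.JJ] using this
  have e3 : W * C = C * W := by
    have := congrArg star e2
    simp only [star_mul, star_sub, star_one, sC, sD, sW, sV] at this
    rw [← mul_assoc, e1] at this
    have e : W * C - C * W = (1 - C) * W * C - C * (W * (1 - C)) := by noncomm_ring
    rw [← sub_eq_zero, e, this, sub_self]
  have pos : ∀ p ∈ graphS M ζ, 0 ≤ (⟪p.1, m.J p.2⟫_ℂ).re ∧ (⟪p.1, m.J p.2⟫_ℂ).im = 0 := by
    have hc : Continuous fun p : H × H => ⟪p.1, m.J p.2⟫_ℂ :=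
      continuous_fst.inner (m.J.continuous.comp continuous_snd)
    have hcl : IsClosed {p : H × H | 0 ≤ (⟪p.1, m.J p.2⟫_ℂ).re ∧ (⟪p.1, m.J p.2⟫_ℂ).im = 0} :=
      (isClosed_le continuous_const (Complex.continuous_re.comp hc)).inter
        (isClosed_eq (Complex.continuous_im.comp hc) continuous_const)
    refine fun p hp => hcl.closure_subset_iff.2 ?_ hp
    rintro _ ⟨x, hx, rfl⟩
    have := hpos x hx
    rwa [HMod.R_apply, hJ] at this
  have hT : C * D = m'.Φ (bf 0 le_rfl zero_le_one * bf (1 / 2) (by norm_num) (by norm_num)) := by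
    rw [map_mul]
  have T0 : 0 ≤ C * D := by
    rw [hT, bf_sq, map_mul, map_star]
    exact star_mul_self_nonneg _
  have WT0 : 0 ≤ W * (C * D) := by
    rw [ContinuousLinearMap.nonneg_iff_isPositive, ContinuousLinearMap.isPositive_iff_complex]
    intro k
    obtain ⟨h1, h2⟩ := pos _ (core k)
    have e : ⟪(W * (C * D)) k, k⟫_ℂ = conj ⟪C k, m.J (m'.J (D k))⟫_ℂ := by
      rw [inner_conj_symm, ← mul_assoc, e3, ← ContinuousLinearMap.adjoint_inner_left,
        ← ContinuousLinearMap.star_eq_adjoint, sC]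
      rfl
    rw [e]
    refine ⟨Complex.ext (by simp) ?_, by
      simpa only [RCLike.re_to_complex, Complex.conj_re] using h1⟩
    simp only [RCLike.re_to_complex, Complex.coe_algebraMap, Complex.ofReal_im, Complex.conj_im]
    rw [h2, neg_zero]
  have e4 : W * (C * D) = C * D := by
    rw [← CFC.mul_self_eq_mul_self_iff _ _ WT0 T0]
    nth_rw 1 [← (IsSelfAdjoint.of_nonneg WT0).star_eq]
    rw [star_mul, sW, (IsSelfAdjoint.of_nonneg T0).star_eq, mul_assoc, ← mul_assoc V, hVW, one_mul]
  have e5 : W - 1 = 0 := m'.eq_zero_of_mul_bf (by rw [← hT, sub_mul, e4, one_mul, sub_self])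
  ext η
  have := congrArg (fun z : H →L[ℂ] H => m.J (z η)) (sub_eq_zero.1 e5)
  simpa only [hW, jj_apply, m.JJ, one_apply_eq_self] using this

end Vale.Agent.P132
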