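import Vale.Agent.P132.Basic

/-! Work package S, part 1: the basic inequality for Lipschitz vectors. -/

namespace Vale.Agent.P132.St

open scoped InnerProductSpace BoundedContinuousFunction ComplexConjugate
open Filter Topology MeasureTheory

universe u

variable {H : Type u} [NormedAddCommGroup H] [InnerProductSpace ℂ H] [CompleteSpace H]
variable {M : VonNeumannAlgebra H} {ξ : H}

theorem lip_abs (m : Mod M ξ) {α : H} {C : ℝ} (h : Lip m α C) : Lip m α |C| := fun x hx =>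
  (h x hx).trans (mul_le_mul_of_nonneg_right (le_abs_self C) (norm_nonneg _))

theorem lip_U (m : Mod M ξ) {α : H} {C : ℝ} (h : Lip m α C) (t : ℝ) : Lip m (m.U t α) C := by
  intro x hx
  have hy := m.σ_mem (-t) hx
  have key : ∀ β : H, x (m.U t β) - m.R x (m.U t β) =
      m.U t ((m.U (-t) * x * m.U (- -t)) β - m.R (m.U (-t) * x * m.U (- -t)) β) := fun β => by
    rw [map_sub, m.U_R]
    have e : m.U t * (m.U (-t) * x * m.U (- -t)) * m.U (-t) = x := by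
      rw [neg_neg, ← mul_assoc, ← mul_assoc, m.U_mul_neg, one_mul, mul_assoc, m.U_mul_neg, mul_one]
    rw [e]
    simp only [mul_apply_eq_comp, neg_neg, HMod.U_U_neg]
  have h1 := h _ hy
  have h2 := key ξ
  rw [m.U_ξ] at h2
  rw [key, h2, m.norm_U, m.norm_U]
  exact h1

theorem lip_J (m : Mod M ξ) {α : H} {C : ℝ} (h : Lip m α C) : Lip m (m.J α) C := by
  intro x hx
  have h1 := h _ (star_mem hx)
  rw [m.norm_comm_star] at h1
  rw [← m.J.norm_map, map_sub, m.J_apply, m.J_R, m.JJ, norm_sub_rev]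
  exact h1

theorem lip_filter (hF : FiltStmt.{u}) (m : Mod M ξ) {α : H} {C : ℝ} (h : Lip m α C)
    (k : ℝ → ℂ) (f : ℝ →ᵇ ℂ) (hk : Integrable k) (hf : ∀ s, f s = ∫ t, k t * ex t s) :
    Lip m (m.Φ f α) ((∫ t, ‖k t‖) * C) := by
  intro x hx
  obtain ⟨hc, h2, -⟩ := hF.1 H _ m.toHMod
  have hi : Integrable fun t => k t • m.U t α := by
    refine Integrable.mono' (hk.norm.mul_const ‖α‖) (hk.1.smul (hc α).aestronglyMeasurable)
      (Eventually.of_forall fun t => ?_)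
    rw [norm_smul, m.norm_U]
  have e : x (m.Φ f α) - m.R x (m.Φ f α) = ∫ t, (x - m.R x) (k t • m.U t α) := by
    rw [ContinuousLinearMap.integral_comp_comm _ hi, h2 k f hk hf α]
    rfl
  rw [e, mul_assoc, ← integral_mul_const]
  refine norm_integral_le_of_norm_le (hk.norm.mul_const _) (Eventually.of_forall fun t => ?_)
  rw [map_smul, norm_smul]
  exact mul_le_mul_of_nonneg_left (lip_U m h t x hx) (norm_nonneg _)

theorem sum_sq_eq {ι : Type} [Fintype ι] (t : ι → ℝ) (w : ι → H →L[ℂ] H)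
    (η : H) : ∑ i, t i * ‖w i η‖ ^ 2 =
      (⟪η, (∑ i, (t i : ℂ) • (star (w i) * w i)) η⟫_ℂ).re := by
  rw [sum_apply, inner_sum, Complex.re_sum]
  refine Finset.sum_congr rfl fun i _ => ?_
  rw [smul_apply, inner_smul_right, Complex.re_ofReal_mul, mul_apply_eq_comp,
    ContinuousLinearMap.star_eq_adjoint, ContinuousLinearMap.adjoint_inner_right]
  congr 1
  exact (inner_self_eq_norm_sq (𝕜 := ℂ) _).symm

theorem sum_sq_le {ι : Type} [Fintype ι] (t : ι → ℝ) (w : ι → H →L[ℂ] H) (η : H) (c δ : ℝ)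
    (h : ‖(∑ i, (t i : ℂ) • (star (w i) * w i) - (c : ℂ) • 1) η‖ ≤ δ) :
    ∑ i, t i * ‖w i η‖ ^ 2 ≤ c * ‖η‖ ^ 2 + δ * ‖η‖ := by
  rw [sum_sq_eq]
  set A := ∑ i, (t i : ℂ) • (star (w i) * w i)
  have e : A η = (c : ℂ) • η + (A - (c : ℂ) • 1) η := by simp
  rw [e, inner_add_right, Complex.add_re, inner_smul_right, Complex.re_ofReal_mul]
  have h1 : (⟪η, η⟫_ℂ).re = ‖η‖ ^ 2 := inner_self_eq_norm_sq (𝕜 := ℂ) _
  have h2 : (⟪η, (A - (c : ℂ) • 1) η⟫_ℂ).re ≤ δ * ‖η‖ := by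
    refine (Complex.re_le_norm _).trans ((norm_inner_le_norm _ _).trans ?_)
    rw [mul_comm]
    exact mul_le_mul_of_nonneg_right h (norm_nonneg _)
  rw [h1]
  linarith

theorem norm_avg_le {ι : Type} [Fintype ι] (t : ι → ℝ) (w : ι → H →L[ℂ] H) (t0 : ∀ i, 0 ≤ t i)
    (t1 : ∑ i, t i = 1) (hw : ∀ i, ‖w i‖ ≤ 1) (c : ℝ) (c0 : 0 ≤ c) (c1 : c ≤ 1) :
    ‖∑ i, (t i : ℂ) • (star (w i) * w i) - (c : ℂ) • 1‖ ≤ 2 := by
  have h1 : ‖∑ i, (t i : ℂ) • (star (w i) * w i)‖ ≤ 1 := by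
    refine (norm_sum_le _ _).trans ?_
    rw [← t1]
    refine Finset.sum_le_sum fun i _ => ?_
    rw [norm_smul, Complex.norm_real, Real.norm_of_nonneg (t0 i), CStarRing.norm_star_mul_self]
    have := hw i
    have h0 := norm_nonneg (w i)
    exact mul_le_of_le_one_right (t0 i) (by nlinarith)
  have h2 : ‖(c : ℂ) • (1 : H →L[ℂ] H)‖ ≤ 1 := by
    rw [norm_smul, Complex.norm_real, Real.norm_of_nonneg c0]
    exact mul_le_one₀ c1 (norm_nonneg _) ContinuousLinearMap.norm_id_le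
  linarith [norm_sub_le (∑ i, (t i : ℂ) • (star (w i) * w i)) ((c : ℂ) • (1 : H →L[ℂ] H))]

theorem avg_mem {ι : Type} [Fintype ι] (t : ι → ℝ) (w : ι → H →L[ℂ] H) (hw : ∀ i, w i ∈ M)
    (c : ℝ) : ∑ i, (t i : ℂ) • (star (w i) * w i) - (c : ℂ) • 1 ∈ M :=
  sub_mem (sum_mem fun i _ => M.toStarSubalgebra.smul_mem (mul_mem (star_mem (hw i)) (hw i)) _)
    (M.toStarSubalgebra.smul_mem (one_mem M) _)

theorem term_le (m : Mod M ξ) {α : H} {C l : ℝ} (hC : 0 ≤ C) (h : Lip m α C) (hl : 1 < l)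
    {x w : H →L[ℂ] H} (hx : x ∈ M) (hw : w ∈ M) (w1 : ‖w‖ ≤ 1) :
    ‖⟪w ξ, w (x α)⟫_ℂ‖ ≤ ‖ξ‖ * C * (‖x ξ - ((l⁻¹ : ℝ) : ℂ) • m.R x ξ‖ +
      ‖x‖ * ‖w ξ - (l : ℂ) • m.R w ξ‖) + ‖w (m.R (star x) ξ)‖ * ‖star w (m.J α)‖ := by
  have l0 : 0 < l := by linarith
  have e1 : w (x α) = ((w * x) α - m.R (w * x) α) + m.R x (m.R w α) := by
    rw [m.R_mul_apply, sub_add_cancel, mul_apply_eq_comp]
  have e2 : ⟪w ξ, m.R x (m.R w α)⟫_ℂ = ⟪w (m.R (star x) ξ), m.R w α⟫_ℂ := by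
    rw [m.comm_R hw (star_mem hx), m.R_star, ContinuousLinearMap.star_eq_adjoint,
      ContinuousLinearMap.adjoint_inner_left]
  have e3 : (w * x) ξ - m.R (w * x) ξ = w (x ξ - ((l⁻¹ : ℝ) : ℂ) • m.R x ξ) +
      ((l⁻¹ : ℝ) : ℂ) • m.R x (w ξ - (l : ℂ) • m.R w ξ) := by
    rw [m.R_mul_apply, mul_apply_eq_comp, map_sub, map_sub, map_smul, map_smul, m.comm_R hw hx,
      smul_sub, smul_smul, ← Complex.ofReal_mul, inv_mul_cancel₀ l0.ne', Complex.ofReal_one,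
      one_smul]
    abel
  have hw' : ∀ η, ‖w η‖ ≤ ‖η‖ := fun η =>
    (w.le_opNorm η).trans (mul_le_of_le_one_left (norm_nonneg _) w1)
  have b3 : ‖(w * x) ξ - m.R (w * x) ξ‖ ≤ ‖x ξ - ((l⁻¹ : ℝ) : ℂ) • m.R x ξ‖ +
      ‖x‖ * ‖w ξ - (l : ℂ) • m.R w ξ‖ := by
    rw [e3]
    refine (norm_add_le _ _).trans (add_le_add (hw' _) ?_)
    rw [norm_smul, Complex.norm_real, Real.norm_of_nonneg (inv_pos.2 l0).le]
    refine (mul_le_of_le_one_left (norm_nonneg _) (inv_le_one_of_one_le₀ hl.le)).trans ?_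
    refine ((m.R x).le_opNorm _).trans ?_
    rw [m.norm_R]
  rw [e1, inner_add_right, e2]
  refine (norm_add_le _ _).trans (add_le_add ?_ ?_)
  · refine (norm_inner_le_norm _ _).trans ?_
    rw [mul_assoc]
    refine mul_le_mul (hw' _) ((h _ (mul_mem hw hx)).trans ?_) (norm_nonneg _) (norm_nonneg _)
    exact mul_le_mul_of_nonneg_left b3 hC
  · refine (norm_inner_le_norm _ _).trans ?_
    rw [m.R_apply w, m.J.norm_map]

theorem star_ineq (m : Mod M ξ) (hs : CycSep M ξ) {α : H} {C l : ℝ} (hC : 0 ≤ C)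
    (h : Lip m α C) (hl : 1 < l) (hE : Eig m l) {x : H →L[ℂ] H} (hx : x ∈ M) :
    ‖⟪star x ξ, α⟫_ℂ‖ ≤ l⁻¹ * ‖α‖ * ‖x ξ‖ +
      2 * (‖ξ‖ * C) * ‖x ξ - ((l⁻¹ : ℝ) : ℂ) • m.R x ξ‖ := by
  have l0 : 0 < l := by linarith
  set c : ℝ := l ^ 2 / (1 + l ^ 2) with hc
  set c' : ℝ := 1 / (1 + l ^ 2) with hc'
  set D := ‖x ξ - ((l⁻¹ : ℝ) : ℂ) • m.R x ξ‖ with hD
  set p := ‖x ξ‖ with hp
  set q := ‖α‖ with hq
  have hl2 : 0 < 1 + l ^ 2 := by positivity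
  have c0 : 0 ≤ c := by positivity
  have c1 : c ≤ 1 := by rw [hc, div_le_one hl2]; linarith
  have c0' : 0 ≤ c' := by positivity
  have c1' : c' ≤ 1 := by rw [hc', div_le_one hl2]; nlinarith
  have ch : 1 / 2 ≤ c := by rw [hc, div_le_div_iff₀ (by norm_num) hl2]; nlinarith
  let G : ℝ → ℝ := fun δ => δ * ‖x α‖ + ‖ξ‖ * C * (D + ‖x‖ * δ) +
    Real.sqrt ((c * p ^ 2 + δ * p) * (c' * q ^ 2 + δ * q))
  have hG : Continuous G := by fun_prop
  have hle : ∀ δ : ℝ, 0 < δ → c * ‖⟪ξ, x α⟫_ℂ‖ ≤ G δ := fun δ hδ => by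
    obtain ⟨δ1, p1, q1⟩ := strong_of_sep hs.2 (m.R (star x) ξ) 2 δ hδ
    obtain ⟨δ2, p2, q2⟩ := strong_of_sep hs.2 (m.J α) 2 δ hδ
    obtain ⟨ι, _, t, w, t0, t1, wM, w1, a1, a2, a3⟩ :=
      hE (min (min δ1 δ2) (min δ (δ ^ 2))) (by positivity)
    have b1 : ∑ i, t i * ‖w i (m.R (star x) ξ)‖ ^ 2 ≤ c * p ^ 2 + δ * p := by
      have := sum_sq_le t w (m.R (star x) ξ) c δ (q1 _ (avg_mem t w wM c)
        (norm_avg_le t w t0 t1 w1 c c0 c1) (a2.trans ((min_le_left _ _).trans (min_le_left _ _))))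
      rwa [m.norm_R_ξ, star_star] at this
    have b2 : ∑ i, t i * ‖star (w i) (m.J α)‖ ^ 2 ≤ c' * q ^ 2 + δ * q := by
      have := sum_sq_le t (fun i => star (w i)) (m.J α) c' δ
        (q2 _ (avg_mem t _ (fun i => star_mem (wM i)) c')
        (norm_avg_le t _ t0 t1 (fun i => by rw [norm_star]; exact w1 i) c' c0' c1') (by
          simp only [star_star]
          exact a3.trans ((min_le_left _ _).trans (min_le_right _ _))))
      rwa [m.J.norm_map] at this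
    have b3 : ∑ i, t i * ‖w i ξ - (l : ℂ) • m.R (w i) ξ‖ ≤ δ := by
      have a1' := a1.trans ((min_le_right _ _).trans (min_le_right _ _))
      have : ∑ i, t i * ‖w i ξ - (l : ℂ) • m.R (w i) ξ‖ ≤
          ∑ i, (δ / 2 * t i + 1 / (2 * δ) * (t i * ‖w i ξ - (l : ℂ) • m.R (w i) ξ‖ ^ 2)) := by
        refine Finset.sum_le_sum fun i _ => ?_
        set v := ‖w i ξ - (l : ℂ) • m.R (w i) ξ‖
        have : v ≤ δ / 2 + 1 / (2 * δ) * v ^ 2 := by
          have e : δ / 2 + 1 / (2 * δ) * v ^ 2 - v = (v - δ) ^ 2 / (2 * δ) := by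
            field_simp
            ring
          have : 0 ≤ (v - δ) ^ 2 / (2 * δ) := by positivity
          linarith
        nlinarith [mul_le_mul_of_nonneg_left this (t0 i)]
      rw [Finset.sum_add_distrib, ← Finset.mul_sum, ← Finset.mul_sum, t1] at this
      have h2 : 1 / (2 * δ) * ∑ i, t i * ‖w i ξ - (l : ℂ) • m.R (w i) ξ‖ ^ 2 ≤
          1 / (2 * δ) * δ ^ 2 := mul_le_mul_of_nonneg_left a1' (by positivity)
      have e : 1 / (2 * δ) * δ ^ 2 = δ / 2 := by field_simp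
      linarith
    have b4 : ∑ i, t i * (‖w i (m.R (star x) ξ)‖ * ‖star (w i) (m.J α)‖) ≤
        Real.sqrt ((c * p ^ 2 + δ * p) * (c' * q ^ 2 + δ * q)) := by
      refine Real.le_sqrt_of_sq_le ?_
      have := Finset.sum_mul_sq_le_sq_mul_sq Finset.univ
        (fun i => Real.sqrt (t i) * ‖w i (m.R (star x) ξ)‖)
        (fun i => Real.sqrt (t i) * ‖star (w i) (m.J α)‖)
      simp only [mul_pow, Real.sq_sqrt (t0 _)] at this
      have e : ∀ i, Real.sqrt (t i) * ‖w i (m.R (star x) ξ)‖ *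
          (Real.sqrt (t i) * ‖star (w i) (m.J α)‖) =
          t i * (‖w i (m.R (star x) ξ)‖ * ‖star (w i) (m.J α)‖) := fun i => by
        conv_rhs => rw [← Real.mul_self_sqrt (t0 i)]
        ring
      simp only [e] at this
      refine this.trans (mul_le_mul b1 b2 ?_ ?_)
      · exact Finset.sum_nonneg fun i _ => mul_nonneg (t0 i) (sq_nonneg _)
      · positivity
    set A := ∑ i, (t i : ℂ) • (star (w i) * w i) with hA
    have e1 : ⟪A ξ, x α⟫_ℂ = ∑ i, (t i : ℂ) * ⟪w i ξ, w i (x α)⟫_ℂ := by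
      rw [hA, sum_apply, sum_inner]
      refine Finset.sum_congr rfl fun i _ => ?_
      rw [smul_apply, inner_smul_left, Complex.conj_ofReal, mul_apply_eq_comp,
        ContinuousLinearMap.star_eq_adjoint, ContinuousLinearMap.adjoint_inner_left]
    have b5 : ‖⟪A ξ, x α⟫_ℂ‖ ≤ ‖ξ‖ * C * (D + ‖x‖ * δ) +
        Real.sqrt ((c * p ^ 2 + δ * p) * (c' * q ^ 2 + δ * q)) := by
      rw [e1]
      refine (norm_sum_le _ _).trans ?_
      have : ∑ i, ‖(t i : ℂ) * ⟪w i ξ, w i (x α)⟫_ℂ‖ ≤ ∑ i, (‖ξ‖ * C * D * t i +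
          ‖ξ‖ * C * ‖x‖ * (t i * ‖w i ξ - (l : ℂ) • m.R (w i) ξ‖) +
          t i * (‖w i (m.R (star x) ξ)‖ * ‖star (w i) (m.J α)‖)) := by
        refine Finset.sum_le_sum fun i _ => ?_
        rw [norm_mul, Complex.norm_real, Real.norm_of_nonneg (t0 i)]
        refine (mul_le_mul_of_nonneg_left (term_le m hC h hl hx (wM i) (w1 i)) (t0 i)).trans
          (le_of_eq ?_)
        ring
      rw [Finset.sum_add_distrib, Finset.sum_add_distrib, ← Finset.mul_sum, ← Finset.mul_sum,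
        t1] at this
      have h2 := mul_le_mul_of_nonneg_left b3 (show 0 ≤ ‖ξ‖ * C * ‖x‖ by positivity)
      nlinarith
    have e2 : (c : ℂ) * ⟪ξ, x α⟫_ℂ = ⟪A ξ, x α⟫_ℂ - ⟪A ξ - (c : ℂ) • ξ, x α⟫_ℂ := by
      rw [inner_sub_left, inner_smul_left, Complex.conj_ofReal]
      ring
    have b6 : ‖⟪A ξ - (c : ℂ) • ξ, x α⟫_ℂ‖ ≤ δ * ‖x α‖ :=
      (norm_inner_le_norm _ _).trans (mul_le_mul_of_nonneg_right
        (a2.trans ((min_le_right _ _).trans (min_le_left _ _))) (norm_nonneg _))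
    have := norm_sub_le ⟪A ξ, x α⟫_ℂ ⟪A ξ - (c : ℂ) • ξ, x α⟫_ℂ
    rw [← e2, norm_mul, Complex.norm_real, Real.norm_of_nonneg c0] at this
    change _ ≤ δ * ‖x α‖ + ‖ξ‖ * C * (D + ‖x‖ * δ) + _
    linarith
  have hlim : c * ‖⟪ξ, x α⟫_ℂ‖ ≤ G 0 :=
    ge_of_tendsto ((hG.tendsto 0).mono_left (nhdsWithin_le_nhds (s := Set.Ioi 0)))
      (eventually_nhdsWithin_of_forall hle)
  have hs0 : Real.sqrt ((c * p ^ 2 + 0 * p) * (c' * q ^ 2 + 0 * q)) = c * (l⁻¹ * q * p) := by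
    rw [Real.sqrt_eq_iff_mul_self_eq (by positivity) (by positivity), hc, hc']
    field_simp
    ring
  have e0 : ⟪star x ξ, α⟫_ℂ = ⟪ξ, x α⟫_ℂ := by
    rw [ContinuousLinearMap.star_eq_adjoint, ContinuousLinearMap.adjoint_inner_left]
  rw [e0]
  change _ ≤ 0 * ‖x α‖ + ‖ξ‖ * C * (D + ‖x‖ * 0) + _ at hlim
  rw [hs0] at hlim
  have hK : 0 ≤ ‖ξ‖ * C * D := by positivity
  refine le_of_mul_le_mul_left ?_ (show 0 < c by linarith)
  nlinarith

theorem star_graph (m : Mod M ξ) (hs : CycSep M ξ) {α : H} {C l : ℝ} (hC : 0 ≤ C)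
    (h : Lip m α C) (hl : 1 < l) (hE : Eig m l) {p : H × H} (hp : p ∈ graphS M ξ) :
    ‖⟪p.1, α⟫_ℂ‖ ≤ l⁻¹ * ‖α‖ * ‖p.2‖ +
      2 * (‖ξ‖ * C) * ‖m.J p.2 - ((l⁻¹ : ℝ) : ℂ) • p.1‖ := by
  refine closure_minimal (t := {p : H × H | ‖⟪p.1, α⟫_ℂ‖ ≤ l⁻¹ * ‖α‖ * ‖p.2‖ +
      2 * (‖ξ‖ * C) * ‖m.J p.2 - ((l⁻¹ : ℝ) : ℂ) • p.1‖}) ?_ ?_ hp
  · rintro _ ⟨x, hx, rfl⟩
    have := star_ineq m hs hC h hl hE (star_mem hx)
    rw [star_star, ← m.J.norm_map (star x ξ - _), map_sub, map_smulₛₗ, m.J_R, star_star, m.Jξ,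
      Complex.conj_ofReal] at this
    exact this
  · have := m.J.continuous
    exact isClosed_le (by fun_prop) (by fun_prop)

end Vale.Agent.P132.St
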