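import Vale.Agent.P132.Defs

/-! Modular data and the interfaces of the work packages. -/

namespace Vale.Agent.P132

open scoped InnerProductSpace BoundedContinuousFunction ComplexConjugate
open Filter Topology MeasureTheory

universe u

/-- The character `s ↦ exp (i t s)`. -/
noncomputable def ex (t : ℝ) : ℝ →ᵇ ℂ :=
  BoundedContinuousFunction.ofNormedAddCommGroup (fun s => Complex.exp (((t * s : ℝ) : ℂ) * Complex.I))
    (by fun_prop) 1 (fun s => (Complex.norm_exp_ofReal_mul_I _).le)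

@[simp] theorem ex_apply (t s : ℝ) : ex t s = Complex.exp (((t * s : ℝ) : ℂ) * Complex.I) := rfl

/-- The cutoff equal to `1` on `[-n, n]` and to `0` off `[-n-1, n+1]`. -/
noncomputable def chi (n : ℕ) : ℝ →ᵇ ℂ :=
  BoundedContinuousFunction.ofNormedAddCommGroup
    (fun s => ((max 0 (min 1 ((n : ℝ) + 1 - |s|)) : ℝ) : ℂ)) (by fun_prop) 1 (fun s => by
      rw [Complex.norm_real, Real.norm_eq_abs, abs_of_nonneg (le_max_left _ _)]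
      exact max_le zero_le_one (min_le_left _ _))

theorem chi_apply (n : ℕ) (s : ℝ) : chi n s = ((max 0 (min 1 ((n : ℝ) + 1 - |s|)) : ℝ) : ℂ) := rfl

section

variable {H : Type u} [NormedAddCommGroup H] [InnerProductSpace ℂ H] [CompleteSpace H]

/-- The operator `J x J`. -/
noncomputable def cj (J : H ≃ₗᵢ⋆[ℂ] H) (x : H →L[ℂ] H) : H →L[ℂ] H :=
  LinearMap.mkContinuous
    { toFun := fun η => J (x (J η))
      map_add' := fun a b => by simp only [map_add]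
      map_smul' := fun c a => by simp [map_smulₛₗ] } ‖x‖ (fun η => by
    change ‖J (x (J η))‖ ≤ _
    rw [J.norm_map]
    simpa only [J.norm_map] using x.le_opNorm (J η))

omit [CompleteSpace H] in
@[simp] theorem cj_apply (J : H ≃ₗᵢ⋆[ℂ] H) (x : H →L[ℂ] H) (η : H) : cj J x η = J (x (J η)) := rfl

/-- Polar data `S = J Δ^(1/2)` of a conjugate linear closed involution with graph `Γ`;
`Φ f` is `f (log Δ)`. -/
structure HMod (Γ : Set (H × H)) where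
  J : H ≃ₗᵢ⋆[ℂ] H
  Φ : (ℝ →ᵇ ℂ) →⋆ₐ[ℂ] (H →L[ℂ] H)
  JJ : ∀ η, J (J η) = η
  cut : ∀ η, Tendsto (fun n : ℕ => Φ (chi n) η) atTop (𝓝 η)
  JΦ : ∀ f g : ℝ →ᵇ ℂ, (∀ s, g s = conj (f (-s))) → ∀ η, J (Φ f η) = Φ g (J η)
  graph : ∀ p ∈ Γ, ∀ f g : ℝ →ᵇ ℂ, (∀ s, g s = f s * (Real.exp (s / 2) : ℝ)) →
    Φ f (J p.2) = Φ g p.1
  core : ∀ f g : ℝ →ᵇ ℂ, (∀ s, g s = f s * (Real.exp (s / 2) : ℝ)) → ∀ η,
    (Φ f η, J (Φ g η)) ∈ Γ

/-- The modular group `Δ^(it)`. -/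
noncomputable def HMod.U {Γ : Set (H × H)} (m : HMod Γ) (t : ℝ) : H →L[ℂ] H := m.Φ (ex t)

/-- Right multiplication `η ↦ η x = J x* J η`. -/
noncomputable def HMod.R {Γ : Set (H × H)} (m : HMod Γ) (x : H →L[ℂ] H) : H →L[ℂ] H :=
  cj m.J (star x)

/-- Tomita–Takesaki data of a cyclic and separating vector. -/
structure Mod (M : VonNeumannAlgebra H) (ξ : H) extends HMod (graphS M ξ) where
  Jξ : J ξ = ξ
  fix : ∀ f, Φ f ξ = f 0 • ξ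
  rt : ∀ x ∈ M, cj J x ∈ M.commutant
  lt : ∀ y ∈ M.commutant, cj J y ∈ M
  inv : ∀ t, ∀ x ∈ M, Φ (ex t) * x * Φ (ex (-t)) ∈ M

variable {M : VonNeumannAlgebra H} {ξ : H}

/-- Commutators with `α` are dominated by commutators with `ξ`. -/
def Lip (m : Mod M ξ) (α : H) (C : ℝ) : Prop :=
  ∀ x ∈ M, ‖x α - m.R x α‖ ≤ C * ‖x ξ - m.R x ξ‖

/-- Every nonzero projection is equivalent to `1`. -/
def AllEq (M : VonNeumannAlgebra H) : Prop :=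
  ∀ e ∈ M, IsStarProjection e → e ≠ 0 → ∃ v ∈ M, star v * v = 1 ∧ v * star v = e

/-- All modular operators have full spectrum. -/
def Full (M : VonNeumannAlgebra H) : Prop :=
  ∀ ζ : H, CycSep M ζ → ∀ l : ℝ, 0 < l → l ∈ modSpec M ζ

/-- Almost centralizing elements between any two projections of the centralizer. -/
def Gam (m : Mod M ξ) : Prop :=
  ∀ e ∈ M, ∀ f ∈ M, IsStarProjection e → IsStarProjection f → e ≠ 0 → f ≠ 0 →
    (∀ t, m.U t * e = e * m.U t) → (∀ t, m.U t * f = f * m.U t) → ∀ η : ℝ, 0 < η →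
    ∃ x ∈ M, f * x * e = x ∧ x ≠ 0 ∧ ‖x ξ - m.R x ξ‖ ≤ η * ‖x ξ‖

/-- Macroscopic families of almost eigenoperators for the eigenvalue `l`. -/
def Eig (m : Mod M ξ) (l : ℝ) : Prop :=
  ∀ ε : ℝ, 0 < ε → ∃ (ι : Type) (_ : Fintype ι) (t : ι → ℝ) (w : ι → H →L[ℂ] H),
    (∀ i, 0 ≤ t i) ∧ ∑ i, t i = 1 ∧ (∀ i, w i ∈ M) ∧ (∀ i, ‖w i‖ ≤ 1) ∧
    ∑ i, t i * ‖w i ξ - (l : ℂ) • m.R (w i) ξ‖ ^ 2 ≤ ε ∧
    ‖(∑ i, (t i : ℂ) • (star (w i) * w i)) ξ - ((l ^ 2 / (1 + l ^ 2) : ℝ) : ℂ) • ξ‖ ≤ ε ∧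
    ‖(∑ i, (t i : ℂ) • (w i * star (w i))) ξ - ((1 / (1 + l ^ 2) : ℝ) : ℂ) • ξ‖ ≤ ε

/-- The pairs `(u β u*, u ξ u*)` for unitaries `u` of `M`. -/
def orb (m : Mod M ξ) (β : H) : Set (H × H) :=
  {p | ∃ u ∈ M, u ∈ unitary (H →L[ℂ] H) ∧ p = (u (m.R (star u) β), u (m.R (star u) ξ))}

end

/-- WP T1: polar decomposition of a closed conjugate linear involution. -/
def T1Stmt : Prop := ∀ (H : Type u) [NormedAddCommGroup H] [InnerProductSpace ℂ H]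
  [CompleteSpace H] (Γ : Set (H × H)), IsClosed Γ → (0 : H × H) ∈ Γ →
  (∀ p ∈ Γ, ∀ q ∈ Γ, p + q ∈ Γ) → (∀ p ∈ Γ, ∀ c : ℂ, (c • p.1, conj c • p.2) ∈ Γ) →
  (∀ p ∈ Γ, (p.2, p.1) ∈ Γ) → Dense (Prod.fst '' Γ) → (∀ θ, ((0 : H), θ) ∈ Γ → θ = 0) →
  Nonempty (HMod Γ)

/-- WP B, part 1: two variable functional calculus under an integral. -/
def BIStmt : Prop := ∀ (H : Type u) [NormedAddCommGroup H] [InnerProductSpace ℂ H]
  [CompleteSpace H] (Φ : (ℝ →ᵇ ℂ) →⋆ₐ[ℂ] (H →L[ℂ] H)) (ν : (ℝ →ᵇ ℂ) →L[ℂ] H) (k : ℝ → ℂ)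
  (ι : Type) [Fintype ι] (a b : ι → ℝ →ᵇ ℂ) (p q : ℝ →ᵇ ℂ), Integrable k →
  (∀ i, HasCompactSupport (a i)) → (∀ i, HasCompactSupport (b i)) → HasCompactSupport p →
  (∀ s s' : ℝ, ∫ t, k t * ∑ i, a i s * b i s' * ex t (s - s') = p s * q s') →
  ∫ t, k t • ∑ i, Φ (ex t * a i) (ν (ex (-t) * b i)) = Φ p (ν q)

/-- WP B, part 2: filters on vectors, on operators, and Fourier kernels. -/
def FiltStmt : Prop :=
  (∀ (H : Type u) [NormedAddCommGroup H] [InnerProductSpace ℂ H] [CompleteSpace H]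
    (Γ : Set (H × H)) (m : HMod Γ),
    (∀ η, Continuous fun t => m.U t η) ∧
    (∀ (k : ℝ → ℂ) (f : ℝ →ᵇ ℂ), Integrable k → (∀ s, f s = ∫ t, k t * ex t s) →
      ∀ η, ∫ t, k t • m.U t η = m.Φ f η) ∧
    (∀ (k : ℝ → ℂ) (x : H →L[ℂ] H), Integrable k → ∃ y : H →L[ℂ] H,
      (∀ η, y η = ∫ t, k t • m.U t (x (m.U (-t) η))) ∧
      ∀ N : VonNeumannAlgebra H, (∀ t, m.U t * x * m.U (-t) ∈ N) → y ∈ N)) ∧
  (∃ (k : ℝ → ℂ) (f : ℝ →ᵇ ℂ), Integrable k ∧ (∀ s, f s = ∫ t, k t * ex t s) ∧ f 0 = 1 ∧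
    ∀ s, 1 ≤ |s| → f s = 0) ∧
  (∃ k : ℝ → ℂ, Integrable k ∧ Continuous k ∧ k 0 ≠ 0 ∧
    ∀ s : ℝ, ∫ t, k t * ex t s = ((1 / (Real.exp (s / 2) + Real.exp (-s / 2)) : ℝ) : ℂ)) ∧
  (∀ g : ℝ → ℂ, Integrable g → Continuous g → (∀ s, ∫ t, g t * ex t s = 0) → ∀ t, g t = 0)

/-- WP T2: the Tomita–Takesaki theorem. -/
def TTStmt : Prop := ∀ (H : Type u) [NormedAddCommGroup H] [InnerProductSpace ℂ H]
  [CompleteSpace H] (M : VonNeumannAlgebra H) (ξ : H), CycSep M ξ → Nonempty (Mod M ξ)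

/-- WP N: the nearest point. -/
def NStmt : Prop := ∀ (H : Type u) [NormedAddCommGroup H] [InnerProductSpace ℂ H]
  [CompleteSpace H] (M : VonNeumannAlgebra H) (ξ : H) (m : Mod M ξ) (β : H) (ε : ℝ), 0 < ε →
  ∃ α ψ : H, (α, ψ) ∈ closure (convexHull ℝ (orb m β)) ∧ ‖ψ - ξ‖ ^ 2 ≤ ε * ‖β‖ ^ 2 ∧
    (∃ C, Lip m α C) ∧ ((∀ t, m.U t β = β) → ∀ t, m.U t α = α)

/-- WP G: the Connes spectrum in the corners of the centralizer. -/
def GamStmt : Prop := ∀ (H : Type u) [NormedAddCommGroup H] [InnerProductSpace ℂ H]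
  [CompleteSpace H] (M : VonNeumannAlgebra H) (ξ : H) (m : Mod M ξ), CycSep M ξ → AllEq M →
  Full M → Gam m

/-- WP L: invariant Lipschitz vectors are scalar. -/
def L0Stmt : Prop := ∀ (H : Type u) [NormedAddCommGroup H] [InnerProductSpace ℂ H]
  [CompleteSpace H] (M : VonNeumannAlgebra H) (ξ : H) (m : Mod M ξ), CycSep M ξ → Gam m →
  ∀ (α : H) (C : ℝ), Lip m α C → (∀ t, m.U t α = α) → ∃ c : ℂ, α = c • ξ

/-- WP E, part 1: the modular conjugation only depends on the natural cone. -/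
def JcStmt : Prop := ∀ (H : Type u) [NormedAddCommGroup H] [InnerProductSpace ℂ H]
  [CompleteSpace H] (M : VonNeumannAlgebra H) (ξ ζ : H) (m : Mod M ξ) (m' : Mod M ζ),
  m.J ζ = ζ → (∀ x ∈ M, 0 ≤ (⟪x ζ, m.R x ζ⟫_ℂ).re ∧ (⟪x ζ, m.R x ζ⟫_ℂ).im = 0) → m'.J = m.J

/-- WP E, part 2: macroscopic almost eigenoperators. -/
def EigStmt : Prop := ∀ (H : Type u) [NormedAddCommGroup H] [InnerProductSpace ℂ H]
  [CompleteSpace H] (M : VonNeumannAlgebra H) (ξ : H) (m : Mod M ξ), CycSep M ξ → AllEq M →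
  Full M → (∃ p ∈ M, IsStarProjection p ∧ p ≠ 0 ∧ p ≠ 1) → ∀ l : ℝ, 0 < l → Eig m l

/-- WP S: Lipschitz vectors are invariant. -/
def StarStmt : Prop := ∀ (H : Type u) [NormedAddCommGroup H] [InnerProductSpace ℂ H]
  [CompleteSpace H] (M : VonNeumannAlgebra H) (ξ : H) (m : Mod M ξ), CycSep M ξ →
  (∀ l : ℝ, 1 < l → Eig m l) → ∀ (α : H) (C : ℝ), Lip m α C → ∀ t, m.U t α = α

/-- WP C: comparison in countably decomposable type III factors. -/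
def CmpStmt : Prop := ∀ (H : Type u) [NormedAddCommGroup H] [InnerProductSpace ℂ H]
  [CompleteSpace H] (M : VonNeumannAlgebra H) (ξ : H), (∀ x ∈ M, x ξ = 0 → x = 0) →
  IsFactor M → IsTypeIII M → AllEq M

end Vale.Agent.P132
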