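import Vale.Agent.P132.Stm

/-! The real orthogonal projection onto the graph of a closed conjugate linear involution. -/

namespace Vale.Agent.P132

open scoped InnerProductSpace ComplexConjugate
open Filter Topology

universe u

variable {H : Type u} [NormedAddCommGroup H] [InnerProductSpace ℂ H] [CompleteSpace H]

theorem t1_proj (Γ : Set (H × H)) (hc : IsClosed Γ) (h0 : (0 : H × H) ∈ Γ)
    (ha : ∀ p ∈ Γ, ∀ q ∈ Γ, p + q ∈ Γ) (hs : ∀ p ∈ Γ, ∀ c : ℂ, (c • p.1, conj c • p.2) ∈ Γ)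
    (h : H) : ∃ p ∈ Γ, ∀ q ∈ Γ, ⟪q.1, h⟫_ℂ = ⟪q.1, p.1⟫_ℂ + ⟪p.2, q.2⟫_ℂ := by
  letI : InnerProductSpace ℝ H := InnerProductSpace.complexToReal
  let K : Submodule ℝ (WithLp 2 (H × H)) :=
    { carrier := {p | WithLp.ofLp p ∈ Γ}
      add_mem' := fun {a b} h1 h2 => ha _ h1 _ h2
      zero_mem' := h0
      smul_mem' := fun r p hp => by
        have := hs _ hp (r : ℂ)
        rw [Complex.conj_ofReal] at this
        exact this }
  have hK : IsClosed (K : Set (WithLp 2 (H × H))) :=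
    hc.preimage (WithLp.prod_continuous_ofLp 2 H H)
  haveI : CompleteSpace K := hK.completeSpace_coe
  obtain ⟨y, hy, z, hz, hyz⟩ := K.exists_add_mem_mem_orthogonal (WithLp.toLp 2 (h, 0))
  have h1 : h = y.ofLp.1 + z.ofLp.1 := congrArg (fun p => (WithLp.ofLp p).1) hyz
  have h2 : (0 : H) = y.ofLp.2 + z.ofLp.2 := congrArg (fun p => (WithLp.ofLp p).2) hyz
  have key : ∀ q ∈ Γ, (⟪q.1, h⟫_ℂ - ⟪q.1, y.ofLp.1⟫_ℂ - ⟪y.ofLp.2, q.2⟫_ℂ).re = 0 := by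
    intro q hq
    have h3 := (K.mem_orthogonal z).1 hz (WithLp.toLp 2 q) hq
    rw [WithLp.prod_inner_apply] at h3
    change (⟪q.1, z.ofLp.1⟫_ℂ).re + (⟪q.2, z.ofLp.2⟫_ℂ).re = 0 at h3
    have e1 : z.ofLp.1 = h - y.ofLp.1 := by rw [h1]; simp
    have e2 : z.ofLp.2 = -y.ofLp.2 := by
      rw [eq_neg_iff_add_eq_zero, add_comm]; exact h2.symm
    rw [e1, e2, inner_sub_right, inner_neg_right, ← inner_conj_symm q.2 y.ofLp.2] at h3
    simp only [Complex.sub_re, Complex.neg_re, Complex.conj_re] at h3 ⊢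
    linarith
  refine ⟨y.ofLp, hy, fun q hq => ?_⟩
  have k1 := key q hq
  have k2 := key _ (hs q hq Complex.I)
  simp only [inner_smul_left, inner_smul_right, Complex.conj_I] at k2
  simp only [Complex.sub_re, Complex.mul_re, Complex.neg_re, Complex.neg_im, Complex.I_re,
    Complex.I_im] at k1 k2
  apply Complex.ext
  · simp only [Complex.add_re]; linarith
  · simp only [Complex.add_im]; linarith

theorem t1_CB (Γ : Set (H × H)) (hc : IsClosed Γ) (h0 : (0 : H × H) ∈ Γ)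
    (ha : ∀ p ∈ Γ, ∀ q ∈ Γ, p + q ∈ Γ) (hs : ∀ p ∈ Γ, ∀ c : ℂ, (c • p.1, conj c • p.2) ∈ Γ) :
    ∃ (C : H →L[ℂ] H) (B : H →ₛₗ[starRingEnd ℂ] H), (∀ h, (C h, B h) ∈ Γ) ∧
      ∀ h, ∀ q ∈ Γ, ⟪q.1, h⟫_ℂ = ⟪q.1, C h⟫_ℂ + ⟪B h, q.2⟫_ℂ := by
  choose P hP hO using t1_proj Γ hc h0 ha hs
  have uniq : ∀ h, ∀ p ∈ Γ, (∀ q ∈ Γ, ⟪q.1, h⟫_ℂ = ⟪q.1, p.1⟫_ℂ + ⟪p.2, q.2⟫_ℂ) → P h = p := by
    intro h p hp hq
    have hm : (P h - p) ∈ Γ := by
      have := ha _ (hP h) _ (hs p hp (-1))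
      simp only [neg_smul, one_smul, map_neg, map_one] at this
      rw [sub_eq_add_neg]
      exact this
    have e1 := hO h _ hm
    have e2 := hq _ hm
    have e3 : ⟪(P h - p).1, (P h - p).1⟫_ℂ + ⟪(P h - p).2, (P h - p).2⟫_ℂ = 0 := by
      have a1 : ⟪(P h - p).1, (P h - p).1⟫_ℂ = ⟪(P h - p).1, (P h).1⟫_ℂ - ⟪(P h - p).1, p.1⟫_ℂ :=
        inner_sub_right _ _ _
      have a2 : ⟪(P h - p).2, (P h - p).2⟫_ℂ = ⟪(P h).2, (P h - p).2⟫_ℂ - ⟪p.2, (P h - p).2⟫_ℂ :=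
        inner_sub_left _ _ _
      rw [a1, a2]
      linear_combination e2 - e1
    rw [inner_self_eq_norm_sq_to_K, inner_self_eq_norm_sq_to_K] at e3
    have e4 : ‖(P h - p).1‖ ^ 2 + ‖(P h - p).2‖ ^ 2 = 0 := by
      apply Complex.ofReal_injective
      push_cast
      exact e3
    have e5 : ‖(P h - p).1‖ = 0 := by nlinarith [sq_nonneg ‖(P h - p).1‖, sq_nonneg ‖(P h - p).2‖]
    have e6 : ‖(P h - p).2‖ = 0 := by nlinarith [sq_nonneg ‖(P h - p).1‖, sq_nonneg ‖(P h - p).2‖]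
    rw [← sub_eq_zero]
    exact Prod.ext (norm_eq_zero.1 e5) (norm_eq_zero.1 e6)
  have hadd : ∀ h k, P (h + k) = P h + P k := fun h k =>
    uniq _ _ (ha _ (hP h) _ (hP k)) fun q hq => by
      rw [Prod.fst_add, Prod.snd_add, inner_add_right, inner_add_right, inner_add_left, hO h q hq,
        hO k q hq]
      ring
  have hsm : ∀ (c : ℂ) h, P (c • h) = (c • (P h).1, conj c • (P h).2) := fun c h =>
    uniq _ _ (hs _ (hP h) c) fun q hq => by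
      simp only [inner_smul_right, inner_smul_left, Complex.conj_conj]
      rw [hO h q hq]
      ring
  have hb : ∀ h, ‖(P h).1‖ ≤ 1 * ‖h‖ := by
    intro h
    have e1 := hO h _ (hP h)
    rw [inner_self_eq_norm_sq_to_K, inner_self_eq_norm_sq_to_K] at e1
    have e2 : ‖⟪(P h).1, h⟫_ℂ‖ = ‖(P h).1‖ ^ 2 + ‖(P h).2‖ ^ 2 := by
      rw [e1]
      have : ((‖(P h).1‖ : ℝ) : ℂ) ^ 2 + ((‖(P h).2‖ : ℝ) : ℂ) ^ 2 =
          ((‖(P h).1‖ ^ 2 + ‖(P h).2‖ ^ 2 : ℝ) : ℂ) := by push_cast; ring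
      change ‖((‖(P h).1‖ : ℝ) : ℂ) ^ 2 + ((‖(P h).2‖ : ℝ) : ℂ) ^ 2‖ = _
      rw [this, Complex.norm_real, Real.norm_eq_abs, abs_of_nonneg (by positivity)]
    have e3 := norm_inner_le_norm (𝕜 := ℂ) (P h).1 h
    rw [one_mul]
    by_contra hlt
    push Not at hlt
    nlinarith [norm_nonneg h, sq_nonneg ‖(P h).2‖]
  refine ⟨LinearMap.mkContinuous
    { toFun := fun h => (P h).1
      map_add' := fun h k => by rw [hadd]; rfl
      map_smul' := fun c h => by rw [hsm]; rfl } 1 hb,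
    { toFun := fun h => (P h).2
      map_add' := fun h k => by rw [hadd]; rfl
      map_smul' := fun c h => by rw [hsm] }, fun h => hP h, fun h q hq => hO h q hq⟩

theorem t1_dense {T : H →L[ℂ] H} (hT : IsSelfAdjoint T) (hi : ∀ h, T h = 0 → h = 0) :
    DenseRange T := by
  have : Dense ((LinearMap.range (T : H →ₗ[ℂ] H) : Submodule ℂ H) : Set H) := by
    rw [Submodule.dense_iff_topologicalClosure_eq_top, Submodule.topologicalClosure_eq_top_iff,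
      eq_bot_iff]
    intro h hh
    rw [Submodule.mem_bot]
    apply hi
    have h1 := (Submodule.mem_orthogonal _ _).1 hh (T (T h)) ⟨T h, rfl⟩
    exact inner_self_eq_zero.1 ((hT.isSymmetric (T h) h).symm.trans h1)
  exact this

/-- The algebraic data of the graph projection. -/
theorem t1_data (Γ : Set (H × H)) (hc : IsClosed Γ) (h0 : (0 : H × H) ∈ Γ)
    (ha : ∀ p ∈ Γ, ∀ q ∈ Γ, p + q ∈ Γ) (hs : ∀ p ∈ Γ, ∀ c : ℂ, (c • p.1, conj c • p.2) ∈ Γ)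
    (hw : ∀ p ∈ Γ, (p.2, p.1) ∈ Γ) (hd : Dense (Prod.fst '' Γ))
    (hz : ∀ θ, ((0 : H), θ) ∈ Γ → θ = 0) :
    ∃ (C : H →L[ℂ] H) (B : H →ₛₗ[starRingEnd ℂ] H), (∀ h, (C h, B h) ∈ Γ) ∧
      0 ≤ C ∧ 0 ≤ 1 - C ∧ (∀ h, C h - C (C h) = 0 → h = 0) ∧
      (∀ h, B (C h) = B h - C (B h)) ∧ (∀ h, B (B h) = C h - C (C h)) ∧
      (∀ h k, ⟪B h, B k⟫_ℂ = ⟪k, C h - C (C h)⟫_ℂ) ∧ ∀ p ∈ Γ, B p.2 = p.1 - C p.1 := by
  obtain ⟨C, B, hP, hO⟩ := t1_CB Γ hc h0 ha hs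
  have r1 : ∀ h k, ⟪C k, h⟫_ℂ = ⟪C k, C h⟫_ℂ + ⟪B h, B k⟫_ℂ := fun h k => hO h _ (hP k)
  have r2 : ∀ h k, ⟪B k, h⟫_ℂ = ⟪B k, C h⟫_ℂ + ⟪B h, C k⟫_ℂ := fun h k => hO h _ (hw _ (hP k))
  have sC : ∀ h k, ⟪C k, h⟫_ℂ = ⟪k, C h⟫_ℂ := by
    intro h k
    have := congrArg conj (r1 k h)
    rw [map_add, inner_conj_symm, inner_conj_symm, inner_conj_symm] at this
    rw [this, r1]
  have sB : ∀ h k, ⟪B k, h⟫_ℂ = ⟪B h, k⟫_ℂ := fun h k => by rw [r2 h k, r2 k h, add_comm]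
  have r3 : ∀ h k, ⟪B h, B k⟫_ℂ = ⟪k, C h - C (C h)⟫_ℂ := by
    intro h k
    rw [inner_sub_right, ← sC h k, ← sC (C h) k, r1 h k]
    ring
  have r4 : ∀ h, ⟪h, C h⟫_ℂ = ((‖C h‖ ^ 2 + ‖B h‖ ^ 2 : ℝ) : ℂ) := by
    intro h
    rw [← sC h h, r1, inner_self_eq_norm_sq_to_K, inner_self_eq_norm_sq_to_K]
    push_cast
    rfl
  have r5 : ∀ h, ⟪h, h - C h⟫_ℂ = ((‖h - C h‖ ^ 2 + ‖B h‖ ^ 2 : ℝ) : ℂ) := by
    intro h
    have e : ⟪h, h - C h⟫_ℂ = ⟪h - C h, h - C h⟫_ℂ + ⟪B h, B h⟫_ℂ := by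
      rw [r3, inner_sub_left h, sC (h - C h) h, map_sub]
      ring
    rw [e, inner_self_eq_norm_sq_to_K, inner_self_eq_norm_sq_to_K]
    push_cast
    rfl
  have iC : ∀ h, C h = 0 → h = 0 := by
    intro h hh
    have hB : B h = 0 := hz _ (hh ▸ hP h)
    have : ∀ x, ⟪x, h⟫_ℂ = 0 := by
      intro x
      refine (isClosed_eq (f := fun x => ⟪x, h⟫_ℂ) (by fun_prop)
        continuous_const).closure_subset_iff.2 ?_ (hd x)
      rintro _ ⟨q, hq, rfl⟩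
      change ⟪q.1, h⟫_ℂ = 0
      rw [hO h q hq, hh, hB]
      simp
    exact inner_self_eq_zero.1 (this h)
  have iD : ∀ h, h - C h = 0 → h = 0 := by
    intro h hh
    have e := r5 h
    rw [hh] at e
    simp only [inner_zero_right, norm_zero] at e
    have e' : (0 : ℝ) = 0 ^ 2 + ‖B h‖ ^ 2 := by exact_mod_cast e
    have hB : B h = 0 := norm_eq_zero.1 (by nlinarith [norm_nonneg (B h)])
    have := hw _ (hP h)
    rw [hB, ← sub_eq_zero.1 hh] at this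
    exact hz _ this
  have sa : (C : H →ₗ[ℂ] H).IsSymmetric := fun x y => sC y x
  refine ⟨C, B, hP, ?_, ?_, fun h hh => ?_, fun h => ?_, fun h => ?_, r3, fun p hp => ?_⟩
  · rw [ContinuousLinearMap.nonneg_iff_isPositive]
    refine ⟨sa, fun x => ?_⟩
    rw [ContinuousLinearMap.reApplyInnerSelf_apply, sC, r4]
    simp only [RCLike.re_to_complex, Complex.ofReal_re]
    positivity
  · rw [ContinuousLinearMap.nonneg_iff_isPositive]
    refine ⟨fun x y => ?_, fun x => ?_⟩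
    · change ⟪x - C x, y⟫_ℂ = ⟪x, y - C y⟫_ℂ
      rw [inner_sub_left, inner_sub_right, sC]
    · rw [ContinuousLinearMap.reApplyInnerSelf_apply, ← inner_conj_symm]
      change 0 ≤ RCLike.re (conj ⟪x, x - C x⟫_ℂ)
      rw [r5]
      simp only [RCLike.re_to_complex, Complex.conj_ofReal, Complex.ofReal_re]
      positivity
  · exact iC _ (iD _ hh)
  · apply ext_inner_right ℂ
    intro k
    rw [inner_sub_left, sB k (C h), sB k h, r2 h k, sC k (B h)]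
    ring
  · apply ext_inner_right ℂ
    intro k
    rw [sB k (B h), r3, inner_sub_right, inner_sub_left, sC k h, sC k (C h), sC (C k) h]
  · apply ext_inner_right ℂ
    intro h
    rw [inner_sub_left, sB h p.2, sC h p.1, hO h p hp]
    ring

end Vale.Agent.P132
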