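import Vale.Agent.P132.T1a

/-! Bounded continuous functional calculus of `log ((1 - C) / C)`. -/

namespace Vale.Agent.P132

open scoped InnerProductSpace BoundedContinuousFunction ComplexConjugate
open Filter Topology

universe u

/-- The unit interval inside the complex plane. -/
def KI : Set ℂ := Complex.ofReal '' Set.Icc 0 1

instance : CompactSpace KI :=
  isCompact_iff_compactSpace.1 (isCompact_Icc.image Complex.continuous_ofReal)

theorem KI.coe (z : KI) : ((z.1.re : ℝ) : ℂ) = z.1 := by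
  obtain ⟨_, r, -, rfl⟩ := z
  simp

theorem KI.mem (z : KI) : 0 ≤ z.1.re ∧ z.1.re ≤ 1 := by
  obtain ⟨_, r, hr, rfl⟩ := z
  simpa using hr

/-- The reflection `z ↦ 1 - z`. -/
def KI.refl : C(KI, KI) :=
  ⟨fun z => ⟨1 - z.1, 1 - z.1.re, ⟨by linarith [(KI.mem z).2], by linarith [(KI.mem z).1]⟩, by
    push_cast; rw [KI.coe]⟩, by fun_prop⟩

@[simp] theorem KI.refl_val (z : KI) : (KI.refl z).1 = 1 - z.1 := rfl

/-- The function `sqrt (r (1 - r))`. -/
noncomputable def dd (r : ℝ) : ℝ := √(r * (1 - r))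

/-- The function `log ((1 - r) / r)`. -/
noncomputable def lam (r : ℝ) : ℝ := Real.log ((1 - r) / r)

theorem dd_cont : Continuous dd := by unfold dd; fun_prop

theorem dd_nonneg (r : ℝ) : 0 ≤ dd r := Real.sqrt_nonneg _

theorem dd_zero {r : ℝ} (h : ¬ (0 < r ∧ r < 1)) : dd r = 0 := by
  unfold dd
  rw [Real.sqrt_eq_zero']
  by_cases h0 : 0 < r
  · have : 1 ≤ r := not_lt.1 fun h1 => h ⟨h0, h1⟩
    nlinarith
  · nlinarith [not_lt.1 h0]

theorem dd_sq {r : ℝ} (h : 0 ≤ r ∧ r ≤ 1) : dd r * dd r = r * (1 - r) :=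
  Real.mul_self_sqrt (mul_nonneg h.1 (by linarith [h.2]))

theorem dd_refl (r : ℝ) : dd (1 - r) = dd r := by
  unfold dd; congr 1; ring

theorem lam_refl (r : ℝ) : lam (1 - r) = -lam r := by
  unfold lam
  rw [← Real.log_inv, inv_div, sub_sub_cancel]

theorem dd_exp {r : ℝ} (h : 0 < r ∧ r < 1) : r * Real.exp (lam r / 2) = dd r := by
  have h1 : 0 < 1 - r := by linarith [h.2]
  have e : Real.exp (lam r / 2) * Real.exp (lam r / 2) = (1 - r) / r := by
    rw [← Real.exp_add, add_halves, lam, Real.exp_log (div_pos h1 h.1)]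
  unfold dd
  symm
  rw [Real.sqrt_eq_iff_mul_self_eq (mul_nonneg h.1.le h1.le) (mul_nonneg h.1.le (Real.exp_pos _).le)]
  have h0 := h.1.ne'
  symm
  calc r * Real.exp (lam r / 2) * (r * Real.exp (lam r / 2))
      = r * r * (Real.exp (lam r / 2) * Real.exp (lam r / 2)) := by ring
    _ = r * (1 - r) := by rw [e]; field_simp

theorem dd_lam {r : ℝ} (h : 0 < r ∧ r < 1) : dd r * dd r * |lam r| ≤ 1 := by
  have h1 : 0 < 1 - r := by linarith [h.2]
  rw [dd_sq ⟨h.1.le, h.2.le⟩]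
  have a1 := Real.log_le_sub_one_of_pos (div_pos h1 h.1)
  have a2 := Real.log_le_sub_one_of_pos (div_pos h.1 h1)
  have a3 : Real.log (r / (1 - r)) = -lam r := by rw [lam, ← Real.log_inv, inv_div]
  rw [a3] at a2
  have b1 : r * (1 - r) * ((1 - r) / r) = (1 - r) * (1 - r) := by have := h.1.ne'; field_simp
  have b2 : r * (1 - r) * (r / (1 - r)) = r * r := by have := h1.ne'; field_simp
  have hp : 0 < r * (1 - r) := mul_pos h.1 h1
  rcases abs_cases (lam r) with h2 | h2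
  · rw [h2.1]
    have : r * (1 - r) * lam r ≤ r * (1 - r) * ((1 - r) / r) :=
      mul_le_mul_of_nonneg_left (by unfold lam; linarith) hp.le
    nlinarith [h.1, h.2]
  · rw [h2.1]
    have : r * (1 - r) * -lam r ≤ r * (1 - r) * (r / (1 - r)) :=
      mul_le_mul_of_nonneg_left (by linarith) hp.le
    nlinarith [h.1, h.2]

theorem lift_cont (f : ℝ →ᵇ ℂ) : Continuous fun r : ℝ => (dd r : ℂ) * f (lam r) := by
  rw [continuous_iff_continuousAt]
  intro r
  by_cases h : 0 < r ∧ r < 1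
  · have h1 : ContinuousAt lam r := by
      unfold lam
      have := h.1.ne'
      have h2 : (1 - r) / r ≠ 0 := (div_pos (by linarith [h.2]) h.1).ne'
      fun_prop (disch := assumption)
    exact (Complex.continuous_ofReal.comp dd_cont).continuousAt.mul
      (f.continuous.continuousAt.comp h1)
  · unfold ContinuousAt
    simp only [dd_zero h, Complex.ofReal_zero, zero_mul]
    have h2 : Tendsto (fun x => dd x * ‖f‖) (𝓝 r) (𝓝 0) := by
      have := (dd_cont.tendsto r).mul_const ‖f‖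
      rwa [dd_zero h, zero_mul] at this
    refine squeeze_zero_norm (fun x => ?_) h2
    rw [norm_mul, Complex.norm_real, Real.norm_eq_abs, abs_of_nonneg (dd_nonneg x)]
    exact mul_le_mul_of_nonneg_left (f.norm_coe_le_norm _) (dd_nonneg x)

/-- The coordinate function. -/
noncomputable def xK : C(KI, ℂ) := (ContinuousMap.id ℂ).restrict KI

/-- The function `dd` on the interval. -/
noncomputable def dK : C(KI, ℂ) := ⟨fun z => (dd z.1.re : ℂ), by have := dd_cont; fun_prop⟩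

/-- The function `dd * (f ∘ lam)` on the interval. -/
noncomputable def lK (f : ℝ →ᵇ ℂ) : C(KI, ℂ) :=
  ⟨fun z => (dd z.1.re : ℂ) * f (lam z.1.re),
    (lift_cont f).comp (Complex.continuous_re.comp continuous_subtype_val)⟩

/-- The function `conj (F (1 - z))`. -/
noncomputable def flK (F : C(KI, ℂ)) : C(KI, ℂ) := star (F.comp KI.refl)

@[simp] theorem xK_apply (z : KI) : xK z = z.1 := rfl
@[simp] theorem dK_apply (z : KI) : dK z = (dd z.1.re : ℂ) := rfl
@[simp] theorem lK_apply (f : ℝ →ᵇ ℂ) (z : KI) : lK f z = (dd z.1.re : ℂ) * f (lam z.1.re) := rfl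
@[simp] theorem flK_apply (F : C(KI, ℂ)) (z : KI) : flK F z = conj (F (KI.refl z)) := rfl

theorem dK_sq : dK * dK = xK - xK * xK := by
  ext z
  simp only [ContinuousMap.mul_apply, dK_apply, ContinuousMap.sub_apply, xK_apply]
  rw [← Complex.ofReal_mul, dd_sq (KI.mem z)]
  push_cast
  rw [KI.coe]
  ring

theorem star_dK : star dK = dK := by
  ext z
  simp

variable {H : Type u} [NormedAddCommGroup H] [InnerProductSpace ℂ H] [CompleteSpace H]

open ComplexOrder in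
theorem t1_psi {C : H →L[ℂ] H} (h0 : 0 ≤ C) (h1 : 0 ≤ 1 - C) :
    ∃ Ψ : C(KI, ℂ) →⋆ₐ[ℂ] (H →L[ℂ] H), Continuous Ψ ∧ Ψ xK = C := by
  have hs : spectrum ℂ C ⊆ KI := by
    intro z hz
    have a0 := spectrum_nonneg_of_nonneg h0 hz
    have hz' : 1 - z ∈ spectrum ℂ (1 - C) := by
      have := spectrum.singleton_sub_eq C (1 : ℂ)
      rw [map_one] at this
      rw [← this]
      exact Set.sub_mem_sub rfl hz
    have a1 := spectrum_nonneg_of_nonneg h1 hz'
    rw [Complex.nonneg_iff] at a0 a1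
    refine ⟨z.re, ⟨a0.1, by simpa using a1.1⟩, ?_⟩
    apply Complex.ext <;> simp [a0.2.symm]
  have hn : IsStarNormal C := (IsSelfAdjoint.of_nonneg h0).isStarNormal
  exact ⟨cfcHomSuperset hn hs, cfcHomSuperset_continuous hn hs, cfcHomSuperset_id hn hs⟩

theorem psi_sq (Ψ : C(KI, ℂ) →⋆ₐ[ℂ] (H →L[ℂ] H)) (F : C(KI, ℂ)) (h : H) :
    ⟪h, Ψ (star F * F) h⟫_ℂ = ((‖Ψ F h‖ ^ 2 : ℝ) : ℂ) := by
  rw [map_mul, map_star, ContinuousLinearMap.mul_apply, ContinuousLinearMap.star_eq_adjoint,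
    ContinuousLinearMap.adjoint_inner_right, inner_self_eq_norm_sq_to_K]
  push_cast
  rfl

theorem psi_le (Ψ : C(KI, ℂ) →⋆ₐ[ℂ] (H →L[ℂ] H)) (F G : C(KI, ℂ)) (hFG : ∀ z, ‖F z‖ ≤ ‖G z‖)
    (h : H) : ‖Ψ F h‖ ≤ ‖Ψ G h‖ := by
  let k : C(KI, ℂ) := ⟨fun z => ((√(‖G z‖ ^ 2 - ‖F z‖ ^ 2) : ℝ) : ℂ), by fun_prop⟩
  have e : star G * G = star F * F + star k * k := by
    ext z
    have h1 : 0 ≤ ‖G z‖ ^ 2 - ‖F z‖ ^ 2 := by nlinarith [hFG z, norm_nonneg (F z)]
    change conj (G z) * G z = conj (F z) * F z + conj ((√(‖G z‖ ^ 2 - ‖F z‖ ^ 2) : ℝ) : ℂ) *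
      ((√(‖G z‖ ^ 2 - ‖F z‖ ^ 2) : ℝ) : ℂ)
    rw [Complex.conj_ofReal, ← Complex.ofReal_mul, Real.mul_self_sqrt h1, Complex.conj_mul',
      Complex.conj_mul']
    push_cast
    ring
  have e2 := psi_sq Ψ G h
  rw [e, map_add, ContinuousLinearMap.add_apply, inner_add_right, psi_sq, psi_sq,
    ← Complex.ofReal_add, Complex.ofReal_inj] at e2
  refine (pow_le_pow_iff_left₀ (norm_nonneg _) (norm_nonneg _) two_ne_zero).1 ?_
  nlinarith [sq_nonneg ‖Ψ k h‖]

theorem t1_phi (Ψ : C(KI, ℂ) →⋆ₐ[ℂ] (H →L[ℂ] H)) (hi : ∀ h, Ψ dK h = 0 → h = 0) :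
    ∃ Φ : (ℝ →ᵇ ℂ) →⋆ₐ[ℂ] (H →L[ℂ] H), ∀ f, Φ f * Ψ dK = Ψ (lK f) := by
  have hsa : IsSelfAdjoint (Ψ dK) := by rw [IsSelfAdjoint, ← map_star, star_dK]
  have hd : DenseRange (Ψ dK) := t1_dense hsa hi
  have hb : ∀ (f : ℝ →ᵇ ℂ) h, ‖Ψ (lK f) h‖ ≤ ‖f‖ * ‖Ψ dK h‖ := by
    intro f h
    refine (psi_le Ψ (lK f) ((‖f‖ : ℂ) • dK) (fun z => ?_) h).trans ?_
    · simp only [lK_apply, ContinuousMap.smul_apply, dK_apply, smul_eq_mul, norm_mul]
      rw [mul_comm, Complex.norm_real ‖f‖, norm_norm]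
      exact mul_le_mul_of_nonneg_right (f.norm_coe_le_norm _) (norm_nonneg _)
    · rw [map_smul, ContinuousLinearMap.smul_apply, norm_smul, Complex.norm_real, norm_norm]
  have ex : ∀ f : ℝ →ᵇ ℂ, ∃ Y : H →L[ℂ] H, Y * Ψ dK = Ψ (lK f) := fun f =>
    ⟨(Ψ (lK f) : H →ₗ[ℂ] H).extendOfNorm (Ψ dK : H →ₗ[ℂ] H), ContinuousLinearMap.ext fun h =>
      LinearMap.extendOfNorm_eq (f := (Ψ (lK f) : H →ₗ[ℂ] H)) (e := (Ψ dK : H →ₗ[ℂ] H)) hd
        ⟨‖f‖, hb f⟩ h⟩
  choose P hP using ex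
  have cr : ∀ X Y : H →L[ℂ] H, X * Ψ dK = Y * Ψ dK → X = Y := fun X Y h =>
    ContinuousLinearMap.ext fun η => congrFun (hd.equalizer X.continuous Y.continuous
      (funext fun k => congrArg (fun T : H →L[ℂ] H => T k) h)) η
  have cl : ∀ X Y : H →L[ℂ] H, Ψ dK * X = Ψ dK * Y → X = Y := fun X Y h =>
    ContinuousLinearMap.ext fun η => sub_eq_zero.1 (hi _ (by
      rw [map_sub, sub_eq_zero]
      exact congrArg (fun T : H →L[ℂ] H => T η) h))
  have hone : P 1 = 1 := cr _ _ (by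
    rw [hP, one_mul]; congr 1; ext z; simp)
  have hsm : ∀ (c : ℂ) f, P (c • f) = c • P f := fun c f => cr _ _ (by
    rw [hP, smul_mul_assoc, hP, ← map_smul]; congr 1; ext z; simp; ring)
  refine ⟨{ toFun := P
            map_one' := hone
            map_mul' := fun f g => cr _ _ (cr _ _ ?_)
            map_zero' := by simpa using hsm 0 0
            map_add' := fun f g => cr _ _ ?_
            commutes' := fun c => ?_
            map_star' := fun f => cl _ _ (cr _ _ ?_) }, hP⟩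
  · have e1 : P f * P g * Ψ dK * Ψ dK = P f * Ψ dK * Ψ (lK g) := by
      rw [mul_assoc (P f), hP, mul_assoc, mul_assoc, ← map_mul, ← map_mul, mul_comm dK]
    rw [e1, hP, hP, ← map_mul, ← map_mul]
    congr 1; ext z; simp; ring
  · rw [add_mul, hP, hP, hP, ← map_add]
    congr 1; ext z; simp; ring
  · rw [Algebra.algebraMap_eq_smul_one, Algebra.algebraMap_eq_smul_one, hsm, hone]
  · have e1 : Ψ dK * star (P f) = Ψ (star (lK f)) := by
      rw [map_star, ← hP, star_mul, hsa.star_eq]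
    rw [e1, mul_assoc, hP, ← map_mul, ← map_mul]
    congr 1; ext z; simp; ring

end Vale.Agent.P132
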