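import Vale.Agent.P132.Basic
import Vale.Agent.P082.Base

/-! The linear Radon–Nikodym lemma. -/

namespace Vale.Agent.P132

open scoped InnerProductSpace BoundedContinuousFunction ComplexConjugate
open Filter Topology MeasureTheory

universe u

variable {H : Type u} [NormedAddCommGroup H] [InnerProductSpace ℂ H] [CompleteSpace H]
  {M : VonNeumannAlgebra H} {ξ : H}

theorem mem_closure_of_inner {E : Type*} [NormedAddCommGroup E] [InnerProductSpace ℂ E]
    [CompleteSpace E] (K : Set E) (hne : K.Nonempty)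
    (hc : ∀ p ∈ K, ∀ q ∈ K, ∀ s t : ℝ, 0 ≤ s → 0 ≤ t → s + t = 1 → (s : ℂ) • p + (t : ℂ) • q ∈ K)
    (r : E) (h : ∀ p ∈ closure K, ∀ ε : ℝ, 0 < ε → ∃ q ∈ K, -ε ≤ (⟪r - p, q - r⟫_ℂ).re) :
    r ∈ closure K := by
  letI : InnerProductSpace ℝ E := InnerProductSpace.complexToReal
  have hK : Convex ℝ K := fun p hp q hq s t hs ht hst => by
    simpa only [Complex.coe_smul] using hc p hp q hq s t hs ht hst
  obtain ⟨p, hp, hmin⟩ := exists_norm_eq_iInf_of_complete_convex hne.closure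
    isClosed_closure.isComplete hK.closure r
  rw [norm_eq_iInf_iff_real_inner_le_zero hK.closure hp] at hmin
  have h0 : ‖r - p‖ ^ 2 ≤ 0 := by
    refine le_of_forall_pos_le_add fun ε hε => ?_
    obtain ⟨q, hq, h1⟩ := h p hp ε hε
    have h2 := hmin q (subset_closure hq)
    have e : q - p = (q - r) + (r - p) := by abel
    rw [e, inner_add_right, real_inner_self_eq_norm_sq] at h2
    change (⟪r - p, q - r⟫_ℂ).re + _ ≤ _ at h2
    linarith
  have h1 : r - p = 0 := norm_eq_zero.1 (pow_eq_zero_iff two_ne_zero |>.1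
    (le_antisymm h0 (by positivity)))
  rwa [sub_eq_zero.1 h1]

/-- An approximate polar factorisation. -/
theorem exists_factor {z : H →L[ℂ] H} (hz : z ∈ M) {e : ℝ} (he : 0 < e) :
    ∃ a ∈ M, ∃ b ∈ M, ∃ v ∈ M, ‖v‖ ≤ 1 ∧ z = a * b ∧
      (∀ η, ‖b η‖ ^ 2 ≤ (⟪z η, v η⟫_ℂ).re + e * ‖η‖ ^ 2) ∧
      ∀ η, ‖star a η‖ ^ 2 = (⟪star z η, star v η⟫_ℂ).re := by
  set T := star z * z with hT
  have hT0 : 0 ≤ T := star_mul_self_nonneg z
  have hTM : T ∈ M := mul_mem (star_mem hz) hz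
  let g : ℝ → ℝ := fun t => √(√(|t| + e ^ 2))
  have hg : Continuous g := by fun_prop
  have hge : ∀ t, e ≤ g t * g t := fun t => by
    rw [Real.mul_self_sqrt (Real.sqrt_nonneg _)]
    exact Real.le_sqrt_of_sq_le (by linarith [abs_nonneg t])
  have hg0 : ∀ t, 0 < g t := fun t => Real.sqrt_pos.2 (Real.sqrt_pos.2 (by positivity))
  have hgi : Continuous fun t => (g t)⁻¹ := hg.inv₀ fun t => (hg0 t).ne'
  have hmem : ∀ f : ℝ → ℝ, cfc f T ∈ M := fun f => P104.mem_of_commute fun y hy =>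
    (Commute.cfc_real (P104.commute_of_mem hTM hy) f).symm.eq
  set b := cfc g T with hb
  set w := cfc (fun t => (g t)⁻¹) T with hw
  have hbs : star b = b := (cfc_predicate g T : IsSelfAdjoint _)
  have hws : star w = w := (cfc_predicate _ T : IsSelfAdjoint _)
  have hwb : w * b = 1 := by
    rw [hw, hb, ← cfc_mul _ _ T hgi.continuousOn hg.continuousOn, ← cfc_const_one ℝ T]
    exact cfc_congr fun t _ => inv_mul_cancel₀ (hg0 t).ne'
  have hbw : b * w = 1 := by simpa only [star_mul, hbs, hws, star_one] using congrArg star hwb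
  have hb4 : b * b * (b * b) = T + ((e ^ 2 : ℝ) : ℂ) • 1 := by
    have h1 : T + ((e ^ 2 : ℝ) : ℂ) • 1 = cfc (fun t : ℝ => t + e ^ 2) T := by
      rw [cfc_add_const _ _ T, cfc_id' ℝ T, Algebra.algebraMap_eq_smul_one, Complex.coe_smul]
    rw [h1, hb, ← cfc_mul _ _ T hg.continuousOn hg.continuousOn,
      ← cfc_mul (fun t => g t * g t) (fun t => g t * g t) T (hg.mul hg).continuousOn
        (hg.mul hg).continuousOn]
    refine cfc_congr fun t ht => ?_
    have h0 : 0 ≤ t := spectrum_nonneg_of_nonneg hT0 ht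
    simp only [g]
    rw [Real.mul_self_sqrt (Real.sqrt_nonneg _), Real.mul_self_sqrt (by positivity),
      abs_of_nonneg h0]
  have hwn : e * ‖w * w‖ ≤ 1 := by
    rw [hw, ← cfc_mul _ _ T hgi.continuousOn hgi.continuousOn, ← le_div_iff₀' he]
    refine norm_cfc_le (by positivity) fun t _ => ?_
    rw [← mul_inv, Real.norm_eq_abs, abs_of_pos (inv_pos.2 (mul_pos (hg0 t) (hg0 t))), one_div]
    exact inv_anti₀ he (hge t)
  have hTe : T = b * b * (b * b) - ((e ^ 2 : ℝ) : ℂ) • 1 := by rw [hb4, add_sub_cancel_right]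
  have hsq : ∀ (x : H →L[ℂ] H) η, ‖x η‖ ^ 2 = (⟪η, (star x * x) η⟫_ℂ).re := fun x η => by
    rw [mul_apply_eq_comp, ContinuousLinearMap.star_eq_adjoint,
      ContinuousLinearMap.adjoint_inner_right, inner_self_eq_norm_sq_to_K]
    norm_cast
  have hbbww : b * b * (w * w) = 1 := by rw [mul_assoc, ← mul_assoc b w, hbw, one_mul, hbw]
  have hwwbb : w * w * (b * b) = 1 := by rw [mul_assoc, ← mul_assoc w b, hwb, one_mul, hwb]
  have hTw : T * (w * w) = b * b - ((e ^ 2 : ℝ) : ℂ) • (w * w) := by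
    rw [hTe, sub_mul, mul_assoc, hbbww, mul_one, smul_mul_assoc, one_mul]
  refine ⟨z * w, mul_mem hz (hmem _), b, hmem _, z * (w * w),
    mul_mem hz (mul_mem (hmem _) (hmem _)), ?_, by rw [mul_assoc, hwb, mul_one], fun η => ?_,
    fun η => ?_⟩
  · refine ContinuousLinearMap.opNorm_le_bound _ zero_le_one fun η => ?_
    rw [one_mul, ← sq_le_sq₀ (norm_nonneg _) (norm_nonneg _), hsq]
    have e1 : star (z * (w * w)) * (z * (w * w)) =
        1 - ((e ^ 2 : ℝ) : ℂ) • (star (w * w) * (w * w)) := by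
      rw [star_mul, mul_assoc, ← mul_assoc (star z), ← hT, hTw, mul_sub, mul_smul_comm, star_mul,
        hws, hwwbb]
    rw [e1, ContinuousLinearMap.sub_apply, inner_sub_right, ContinuousLinearMap.smul_apply,
      inner_smul_right, Complex.sub_re, Complex.re_ofReal_mul, ← hsq, ← star_one (H →L[ℂ] H),
      ← mul_one (star 1), ← hsq, one_apply_eq_self]
    nlinarith [sq_nonneg e, sq_nonneg ‖(w * w) η‖]
  · have e1 : ⟪z η, (z * (w * w)) η⟫_ℂ = ⟪η, (T * (w * w)) η⟫_ℂ := by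
      rw [hT, mul_assoc, mul_apply_eq_comp (star z), ContinuousLinearMap.star_eq_adjoint,
        ContinuousLinearMap.adjoint_inner_right]
    rw [e1, hTw, hsq, hbs, ContinuousLinearMap.sub_apply, inner_sub_right,
      ContinuousLinearMap.smul_apply, inner_smul_right, Complex.sub_re, Complex.re_ofReal_mul]
    have h1 : (⟪η, (w * w) η⟫_ℂ).re ≤ ‖η‖ * (‖w * w‖ * ‖η‖) :=
      (Complex.re_le_norm _).trans ((norm_inner_le_norm _ _).trans
        (mul_le_mul_of_nonneg_left ((w * w).le_opNorm η) (norm_nonneg _)))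
    have h2 := mul_le_mul_of_nonneg_left h1 (sq_nonneg e)
    have h3 := mul_le_mul_of_nonneg_left hwn (mul_nonneg he.le (sq_nonneg ‖η‖))
    nlinarith
  · rw [star_mul, star_mul, star_mul, hws, mul_apply_eq_comp, mul_apply_eq_comp, hsq, hws]

/-- The linear Radon–Nikodym lemma. -/
theorem rn {y : H →L[ℂ] H} (hy : y ∈ M.commutant) {a : ℝ} (ha : 0 < a) {η θ : H}
    (hΓ : (η, θ) ∈ graphS M ξ)
    (h : ∀ z ∈ M, ⟪y ξ, z ξ⟫_ℂ = ((a ^ 2 : ℝ) : ℂ) * ⟪η, z ξ⟫_ℂ +
      ((a⁻¹ ^ 2 : ℝ) : ℂ) * ⟪star z ξ, θ⟫_ℂ) :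
    ∃ x ∈ M, x ξ = η ∧ star x ξ = θ := by
  let j : H × H → WithLp 2 (H × H) := fun p =>
    WithLp.toLp 2 ((a : ℂ) • p.1, ((a⁻¹ : ℝ) : ℂ) • p.2)
  have hj : Continuous j := by fun_prop
  have hjs : ∀ p q, j (p - q) = j p - j q := fun p q => by
    simp only [j, ← WithLp.toLp_sub, Prod.mk_sub_mk, smul_sub, Prod.fst_sub, Prod.snd_sub]
  have hji : ∀ p q, (⟪j p, j q⟫_ℂ).re =
      a ^ 2 * (⟪p.1, q.1⟫_ℂ).re + a⁻¹ ^ 2 * (⟪p.2, q.2⟫_ℂ).re := fun p q => by
    simp only [j, WithLp.prod_inner_apply, inner_smul_left, inner_smul_right, Complex.conj_ofReal,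
      Complex.add_re, Complex.re_ofReal_mul]
    ring
  let K : Set (WithLp 2 (H × H)) := {q | ∃ x ∈ M, ‖x‖ ≤ ‖y‖ ∧ q = j (x ξ, star x ξ)}
  let V : Set (WithLp 2 (H × H)) := {q | ∃ x ∈ M, q = j (x ξ, star x ξ)}
  obtain ⟨B, hB0, hB⟩ : ∃ B : ℝ, 0 < B ∧ ∀ q ∈ K, ‖q - j (η, θ)‖ ≤ B := by
    have hb : Bornology.IsBounded K := by
      refine isBounded_iff_forall_norm_le.2 ⟨(a + a⁻¹) * (‖y‖ * ‖ξ‖), ?_⟩
      rintro _ ⟨x, -, hx, rfl⟩
      have h1 : ‖x ξ‖ ≤ ‖y‖ * ‖ξ‖ :=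
        (x.le_opNorm ξ).trans (mul_le_mul_of_nonneg_right hx (norm_nonneg _))
      have h2 : ‖star x ξ‖ ≤ ‖y‖ * ‖ξ‖ := ((star x).le_opNorm ξ).trans
        (mul_le_mul_of_nonneg_right (by rwa [norm_star]) (norm_nonneg _))
      have e : j (x ξ, star x ξ) = WithLp.toLp 2 ((a : ℂ) • x ξ, 0) +
          WithLp.toLp 2 (0, ((a⁻¹ : ℝ) : ℂ) • star x ξ) := by
        simp only [j, ← WithLp.toLp_add, Prod.mk_add_mk, add_zero, zero_add]
      rw [e]
      refine (norm_add_le _ _).trans ?_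
      rw [WithLp.norm_toLp_fst, WithLp.norm_toLp_snd, norm_smul, norm_smul, Complex.norm_real,
        Complex.norm_real, Real.norm_of_nonneg ha.le, Real.norm_of_nonneg (inv_pos.2 ha).le,
        add_mul]
      gcongr
    obtain ⟨B, hB⟩ := isBounded_iff_forall_norm_le.1 hb
    refine ⟨|B| + ‖j (η, θ)‖ + 1, by positivity, fun q hq => (norm_sub_le _ _).trans ?_⟩
    linarith [hB q hq, le_abs_self B]
  have hr : j (η, θ) ∈ closure V := map_mem_closure hj hΓ (by
    rintro _ ⟨x, hx, rfl⟩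
    exact ⟨x, hx, rfl⟩)
  have hcl : j (η, θ) ∈ closure K := by
    refine mem_closure_of_inner K ⟨_, 0, zero_mem _, by simp, rfl⟩ ?_ _ fun p hp ε hε => ?_
    · rintro _ ⟨x1, h1, n1, rfl⟩ _ ⟨x2, h2, n2, rfl⟩ s t hs ht hst
      refine ⟨(s : ℂ) • x1 + (t : ℂ) • x2, add_mem (P104.vn_smul_mem _ h1)
        (P104.vn_smul_mem _ h2), ?_, ?_⟩
      · refine (norm_add_le _ _).trans ?_
        rw [norm_smul, norm_smul, Complex.norm_real, Complex.norm_real, Real.norm_of_nonneg hs,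
          Real.norm_of_nonneg ht]
        calc s * ‖x1‖ + t * ‖x2‖ ≤ s * ‖y‖ + t * ‖y‖ := by gcongr
          _ = ‖y‖ := by rw [← add_mul, hst, one_mul]
      · simp only [j, ← WithLp.toLp_smul, ← WithLp.toLp_add, Prod.smul_mk, Prod.mk_add_mk,
          star_add, star_smul, RCLike.star_def, Complex.conj_ofReal,
          ContinuousLinearMap.add_apply, ContinuousLinearMap.smul_apply, smul_add]
        simp only [smul_comm (s : ℂ), smul_comm (t : ℂ)]
    · have hd : j (η, θ) - p ∈ closure V := by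
        refine map_mem_closure₂ continuous_sub hr hp ?_
        rintro _ ⟨x1, h1, rfl⟩ _ ⟨x2, h2, -, rfl⟩
        refine ⟨x1 - x2, sub_mem h1 h2, ?_⟩
        rw [← hjs, star_sub]
        rfl
      obtain ⟨_, ⟨z, hz, rfl⟩, hzd⟩ := Metric.mem_closure_iff.1 hd (ε / 2 / B) (by positivity)
      have hA : 0 < ‖y‖ * a ^ 2 * ‖ξ‖ ^ 2 + 1 := by positivity
      obtain ⟨a', ha', b, hb, v, hv, nv, hab, k1, k2⟩ :=
        exists_factor hz (div_pos (half_pos hε) hA)
      have hq : j (((‖y‖ : ℂ) • v) ξ, star ((‖y‖ : ℂ) • v) ξ) ∈ K := by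
        refine ⟨_, P104.vn_smul_mem _ hv, ?_, rfl⟩
        rw [norm_smul, Complex.norm_real, norm_norm]
        exact mul_le_of_le_one_right (norm_nonneg _) nv
      refine ⟨_, hq, ?_⟩
      set q := j (((‖y‖ : ℂ) • v) ξ, star ((‖y‖ : ℂ) • v) ξ) with hqd
      set d := j (η, θ) - p
      have e1 : ⟪d, q - j (η, θ)⟫_ℂ = ⟪d - j (z ξ, star z ξ), q - j (η, θ)⟫_ℂ +
          (⟪j (z ξ, star z ξ), q⟫_ℂ - ⟪j (z ξ, star z ξ), j (η, θ)⟫_ℂ) := by
        rw [← inner_sub_right, ← inner_add_left, sub_add_cancel]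
      have f1 : -(ε / 2) ≤ (⟪d - j (z ξ, star z ξ), q - j (η, θ)⟫_ℂ).re := by
        refine neg_le_of_abs_le ((Complex.abs_re_le_norm _).trans
          ((norm_inner_le_norm _ _).trans ?_))
        rw [dist_eq_norm] at hzd
        calc _ ≤ ε / 2 / B * B := mul_le_mul hzd.le (hB q hq) (norm_nonneg _) (by positivity)
          _ = ε / 2 := by field_simp
      have f2 : (⟪j (z ξ, star z ξ), j (η, θ)⟫_ℂ).re ≤ ‖y‖ * ‖star a' ξ‖ * ‖b ξ‖ := by
        have g1 := congrArg Complex.re (h z hz)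
        rw [Complex.add_re, Complex.re_ofReal_mul, Complex.re_ofReal_mul,
          ← inner_conj_symm η, Complex.conj_re] at g1
        rw [hji, ← g1]
        have g2 : ⟪y ξ, z ξ⟫_ℂ = ⟪y (star a' ξ), b ξ⟫_ℂ := by
          rw [← mul_apply_eq_comp, ← P104.commute_of_mem (star_mem ha') hy, mul_apply_eq_comp,
            ContinuousLinearMap.star_eq_adjoint, ContinuousLinearMap.adjoint_inner_left, hab,
            mul_apply_eq_comp]
        rw [g2]
        exact (Complex.re_le_norm _).trans ((norm_inner_le_norm _ _).trans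
          (mul_le_mul_of_nonneg_right (y.le_opNorm _) (norm_nonneg _)))
      have f3 : (⟪j (z ξ, star z ξ), q⟫_ℂ).re = ‖y‖ * (a ^ 2 * (⟪z ξ, v ξ⟫_ℂ).re +
          a⁻¹ ^ 2 * (⟪star z ξ, star v ξ⟫_ℂ).re) := by
        rw [hqd, hji]
        simp only [star_smul, RCLike.star_def, Complex.conj_ofReal,
          ContinuousLinearMap.smul_apply, inner_smul_right, Complex.re_ofReal_mul]
        ring
      have f4 : ‖star a' ξ‖ * ‖b ξ‖ ≤ a ^ 2 * ‖b ξ‖ ^ 2 + a⁻¹ ^ 2 * ‖star a' ξ‖ ^ 2 := by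
        have g1 : a * a⁻¹ = 1 := mul_inv_cancel₀ ha.ne'
        have g2 := sq_nonneg (a * ‖b ξ‖ - a⁻¹ * ‖star a' ξ‖)
        have g3 : 0 ≤ ‖star a' ξ‖ * ‖b ξ‖ := by positivity
        have g4 : a * ‖b ξ‖ * (a⁻¹ * ‖star a' ξ‖) = ‖star a' ξ‖ * ‖b ξ‖ := by
          field_simp
        nlinarith
      have f5 : ‖y‖ * a ^ 2 * ‖ξ‖ ^ 2 * (ε / 2 / (‖y‖ * a ^ 2 * ‖ξ‖ ^ 2 + 1)) ≤ ε / 2 := by
        rw [mul_div_assoc', div_le_iff₀ hA]
        nlinarith
      have f6 := mul_le_mul_of_nonneg_left (k1 ξ) (mul_nonneg (norm_nonneg y) (sq_nonneg a))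
      have f7 := mul_le_mul_of_nonneg_left f4 (norm_nonneg y)
      rw [e1, Complex.add_re, Complex.sub_re, f3, ← k2]
      nlinarith
  obtain ⟨q, hq, hlim⟩ := mem_closure_iff_seq_limit.1 hcl
  choose x hx nx ex using hq
  have l1 : Tendsto (fun n => x n ξ) atTop (𝓝 η) := by
    have hc : Continuous fun p : WithLp 2 (H × H) => ((a : ℂ)⁻¹ • p.fst : H) := by fun_prop
    have := (hc.tendsto _).comp hlim
    have h0 : (a : ℂ) ≠ 0 := by exact_mod_cast ha.ne'
    simpa only [Function.comp_def, ex, j, WithLp.toLp_fst, inv_smul_smul₀ h0] using this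
  have l2 : Tendsto (fun n => star (x n) ξ) atTop (𝓝 θ) := by
    have hc : Continuous fun p : WithLp 2 (H × H) => (((a⁻¹ : ℝ) : ℂ)⁻¹ • p.snd : H) := by
      fun_prop
    have := (hc.tendsto _).comp hlim
    have h0 : ((a⁻¹ : ℝ) : ℂ) ≠ 0 := by exact_mod_cast (inv_pos.2 ha).ne'
    simpa only [Function.comp_def, ex, j, WithLp.toLp_snd, inv_smul_smul₀ h0] using this
  obtain ⟨w, hw⟩ := P082.exists_wlim (M := M) (hyperfilter ℕ) (fun n => ⟨x n, hx n⟩) ‖y‖ nx
  have hU : (hyperfilter ℕ : Filter ℕ) ≤ atTop := Nat.hyperfilter_le_atTop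
  refine ⟨w.1, w.2, ext_inner_left ℂ fun ζ => ?_, ext_inner_right ℂ fun ζ => ?_⟩
  · exact tendsto_nhds_unique (hw ξ ζ) ((tendsto_const_nhds.inner l1).mono_left hU)
  · rw [ContinuousLinearMap.star_eq_adjoint, ContinuousLinearMap.adjoint_inner_left]
    refine tendsto_nhds_unique (hw ζ ξ) (((l2.inner tendsto_const_nhds).mono_left hU).congr
      fun n => ?_)
    rw [ContinuousLinearMap.star_eq_adjoint, ContinuousLinearMap.adjoint_inner_left]

end Vale.Agent.P132
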